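import Crest.Agent.SCS.PT2

/-! The whole algorithm on lists of strings. -/

set_option autoImplicit false
set_option linter.dupNamespace false

namespace Crest.Agent.SCS

open Crest.Agent.PT

variable {α : Type} [Enc α]

/-- Test for being a contiguous substring. -/
def isInf (s t : Str) : Bool :=
  decide (s ∈ mapRange (t.length + 1) fun p => (t.drop p).take s.length)

lemma isInf_iff {s t : Str} : isInf s t ↔ s <:+: t := by
  simp only [isInf, decide_eq_true_eq, mem_mapRange]
  constructor
  · rintro ⟨p, -, h⟩
    exact h ▸ (List.take_prefix _ _).isInfix.trans (List.drop_suffix _ _).isInfix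
  · rintro ⟨a, b, rfl⟩
    exact ⟨a.length, by simp, by simp⟩

/-- Removing duplicates. -/
def dedupL (L : List Str) : List Str := L.foldl (fun acc x => if x ∈ acc then acc else x :: acc) []

lemma dedupL_spec (L : List Str) : (dedupL L).Nodup ∧ ∀ x, x ∈ dedupL L ↔ x ∈ L := by
  induction L using List.reverseRecOn with
  | nil => simp [dedupL]
  | append_singleton L y ih =>
    have e : dedupL (L ++ [y]) = if y ∈ dedupL L then dedupL L else y :: dedupL L := by
      simp [dedupL]
    rw [e]
    split_ifs with h
    · refine ⟨ih.1, fun x => ?_⟩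
      rw [ih.2, List.mem_append, List.mem_singleton]
      exact ⟨Or.inl, fun h' => h'.elim id fun h' => h' ▸ (ih.2 y).1 h⟩
    · exact ⟨List.nodup_cons.2 ⟨h, ih.1⟩, fun x => by simp [ih.2, or_comm]⟩

/-- The maximal nonempty strings of the family. -/
def norm (S : List Str) : List Str :=
  dedupL (S.filter fun s => !s.isEmpty && !S.any fun t => isInf s t && !decide (s = t))

lemma mem_norm {S : List Str} {s : Str} :
    s ∈ norm S ↔ s ∈ S ∧ s ≠ [] ∧ ∀ t ∈ S, s <:+: t → s = t := by
  simp [norm, (dedupL_spec _).2, isInf_iff]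

lemma exists_norm {S : List Str} {s : Str} (hs : s ∈ S) (hne : s ≠ []) :
    ∃ t ∈ norm S, s <:+: t := by
  induction hk : S.flatten.length - s.length using Nat.strong_induction_on generalizing s with
  | _ k ih =>
  by_cases h : ∀ t ∈ S, s <:+: t → s = t
  · exact ⟨s, mem_norm.2 ⟨hs, hne, h⟩, List.infix_refl _⟩
  · push Not at h
    obtain ⟨t, ht, h1, h2⟩ := h
    have h3 : s.length < t.length := by
      by_contra hc
      exact h2 (h1.eq_of_length_le (by omega))
    have h4 := (List.sublist_flatten_of_mem ht).length_le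
    obtain ⟨t', k1, k2⟩ := ih _ (by omega) ht (by rintro rfl; simp at h3) rfl
    exact ⟨t', k1, h1.trans k2⟩

lemma ctx_norm (S : List Str) {T : Str} (hT : ∀ s ∈ norm S, s <:+: T) :
    Ctx (norm S) (T ++ [(norm S).flatten.sum + 1]) ((norm S).flatten.length + 1) where
  nd := (dedupL_spec _).1
  ne s hs := (mem_norm.1 hs).2.1
  free s hs t ht := (mem_norm.1 hs).2.2 t (mem_norm.1 ht).1
  occ s hs := by
    obtain ⟨a, b, h⟩ := hT s hs
    generalize hu : T ++ [(norm S).flatten.sum + 1] = u
    refine ⟨a.length, eq_str_of_prefix (j := u.length) ?_⟩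
    have := drop_str (cyc u) 0 u.length a.length
    rw [str_cyc, zero_add] at this
    rw [← this, ← hu, ← h]
    simp
  lt s hs := by
    have := (List.sublist_flatten_of_mem hs).length_le
    omega
  fresh := ⟨T.length, fun s hs h => by
    rw [cyc_nat, Nat.mod_eq_of_lt (by simp)] at h
    simp only [List.getD_eq_getElem?_getD, le_refl, List.getElem?_append_right, Nat.sub_self,
      List.getElem?_cons_zero, Option.getD_some] at h
    have := List.single_le_sum (fun _ _ => Nat.zero_le _) _ (List.mem_flatten.2 ⟨s, hs, h⟩)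
    omega⟩
  upos := by simp

/-- The main loop. -/
def mainLoop (S : List Str) : St := (levels (S.flatten.length + 1)).foldl (stage S) st0

/-- The algorithm. -/
def algo (S : List Str) : Str :=
  final (mainLoop (norm S)).2.1 (mainLoop (norm S)).2.2.2.1 (mainLoop (norm S)).2.2.2.2.1

theorem algo_fin (S : List Str) {T : Str} (hT : ∀ s ∈ norm S, s <:+: T) :
    (∀ s ∈ norm S, s <:+: algo S) ∧ (algo S).length ≤ 2 * T.length := by
  have hc := ctx_norm S hT
  have := Inv.run hc (by omega) _ le_rfl
  rw [Nat.sub_self] at this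
  have h := (this.fin hc).final
  rw [List.length_append, List.length_singleton, Nat.add_sub_cancel] at h
  exact h

theorem algo_spec (S : List Str) : (∀ s ∈ S, s <:+: algo S) ∧
    ∀ T : Str, (∀ s ∈ S, s <:+: T) → (algo S).length ≤ 2 * T.length := by
  refine ⟨fun s hs => ?_, fun T hT => (algo_fin S fun s hs => hT s (mem_norm.1 hs).1).2⟩
  by_cases h : s = []
  · rw [h]; exact List.nil_infix
  · obtain ⟨t, h1, h2⟩ := exists_norm hs h
    exact h2.trans ((algo_fin S (T := (norm S).flatten)
      fun s hs => List.infix_of_mem_flatten hs).1 t h1)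

@[fun_prop] lemma pt_norm {S : α → List Str} (hS : PT S) : PT fun a => norm (S a) :=
  PT.foldl_add (f := fun _ acc x => if x ∈ acc then acc else x :: acc) (by fun_prop)
    (by unfold isInf; fun_prop) (by fun_prop) (g := fun _ b => 2 * sz b + 1) (by fun_prop)
    fun _ s b => by split_ifs <;> simp; omega

lemma sz_flatten {β : Type} [Enc β] (L : List (List β)) : sz L = 2 * sz L.flatten + L.length := by
  induction L with
  | nil => rfl
  | cons a L ih => simp [ih]; omega

lemma Inv.sz {S : List Str} {u : Str} {top l : ℕ} {st : St} (h : Inv S u top l st) :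
    sz st.1 ≤ u.length * (12 * sz S + 7) ∧ sz st.2.1 ≤ u.length * (12 * sz S + 7) := by
  obtain ⟨Φ, G, h, -⟩ := h
  have key : ∀ L : List Wk, (∀ e ∈ L.flatten, e.1 <+: e.2 ∧ Sub S e.2) → L.length ≤ u.length →
      L.flatten.length ≤ u.length → PT.sz L ≤ u.length * (12 * PT.sz S + 7) := by
    intro L h1 h2 h3
    have := sz_le_of_forall (l := L.flatten) (M := 3 * PT.sz S + 1) fun e he => by
      obtain ⟨k1, s, hs, k2⟩ := h1 e he
      have a1 := sz_le_of_sublist k1.sublist
      have a2 := sz_le_of_sublist k2.sublist
      have a3 := sz_le_of_mem hs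
      obtain ⟨e1, e2⟩ := e
      simp only [sz_prod] at *
      omega
    have h4 := Nat.mul_le_mul_right (2 * (3 * PT.sz S + 1) + 1) h3
    rw [sz_flatten]
    nlinarith
  have hc := h.cnt
  rw [tot_eq] at hc
  refine ⟨key _ (fun e he => ⟨?_, (h.ent e (Or.inl he)).2.1⟩) (by omega) (by omega),
    key _ (fun e he => ⟨?_, (h.ent e (Or.inr he)).2.1⟩) ?_ (by omega)⟩
  · obtain ⟨a, ha, he⟩ := List.mem_flatten.1 he
    exact ((h.ow a ha).ch.mem he).1
  · obtain ⟨a, ha, he⟩ := List.mem_flatten.1 he
    exact ((h.val a ha).mem he).1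
  · have : st.2.1.length ≤ tot st.2.1 := by
      have := List.sum_le_sum (l := st.2.1) (f := fun _ => 1) (g := List.length)
        fun c hc => (h.val c hc).pos
      simpa [tot] using this
    rw [tot_eq] at this
    omega

lemma pt_mainLoop : PT fun S : List Str => mainLoop (norm S) := by
  obtain ⟨P, hP⟩ := (pt_cands (PT.id' (α := List Wk))).pb_sz
  let B : List Str → ℕ := fun S => ((norm S).flatten.length + 1) * (12 * sz (norm S) + 7)
  have hB : PB B := by fun_prop
  have hP' := hB.eval P
  refine PT.foldl (f := fun S => stage (norm S)) (by fun_prop) (by unfold levels; fun_prop)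
    (by fun_prop) (t := fun S => 4 * B S + 5 + ((norm S).flatten.length + 1) *
      (2 * sz (norm S) + B S * (12 * B S + 4 * P.eval (B S) + 20))) (by fun_prop) fun S L hL => ?_
  have hc := ctx_norm S (T := (norm S).flatten) fun s hs => List.infix_of_mem_flatten hs
  generalize hN : norm S = N at *
  have hb : ∀ k ≤ N.flatten.length + 1,
      sz ((mapRange k fun k => N.flatten.length + 1 - 1 - k).foldl (stage N) st0).1 ≤ B S ∧
      sz ((mapRange k fun k => N.flatten.length + 1 - 1 - k).foldl (stage N) st0).2.1 ≤ B S :=
    fun k hk => by simpa [B, hN] using (Inv.run hc (by omega) k hk).sz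
  have hx : ∀ k ≤ N.flatten.length + 1,
      sz ((mapRange k fun k => N.flatten.length + 1 - 1 - k).foldl (stage N) st0).2.2 ≤
        3 + k * (2 * sz N + B S * (12 * B S + 4 * P.eval (B S) + 20)) := by
    intro k
    induction k with
    | zero => intro _; simp [mapRange, st0]
    | succ k ih =>
      intro hk
      have h1 := ih (by omega)
      have h2 := (hb _ hk).2
      rw [mapRange_succ, List.foldl_append, List.foldl_cons, List.foldl_nil] at h2 ⊢
      generalize (mapRange k fun k => N.flatten.length + 1 - 1 - k).foldl (stage N) st0 = st at *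
      generalize N.flatten.length + 1 - 1 - k = l at *
      obtain ⟨opn, cls, pend, y⟩ := st
      unfold stage at h2 ⊢
      dsimp only at h1 h2 ⊢
      generalize matchAll (grow opn pend) cls = m at *
      have h3 : sz (N.filter fun s => decide (s.length = l)) ≤ sz N :=
        sz_le_of_sublist List.filter_sublist
      have h4 := sz_events l m.1 m.2 (N.filter fun s => decide (s.length = l), y)
      have h5 : sz (cands m.2) ≤ P.eval (B S) := (hP m.2).trans (eval_mono P h2)
      have h6 : sz m.2 * (12 * sz m.2 + 4 * sz (cands m.2) + 20) ≤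
        B S * (12 * B S + 4 * P.eval (B S) + 20) := by gcongr
      rw [add_mul]
      simp only [sz_prod] at h1 h4
      split_ifs
      · simp only [sz_prod]; omega
      · omega
  have hk : L.length ≤ N.flatten.length + 1 := by simpa [levels] using hL.length_le
  have e : L = mapRange L.length fun k => N.flatten.length + 1 - 1 - k := by
    refine List.ext_getElem (by simp) fun i h1 h2 => ?_
    rw [hL.getElem h1]; simp [levels]
  obtain ⟨h1, h2⟩ := hb _ hk
  have h3 := hx _ hk
  rw [← e] at h1 h2 h3
  have h4 := Nat.mul_le_mul_right (2 * sz N + B S * (12 * B S + 4 * P.eval (B S) + 20)) hk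
  generalize L.foldl (stage N) st0 = st at *
  obtain ⟨a, b, c⟩ := st
  simp only [sz_prod] at *
  omega

lemma pt_algo : PT algo := by
  have := pt_mainLoop
  unfold algo; fun_prop

end Crest.Agent.SCS
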