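import Crest.Agent.SCS.PTLib

/-! Parsing counted lists. -/

set_option autoImplicit false
set_option linter.dupNamespace false

namespace Crest.Agent.PT

open Crest.Enc

variable {α β : Type} [Enc α] [Enc β]

/-- One step of reading a counted list; `x` only bounds the sizes. -/
def manyStep {β : Type} (p : List Bool → β × List Bool) (x : List Bool)
    (s : ℕ × List Bool × List β) : ℕ × List Bool × List β :=
  if s.1 = 0 then s else (s.1 - 1, (p s.2.1).2.take x.length, s.2.2 ++ [(p s.2.1).1])

/-- Reading a counted list. -/
def parseMany {β : Type} (p : List Bool → β × List Bool) (x : List Bool) : List β × List Bool :=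
  ((x.foldl (fun s _ => manyStep p x s) ((parseNat x).1, (parseNat x).2.take x.length, [])).2.2,
    (x.foldl (fun s _ => manyStep p x s) ((parseNat x).1, (parseNat x).2.take x.length, [])).2.1)

omit [Enc β] in
lemma manyStep_spec {p : List Bool → β × List Bool} {c : β → List Bool}
    (hp : ∀ b r, p (c b ++ r) = (b, r)) (x : List Bool) (l : List Bool) (L : List β)
    (r : List Bool) (acc : List β) (h : L.length ≤ l.length)
    (hx : ((L.map c).flatten ++ r).length ≤ x.length) :
    l.foldl (fun s _ => manyStep p x s) (L.length, (L.map c).flatten ++ r, acc) =
      (0, r, acc ++ L) := by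
  induction l generalizing L acc with
  | nil =>
    obtain rfl : L = [] := by simpa using h
    simp
  | cons b l ih =>
    cases L with
    | nil => simpa [manyStep] using ih [] acc (by simp) hx
    | cons a L =>
      have hx' : ((L.map c).flatten ++ r).length ≤ x.length := by
        simp only [List.map_cons, List.flatten_cons, List.length_append] at hx ⊢
        omega
      have := ih L (acc ++ [a]) (by simpa using h) hx'
      rw [List.foldl_cons]
      simp only [manyStep, List.length_cons, Nat.add_one_ne_zero, if_false, List.map_cons,
        List.flatten_cons, List.append_assoc, hp, Nat.add_sub_cancel, List.take_of_length_le hx']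
      simpa [manyStep] using this

omit [Enc β] in
lemma parseMany_spec {p : List Bool → β × List Bool} {c : β → List Bool}
    (hp : ∀ b r, p (c b ++ r) = (b, r)) (hc : ∀ b, c b ≠ []) (L : List β) (r : List Bool) :
    parseMany p (natCode L.length ++ (L.map c).flatten ++ r) = (L, r) := by
  have h1 : L.length ≤ (L.map c).flatten.length := by
    induction L with
    | nil => simp
    | cons a L ih =>
      have := List.length_pos_iff.2 (hc a)
      simp only [List.map_cons, List.flatten_cons, List.length_append, List.length_cons]
      omega
  unfold parseMany
  rw [List.append_assoc, parseNat_spec]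
  dsimp only
  rw [List.take_of_length_le (by simp only [List.length_append]; omega),
    manyStep_spec hp _ _ L r [] (by simp only [List.length_append]; omega)
      (by simp only [List.length_append]; omega)]
  simp

lemma sz_bools (l : List Bool) : sz l ≤ 3 * l.length := by
  have := sz_le_of_forall (l := l) (M := 1) fun b _ => sz_bool b
  omega

lemma PT.parseMany {p : List Bool → β × List Bool} (hp : PT p) : PT (parseMany p) := by
  obtain ⟨P, hP⟩ := hp.fst.pb_sz
  have hb : PB fun x : List Bool => P.eval (3 * x.length) := PB.eval (by fun_prop) P
  have h0 : PT Crest.Agent.PT.parseNat := PT.parseNat PT.id'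
  unfold Crest.Agent.PT.parseMany
  generalize Crest.Agent.PT.parseNat = q at h0
  have h : PT fun x : List Bool => x.foldl (fun s _ => manyStep p x s)
      ((q x).1, (q x).2.take x.length, []) := by
    refine PT.foldl (f := fun x s _ => manyStep p x s) (by unfold manyStep; fun_prop) PT.id'
      (by fun_prop) (t := fun x => 2 * sz (q x).1 + 6 * x.length + 2 +
        x.length * (2 * P.eval (3 * x.length) + 1)) (by fun_prop) fun x l hl => ?_
    have key : ∀ (l : List Bool) s, l.foldl (fun s _ => manyStep p x s)
          ((q x).1, (q x).2.take x.length, []) = s →
        s.1 ≤ (q x).1 ∧ s.2.1.length ≤ x.length ∧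
          sz s.2.2 ≤ l.length * (2 * P.eval (3 * x.length) + 1) := by
      intro l
      induction l using List.reverseRecOn with
      | nil => rintro _ rfl; simp
      | append_singleton l b ih =>
        rintro _ rfl
        have ih := ih _ rfl
        simp only [List.foldl_append, List.foldl_cons, List.foldl_nil, List.length_append,
          List.length_singleton, add_mul] at ih ⊢
        generalize l.foldl (fun s _ => manyStep p x s) _ = s at ih ⊢
        obtain ⟨h1, h2, h3⟩ := ih
        have h4 : sz (p s.2.1).1 ≤ _ := (hP s.2.1).trans (eval_mono P ((sz_bools _).trans (Nat.mul_le_mul_left 3 h2)))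
        unfold manyStep
        split_ifs
        · exact ⟨h1, h2, by omega⟩
        · refine ⟨by simp only; omega, by simp, ?_⟩
          simp only [sz_append, sz_cons, sz_nil]
          omega
    obtain ⟨h1, h2, h3⟩ := key l _ rfl
    generalize l.foldl (fun s _ => manyStep p x s) _ = s at h1 h2 h3 ⊢
    obtain ⟨s1, s2, s3⟩ := s
    have a1 := sz_nat_mono h1
    have a2 := sz_bools s2
    have a3 := Nat.mul_le_mul_right (2 * P.eval (3 * x.length) + 1) hl.length_le
    simp only [sz_prod] at *
    omega
  exact h.snd.snd.pair h.snd.fst

end Crest.Agent.PT
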