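import Crest.Agent.SCS.Match

/-! The invariant of the walks and of the surplus. -/

set_option autoImplicit false
set_option linter.dupNamespace false

namespace Crest.Agent.SCS

open Crest.Agent.PT

/-- Extending an open walk by one level. -/
def ext (a : Wk) : Wk := ((hd a).dropLast, (a.headD ([], [])).2) :: a.tail ++ [(tl a, tl a)]

/-- A new walk. -/
def single (s : Str) : Wk := [(s.dropLast, s)]

/-- The nodes of open walks. -/
def onodes (opn : List Wk) (pend : List Str) : List Str :=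
  opn.flatMap (fun a => tl a :: nodes a) ++ pend

lemma mem_onodes {opn : List Wk} {pend : List Str} {n : Str} : n ∈ onodes opn pend ↔
    n ∈ tails opn ∨ (∃ e ∈ opn.flatten, n <+: e.2 ∧ e.1.length ≤ n.length) ∨ n ∈ pend := by
  simp only [onodes, List.mem_append, List.mem_flatMap, List.mem_cons, mem_nodes, mem_tails,
    List.mem_flatten]
  constructor
  · rintro (⟨a, ha, rfl | ⟨e, he, h⟩⟩ | h)
    · exact Or.inl ⟨a, ha, rfl⟩
    · exact Or.inr (Or.inl ⟨e, ⟨a, ha, he⟩, h⟩)
    · exact Or.inr (Or.inr h)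
  · rintro (⟨a, ha, rfl⟩ | ⟨e, ⟨a, ha, he⟩, h⟩ | h)
    · exact Or.inl ⟨a, ha, Or.inl rfl⟩
    · exact Or.inl ⟨a, ha, Or.inr ⟨e, he, h⟩⟩
    · exact Or.inr h

lemma OW.ext {l : ℕ} {a : Wk} (h : OW (l + 1) a) :
    OW l (ext a) ∧ hd (ext a) = (hd a).dropLast ∧ tl (ext a) = (tl a).tail := by
  have h1 : Ch (hd a).dropLast (SCS.ext a) (tl a).tail := by
    obtain ⟨h1, h2, h3, h4⟩ := h
    cases a with
    | nil => exact absurd rfl h1
    | cons e r =>
      refine Ch_append.2 ⟨tl (e :: r), ⟨rfl, ?_, h2.2.2.1, h2.2.2.2⟩, rfl, List.prefix_refl _,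
        ?_, rfl⟩
      · exact (List.dropLast_prefix _).trans h2.2.1
      · intro hc
        simp only at hc
        rw [hc] at h4; simp at h4
  have h2 : SCS.ext a ≠ [] := by simp [SCS.ext]
  obtain ⟨h3, h4⟩ := h1.hd_tl h2
  exact ⟨⟨h2, by rw [h3, h4]; exact h1, by simp [h3, h.lh], by simp [h4, h.lt]⟩, h3, h4⟩

lemma OW_single {l : ℕ} {s : Str} (h : s.length = l + 1) : OW l (single s) :=
  ⟨by simp [single], ⟨rfl, List.dropLast_prefix _, by rintro rfl; simp at h, rfl⟩,
    by simp [single, hd, h], by simp [single, tl, h]⟩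

lemma mem_ext {a : Wk} (h : a ≠ []) {e : Ent} (he : e ∈ ext a) :
    e ∈ a ∨ (∃ e0 ∈ a, e0.1 = hd a ∧ e = (e0.1.dropLast, e0.2)) ∨ e = (tl a, tl a) := by
  cases a with
  | nil => exact absurd rfl h
  | cons f r =>
    simp only [ext, List.cons_append, List.mem_cons, List.mem_append, List.tail_cons,
      List.not_mem_nil, or_false] at he
    rcases he with rfl | he | rfl
    · exact Or.inr (Or.inl ⟨f, by simp, rfl, rfl⟩)
    · exact Or.inl (by simp [he])
    · exact Or.inr (Or.inr rfl)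

lemma ext_of_mem {a : Wk} {e : Ent} (he : e ∈ a) :
    ∃ e' ∈ ext a, e'.2 = e.2 ∧ e'.1.length ≤ e.1.length := by
  cases a with
  | nil => simp at he
  | cons f r =>
    rcases List.mem_cons.1 he with rfl | he
    · exact ⟨_, List.mem_cons_self, rfl, by simp [hd]⟩
    · exact ⟨e, by simp [ext, he], rfl, le_rfl⟩

lemma OW.ext_hd {l : ℕ} {a : Wk} (h : OW (l + 1) a) :
    ∃ e' ∈ SCS.ext a, hd a <+: e'.2 ∧ e'.1.length < (hd a).length := by
  obtain ⟨h1, h2, h3, h4⟩ := h
  cases a with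
  | nil => exact absurd rfl h1
  | cons f r => exact ⟨_, List.mem_cons_self, h2.2.1, by simp [h3]⟩

lemma tl_mem {a : Wk} (h : a ≠ []) : ∃ e ∈ a, tl a = e.2.tail := by
  induction a using List.reverseRecOn with
  | nil => exact absurd rfl h
  | append_singleton r e _ => exact ⟨e, by simp, by simp [tl]⟩

lemma OW.hd_pre {l : ℕ} {a : Wk} (h : OW l a) : ∃ e ∈ a, e.1 = hd a ∧ hd a <+: e.2 := by
  obtain ⟨e, he, h1⟩ := h.hd_mem
  exact ⟨e, he, h1, h1 ▸ (h.ch.mem he).1⟩

/-- Occurrence in a cyclic string. -/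
def Occ (u q : Str) : Prop := ∃ p : ℤ, q = str (cyc u) p (p + q.length)

/-- Being part of an input. -/
def Sub (S : List Str) (q : Str) : Prop := ∃ s ∈ S, q <:+: s

lemma Sub.of_infix {S : List Str} {q q' : Str} (h : Sub S q) (h' : q' <:+: q) : Sub S q' := by
  obtain ⟨s, hs, h⟩ := h
  exact ⟨s, hs, h'.trans h⟩

/-- The fixed data. -/
structure Ctx (S : List Str) (u : Str) (top : ℕ) : Prop where
  nd : S.Nodup
  ne : ∀ s ∈ S, s ≠ []
  free : ∀ s ∈ S, ∀ t ∈ S, s <:+: t → s = t
  occ : ∀ s ∈ S, Occ u s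
  lt : ∀ s ∈ S, s.length < top
  fresh : ∃ t0, ∀ s ∈ S, cyc u t0 ∉ s
  upos : 0 < u.length

/-- The invariant of walks and surplus. -/
structure BInv (S : List Str) (u : Str) (top l : ℕ) (opn cls : List Wk) (pend bs : List Str)
    (Φ : Str → Prop) (G : Multiset Str) : Prop where
  ltop : l ≤ top
  ow : ∀ a ∈ opn, OW l a
  nd : cls.Nodup
  val : ∀ c ∈ cls, Valid c
  ent : ∀ e, e ∈ opn.flatten ∨ e ∈ cls.flatten →
    l < e.2.length ∧ Sub S e.2 ∧ (e.2 ∈ S ∨ e.2 ∈ bs ∨ e.1 = e.2)
  pnd : pend.Nodup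
  pend' : ∀ s ∈ pend, s ∈ G ∧ Sub S s ∧ (s ∈ S ∨ s ∈ bs)
  cov : ∀ s ∈ S, l < s.length → ∃ e, (e ∈ opn.flatten ∨ e ∈ cls.flatten) ∧ e.2 = s
  covP : ∀ s ∈ S, s.length = l → s ∈ pend
  lenG : ∀ q ∈ G, q.length = l
  ΦG : ∀ q, Φ q → q.length = l → q ∈ G
  bal : (G + heads opn).map List.dropLast = (G + tails opn).map List.tail
  leakR : ∀ g, Φ g → l < g.length → Φ g.tail ∨ g.tail ∈ heads opn ∨
    ∃ e, (e ∈ opn.flatten ∨ e ∈ cls.flatten) ∧ g.tail <+: e.2 ∧ e.1.length < g.tail.length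
  leakD : ∀ g, Φ g → l < g.length → Φ g.dropLast ∨ g.dropLast ∈ tails opn ∨
    ∃ e, (e ∈ opn.flatten ∨ e ∈ cls.flatten) ∧ g.dropLast = e.2
  occ : ∀ q, Occ u q → top < q.length → Φ q
  cnt : G.card + opn.length + opn.flatten.length + tot cls ≤ u.length

namespace BInv

variable {S : List Str} {u : Str} {top l : ℕ} {opn cls : List Wk} {pend bs : List Str}
    {Φ : Str → Prop} {G : Multiset Str} (h : BInv S u top l opn cls pend bs Φ G)

include h

lemma sub_heads {q : Str} (hq : q ∈ heads opn) : ∃ e ∈ opn.flatten, q <+: e.2 ∧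
    e.1.length ≤ q.length := by
  obtain ⟨a, ha, rfl⟩ := mem_heads.1 hq
  obtain ⟨e, he, h1, h2⟩ := (h.ow a ha).hd_pre
  exact ⟨e, List.mem_flatten.2 ⟨a, ha, he⟩, h2, by rw [h1]⟩

lemma spec (q : Str) (h1 : Occ u q) (h2 : ¬ Sub S q) (h3 : l ≤ q.length) : Φ q := by
  induction hk : top + 1 - q.length generalizing q with
  | zero => exact h.occ q h1 (by omega)
  | succ k ih =>
    obtain ⟨p, hp⟩ := h1
    have e : (str (cyc u) (p - 1) (p + q.length)).tail = q := by rw [tail_str, ← hp]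
    have hl : (str (cyc u) (p - 1) (p + q.length)).length = q.length + 1 := by
      rw [length_str]; omega
    have ho : Occ u (str (cyc u) (p - 1) (p + q.length)) := ⟨p - 1, str_norm _ _ _⟩
    generalize str (cyc u) (p - 1) (p + q.length) = g at e hl ho
    have := ih g ho
      (fun hs => h2 (hs.of_infix (e ▸ (List.tail_suffix _).isInfix))) (by omega) (by omega)
    rcases h.leakR _ this (by omega) with h4 | h4 | ⟨f, hf, h4, -⟩
    · exact e ▸ h4
    · obtain ⟨f, hf, h5, -⟩ := h.sub_heads h4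
      exact absurd ((h.ent f (Or.inl hf)).2.1.of_infix (e ▸ h5.isInfix)) h2
    · exact absurd ((h.ent f hf).2.1.of_infix (e ▸ h4.isInfix)) h2

/-- Open nodes are parts of inputs, and an input inside is a prefix. -/
lemma onode_inp (hc : Ctx S u top) {n : Str} (hn : n ∈ onodes opn pend) {s : Str} (hs : s ∈ S)
    (hi : s <:+: n) : s = n := by
  have key : ∀ m, n <:+: m → Sub S m → s = n := by
    rintro m h1 ⟨t, ht, h2⟩
    have := hc.free s hs t ht (hi.trans (h1.trans h2))
    subst this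
    exact hi.eq_of_length_le (h1.trans h2).length_le
  rcases mem_onodes.1 hn with h1 | ⟨e, he, h1, -⟩ | h1
  · obtain ⟨a, ha, rfl⟩ := mem_tails.1 h1
    obtain ⟨e, he, h2⟩ := tl_mem (h.ow a ha).ne
    exact key e.2 (h2 ▸ (List.tail_suffix _).isInfix)
      (h.ent e (Or.inl (List.mem_flatten.2 ⟨a, ha, he⟩))).2.1
  · exact key e.2 h1.isInfix (h.ent e (Or.inl he)).2.1
  · exact key n (List.infix_refl _) (h.pend' n h1).2.1

lemma cnode_sub {c : Wk} (hc : c ∈ cls) {n : Str} (hn : n ∈ nodes c) : Sub S n := by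
  obtain ⟨e, he, h1, -⟩ := mem_nodes.1 hn
  exact (h.ent e (Or.inr (List.mem_flatten.2 ⟨c, hc, he⟩))).2.1.of_infix h1.isInfix

lemma birth {v : Str} (h1 : Φ v) (h2 : v.length = l) (h3 : v ∉ pend) (h4 : Sub S v) :
    BInv S u top l opn cls (v :: pend) (v :: bs) Φ G :=
  { h with
    ent := fun e he => ⟨(h.ent e he).1, (h.ent e he).2.1,
      (h.ent e he).2.2.imp id (Or.imp (List.mem_cons_of_mem _) id)⟩
    pnd := List.nodup_cons.2 ⟨h3, h.pnd⟩
    pend' := fun s hs => by
      rcases List.mem_cons.1 hs with rfl | hs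
      · exact ⟨h.ΦG _ h1 h2, h4, Or.inr List.mem_cons_self⟩
      · exact ⟨(h.pend' s hs).1, (h.pend' s hs).2.1,
          (h.pend' s hs).2.2.imp id (List.mem_cons_of_mem _)⟩
    covP := fun s hs hl => List.mem_cons_of_mem _ (h.covP s hs hl) }

end BInv

/-- The start. -/
lemma BInv.init {S : List Str} {u : Str} {top : ℕ} (hc : Ctx S u top) (ht : 0 < top) :
    BInv S u top top [] [] [] [] (fun q => Occ u q ∧ top ≤ q.length)
      ((Multiset.range u.length).map fun p : ℕ => str (cyc u) p (p + top)) where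
  ltop := le_rfl
  ow := by simp
  nd := by simp
  val := by simp
  ent := by simp
  pnd := by simp
  pend' := by simp
  cov := fun s hs h => by have := hc.lt s hs; omega
  covP := fun s hs h => by have := hc.lt s hs; omega
  lenG := by
    intro q hq
    obtain ⟨p, -, rfl⟩ := Multiset.mem_map.1 hq
    simp
  ΦG := by
    rintro q ⟨⟨p, hp⟩, -⟩ hl
    obtain ⟨s, k, h1, rfl⟩ := exists_red hc.upos p
    refine Multiset.mem_map.2 ⟨s, by simpa using h1, ?_⟩
    rw [hp, hl, ← str_per ((per_cyc u).mul k)]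
    congr 1; ring
  bal := by
    simp only [heads, tails, List.map_nil, Multiset.coe_nil, add_zero, Multiset.map_map,
      Function.comp_def]
    obtain ⟨n, hn⟩ : ∃ n, u.length = n + 1 := ⟨u.length - 1, by have := hc.upos; omega⟩
    let f : ℕ → Str := fun p => str (cyc u) p (p + top - 1)
    have e1 : ∀ p : ℕ, (str (cyc u) p (p + top)).dropLast = f p := fun p => by
      simp only [f]
      rw [← dropLast_str (cyc u) p (p + top - 1), sub_add_cancel]
    have e2 : ∀ p : ℕ, (str (cyc u) p (p + top)).tail = f (p + 1) := fun p => by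
      simp only [f]
      rw [← tail_str (cyc u) (p + 1 : ℕ)]; congr 2 <;> push_cast <;> ring
    have e3 : f (n + 1) = f 0 := by
      simp only [f]
      rw [← str_per (per_cyc u) ((0 : ℕ) : ℤ), hn]; congr 1 <;> push_cast <;> ring
    simp only [e1, e2]
    rw [hn]
    conv_rhs => rw [Multiset.range_succ, Multiset.map_cons, e3]
    have : ∀ n, (Multiset.range (n + 1)).map f = f 0 ::ₘ (Multiset.range n).map fun p => f (p + 1) := by
      intro n
      induction n with
      | zero => simp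
      | succ n ih =>
        rw [Multiset.range_succ, Multiset.map_cons, ih, Multiset.range_succ, Multiset.map_cons,
          Multiset.cons_swap]
    exact this n
  leakR := by
    rintro g ⟨⟨p, hp⟩, -⟩ hl
    refine Or.inl ⟨⟨p + 1, ?_⟩, by simp; omega⟩
    have : g.tail = str (cyc u) (p + 1) (p + g.length) := by
      rw [← tail_str, add_sub_cancel_right, ← hp]
    rw [this]; exact str_norm _ _ _
  leakD := by
    rintro g ⟨⟨p, hp⟩, -⟩ hl
    refine Or.inl ⟨⟨p, ?_⟩, by simp; omega⟩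
    exact eq_str_of_prefix (j := p + g.length) (by rw [← hp]; exact List.dropLast_prefix _)
  occ := fun q h1 h2 => ⟨h1, h2.le⟩
  cnt := by simp [tot]

end Crest.Agent.SCS
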