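import Crest.Agent.SCS.Bridge

/-! The birth theorem for lists. -/

set_option autoImplicit false
set_option linter.dupNamespace false

namespace Crest.Agent.SCS

open Crest.Agent.PT

namespace Trap

variable {S : List Str} {u : Str} {top l : ℕ} {opn cls : List Wk} {pend bs : List Str}
    {Φ : Str → Prop} {G : Multiset Str} (h : BInv S u top l opn cls pend bs Φ G) (hl : 1 ≤ l)
    {recs : List (Str × List Wk)} {W : Wk} {e0 : Ent}
    (t : Trap l cls (onodes opn pend) recs W e0) (hc : Ctx S u top)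

include h hc in
lemma inpJ {y : Lift Wk} (hy : ZZ.L y) (hk : y.id ∈ cls) {i j : ℤ} (hij : l + i ≤ j)
    (hs : str y.w i j ∈ S) : ∃ (Q : ℤ → ℕ) (a : ℤ), a ≤ i ∧
    Q (a - 1) ≠ y.w (a - 1) ∧ Agr Q y.w a j ∧ Φ (str Q (a - 1) j) := by
  obtain ⟨p, hp⟩ := hc.occ _ hs
  obtain ⟨t0, ht0⟩ := hc.fresh
  have e1 : str (shw (cyc u) (i - p)) i j = str y.w i j := by
    rw [str_sh', hp, length_str]; congr 1 <;> omega
  have hA := agr_of_str e1
  obtain ⟨k, k1, k2⟩ := exists_mul_window (p := u.length) (by exact_mod_cast hc.upos)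
    (t0 + (i - p)) (i - u.length)
  have hne : shw (cyc u) (i - p) (t0 + (i - p) + k * u.length) ≠
      y.w (t0 + (i - p) + k * u.length) := by
    intro hcon
    simp only [shw] at hcon
    rw [show t0 + (i - p) + k * u.length - (i - p) = t0 + k * u.length by ring,
      (per_cyc u).mul k] at hcon
    obtain ⟨e, he, -, h2, h3⟩ := ent_of_lift hy (t0 + (i - p) + k * u.length)
    have := List.length_pos_iff.2 ((h.val _ hk).mem he).2
    obtain ⟨s, hs, h4⟩ := (h.ent e (Or.inr (List.mem_flatten.2 ⟨_, hk, he⟩))).2.1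
    exact ht0 s hs (h4.subset (hcon ▸ h3 ▸ mem_str le_rfl (by omega)))
  obtain ⟨a, ⟨a1, a2⟩, a3⟩ := Int.exists_least_of_bdd
    (P := fun a => a ≤ i ∧ Agr (shw (cyc u) (i - p)) y.w a j)
    ⟨t0 + (i - p) + k * u.length, fun z hz => by
      by_contra hcon
      exact hne (hz.2 _ (by omega) (by omega))⟩ ⟨i, le_rfl, hA⟩
  refine ⟨_, a, a1, fun hcon => ?_, a2, h.spec _ ⟨a - 1 - (i - p), ?_⟩ ?_ (by simp; omega)⟩
  · have := a3 (a - 1) ⟨by omega, fun t h1 h2 => by
      rcases eq_or_lt_of_le h1 with h3 | h3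
      · rw [← h3]; exact hcon
      · exact a2 t (by omega) h2⟩
    omega
  · rw [str_sh']; exact str_norm _ _ _
  · rintro ⟨s, hs', h1⟩
    have h2 : str y.w i j <:+: str (shw (cyc u) (i - p)) (a - 1) j :=
      e1 ▸ str_infix _ (by omega) le_rfl
    have := hc.free _ hs s hs' (h2.trans h1)
    have h3 := h1.length_le
    rw [← this] at h3
    simp at h3
    omega

/-- The peak structure. -/
def pk (hrec : ∀ β ∈ bs, ∃ r ∈ recs, r.1 = β ∧ RecOK Φ (onodes opn pend) cls r.1 r.2 ∧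
      ∀ c ∈ r.2, c ∈ cls)
    {y0 : Lift Wk} (hy : ZZ.L y0) (hid : y0.id = W) (i0 : ℤ)
    (h0 : y0.h (i0 - 1) = i0 + e0.1.length) : Pk (t.ev h hl hy hid) where
  Inp Q i j := str Q i j ∈ S
  Inp_congr hA hF := str_congr hA ▸ hF
  Inp_sh d hF := by rwa [str_sh]
  inpO Q i j i' j' ho hs h1 h2 h3 := by
    have := congrArg List.length (h.onode_inp hc ho hs (str_infix _ h1 h2))
    simp at this
    omega
  inpC y i j i' j' hy hk hn hs h1 h2 h3 := by
    obtain ⟨s, hs', h4⟩ := h.cnode_sub hk (node_of_lift hy hn).1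
    have := hc.free _ hs s hs' ((str_infix _ h1 h2).trans h4)
    have h5 := h4.length_le
    rw [← this] at h5
    simp at h5
    omega
  inpJ y i j hy hk hij hs := inpJ h hc hy ((reach_sublist _ _).subset hk) hij hs
  peak y i hy hk := by
    obtain ⟨e, he, h1, h2, h3⟩ := ent_of_lift hy i
    have hk' := (reach_sublist _ _).subset hk
    rcases (h.ent e (Or.inr (List.mem_flatten.2 ⟨_, hk', he⟩))).2.2 with h4 | h4 | h4
    · exact Or.inr (Or.inl (h3 ▸ h4))
    · obtain ⟨r, hr, r1, r2, r3⟩ := hrec _ h4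
      obtain ⟨y', k1, k2⟩ := r2 i
      rw [r1] at k1 k2
      refine Or.inr (Or.inr ⟨y', (· ∈ r.2), ?_, ?_, fun c hc => mem_elig.2 ⟨r3 c hc, Or.inr
        ⟨r, hr, hc, y.id, hk, mem_nodes.2 ⟨e, he, r1 ▸ List.prefix_refl _,
          r1 ▸ ((h.val _ hk').mem he).1.length_le⟩⟩⟩⟩)
      · rw [h2, add_sub_cancel_left]; exact k2
      · rw [h2]; exact agr_of_str (k1.trans h3.symm)
    · left; rw [h1, h2, h4]
  N := top
  bound y i hy hk := by
    obtain ⟨e, he, -, h2, -⟩ := ent_of_lift hy i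
    obtain ⟨s, hs, h4⟩ := (h.ent e (Or.inr (List.mem_flatten.2
      ⟨_, (reach_sublist _ _).subset hk, he⟩))).2.1
    have := h4.length_le
    have := hc.lt s hs
    omega
  i0 := i0
  nd0 := by
    have e : i0 + ((h.dyn hl).l) + (t.ev h hl hy hid).p = y0.h (i0 - 1) := by
      change i0 + l + per y0.id = _
      rw [h0, hid, t.e0l]; push_cast; ring
    rw [e]
    exact ⟨le_rfl, ZZ.mono y0 hy (by omega)⟩
  KC c hc := (reach_sublist _ _).subset hc
  reach c hc := by
    change Relation.ReflTransGen _ c y0.id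
    rw [hid]
    have h1 := t.back c hc
    induction h1 using Relation.ReflTransGen.head_induction_on with
    | refl => exact Relation.ReflTransGen.refl
    | @head c d he _ ih =>
      have hd := (mem_reach t.mem).2 (((mem_reach t.mem).1 hc).tail he)
      refine (ih hd).head ⟨hd, ?_⟩
      obtain ⟨hd', n, n1, n2⟩ := he
      obtain ⟨p, hp⟩ := band_str n2
      obtain ⟨y', k1, k2, k3, k4⟩ := lift_of_node (h.val d hd') n1 p
      refine ⟨(lift0 c).sh 0, y', p, _, L_lift (h.val c ((reach_sublist _ _).subset hc)) 0, k1, rfl,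
        k2, k3, agr_of_str (j' := p + n.length) ?_⟩
      rw [k4, Lift.sh_w, str_sh', sub_zero, sub_zero]
      exact hp

include h hl t hc in
theorem birth (hrec : ∀ β ∈ bs, ∃ r ∈ recs, r.1 = β ∧ RecOK Φ (onodes opn pend) cls r.1 r.2 ∧
      ∀ c ∈ r.2, c ∈ cls) :
    (e0.1.take l).length = l ∧ Φ (e0.1.take l) ∧ e0.1.take l ∈ band W ∧ Sub S (e0.1.take l) ∧
    RecOK Φ (onodes opn pend) cls (e0.1.take l) (reach cls W) := by
  have hv := h.val W t.mem
  have hp := (hv.mem t.e0m).1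
  have e0l := t.e0l
  have hlen : (e0.1.take l).length = l := by simp; omega
  have key : ∀ i0 : ℤ, ∃ y, ZZ.L y ∧ y.id = W ∧ y.h (i0 - 1) = i0 + e0.1.length ∧
      y.h i0 = i0 + e0.2.length ∧ str y.w i0 (i0 + l) = e0.1.take l := fun i0 => by
    obtain ⟨y, hy, h1, h2, h3, h4⟩ := lift_of_ent hv t.e0m i0
    refine ⟨y, hy, h1, h2, h3, ?_⟩
    have := eq_str_of_prefix (h4 ▸ (List.take_prefix l e0.1).trans hp)
    rw [hlen] at this
    exact this.symm
  obtain ⟨y, hy, h1, h2, h3, h4⟩ := key 0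
  refine ⟨hlen, h4 ▸ (t.pk h hl hc hrec hy h1 0 h2).birth, ?_,
    (h.ent e0 (Or.inr (List.mem_flatten.2 ⟨W, t.mem, t.e0m⟩))).2.1.of_infix
      ((List.take_prefix l e0.1).trans hp).isInfix, fun i0 => ?_⟩
  · have h5 := lift_per hy
    have hper := ZZ.per y hy
    have : ZZ.InBand (y.sh (-per W)) 0 (0 + l) := by
      have hm := ZZ.mono y hy
      have a1 := hm (show 0 - (per W : ℤ) - 1 - -per W ≤ 0 - 1 by omega)
      have a2 := hm (show (0 : ℤ) ≤ 0 - -per W by omega)
      have := hp.length_le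
      constructor
      · rw [Lift.sh_h, Lift.sh_id, h1, ZZ_π]; omega
      · rw [Lift.sh_h, Lift.sh_id, h1, ZZ_π]; omega
    have := band_of_lift (ZZ.sh_mem _ _ hy) this (by omega)
    rw [h1, ZZ_π] at hper
    rwa [Lift.sh_id, Lift.sh_w, (Stat.Per_neg hper).shw, h4, h1] at this
  · obtain ⟨y, hy, h1, h2, -, h4⟩ := key i0
    rw [hlen]
    exact ⟨y, h4, (t.pk h hl hc hrec hy h1 i0 h2).cert⟩

end Trap

end Crest.Agent.SCS
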