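import Crest.Agent.SCS.Geo5

/-! The birth theorem. -/

set_option autoImplicit false
set_option linter.dupNamespace false

namespace Crest.Agent.SCS

variable {ι : Type}

/-- A node of `d` is a window of the word of `c`. -/
def Stat.Shr (Z : Stat ι) (c d : ι) : Prop :=
  ∃ y y' i j, Z.L y ∧ Z.L y' ∧ y.id = c ∧ y'.id = d ∧ y'.Nd i j ∧ Agr y'.w y.w i j

/-- Structure of the peaks. -/
structure Pk {Z : Stat ι} {D : Dyn Z} (V : Ev D) where
  /-- Occurrences of inputs. -/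
  Inp : (ℤ → ℕ) → ℤ → ℤ → Prop
  Inp_congr : ∀ {Q P i j}, Agr Q P i j → Inp Q i j → Inp P i j
  Inp_sh : ∀ {Q i j} d, Inp Q i j → Inp (shw Q d) (i + d) (j + d)
  inpO : ∀ Q i j i' j', D.Op Q i j → Inp Q i' j' → i ≤ i' → j' ≤ j → i' ≤ j' → i = i'
  inpC : ∀ y i j i' j', Z.L y → D.C y.id → y.Nd i j → Inp y.w i' j' → i ≤ i' → j' ≤ j →
    i' ≤ j' → i = i'
  inpJ : ∀ y i j, Z.L y → V.K y.id → D.l + i ≤ j → Inp y.w i j → ∃ (Q : ℤ → ℕ) (a : ℤ), a ≤ i ∧
    Q (a - 1) ≠ y.w (a - 1) ∧ Agr Q y.w a j ∧ D.Fc Q (a - 1) j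
  peak : ∀ y i, Z.L y → V.K y.id → y.h (i - 1) = y.h i ∨ Inp y.w i (y.h i) ∨
    ∃ y' K', Cert Z D.Fc D.Op D.C y' i (y.h i - i) K' ∧ Agr y'.w y.w i (y.h i) ∧
      ∀ c, K' c → V.E c
  /-- Bound for the sizes. -/
  N : ℤ
  bound : ∀ y i, Z.L y → V.K y.id → y.h i - i ≤ N
  /-- Column of the lowest node. -/
  i0 : ℤ
  nd0 : V.y0.Nd i0 (i0 + D.l + V.p)
  KC : ∀ c, V.K c → D.C c
  reach : ∀ c, V.K c → Relation.ReflTransGen (fun c d => V.K d ∧ Z.Shr c d) c V.y0.id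

namespace Pk

variable {Z : Stat ι} {D : Dyn Z} {V : Ev D} (R : Pk V)
open Ev

include R

lemma perK {c : ι} (hc : V.K c) : D.l < Z.π c ∨ Z.π c = V.p := by
  have h := R.reach c hc
  clear hc
  induction h using Relation.ReflTransGen.head_induction_on with
  | refl => exact Or.inr rfl
  | head h _ ih =>
    obtain ⟨hk, y, y', i, j, hy, hy', rfl, rfl, hn, hA⟩ := h
    by_cases hw : y'.w = y.w
    · rwa [← Z.πmin _ _ hy' hy hw]
    · left
      by_contra hc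
      have := V.size y' hy' hk i
      have := hn.1
      exact hw (fw (Z.πpos _) (Z.πpos _) (Z.per _ hy') (Z.per _ hy) hA (by omega))

lemma J_of_inp {Y : Lift ι} {i0 : ℤ} (hY : V.Wd Y) (hg : V.Good Y) (hi : R.Inp Y.w i0 (Y.h i0)) :
    V.J := by
  have hm := Z.mono Y hY.1
  have hd : i0 ≤ Y.h i0 := (diag hY.1 hY.2.1 i0).trans (hm (by omega))
  obtain ⟨Q, a, a1, J1, J2, J3⟩ := R.inpJ Y i0 _ hY.1 hY.2.1 (by
    have := V.size Y hY.1 hY.2.1 i0
    have := Z.πpos Y.id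
    have := hm (show i0 - 1 ≤ i0 by omega)
    omega) hi
  rw [hY.2.2] at J1 J2 hi
  have win : ∀ n, n < Y.h i0 → V.Far a n → ∃ i j, a ≤ i ∧ j ≤ n ∧ i ≤ j ∧ R.Inp Q i j := by
    intro n n1 hf
    obtain ⟨k, k1, k2⟩ := exists_mul_window V.ppos i0 a
    have h1 := hg _ _ (hf.sh (V.perP.mul (1 - k)))
    have h2 := hm (show i0 ≤ a + (1 - k) * V.p by linarith)
    have h3 := R.Inp_sh (k * V.p) hi
    rw [(V.perP.mul k).shw] at h3
    have h4 : Y.h i0 + k * V.p ≤ n := by linarith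
    exact ⟨_, _, k1, h4, by omega, R.Inp_congr (J2.mono k1 (by omega)).symm h3⟩
  refine slideL J1 J2 J3 (not_low_iff.2 ⟨Y, hY, hm (by omega)⟩) (fun n n1 hf ho _ => ?_)
    fun n n1 hf y hy hC hA hh => ?_
  · obtain ⟨i, j, h1, h2, h3, h4⟩ := win n n1 hf
    have := R.inpO _ _ _ _ _ ho h4 (by omega) h2 h3
    omega
  · obtain ⟨i, j, h1, h2, h3, h4⟩ := win n n1 hf
    have := R.inpC y (a - 1) n i j hy hC ⟨hh ▸ Z.mono y hy (by omega), hh.ge⟩
      (R.Inp_congr (hA.mono (by omega) h2).symm h4) (by omega) h2 h3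
    omega

lemma J_of_good (n : ℕ) : ∀ Y, V.Wd Y → V.Good Y → (∃ i, R.N - n ≤ Y.h i - i) → V.J := by
  induction n using Nat.strong_induction_on with
  | _ n ih =>
  intro Y hY hg ⟨i1, h1⟩
  obtain ⟨lam, ⟨i0, h0⟩, htop⟩ := Int.exists_greatest_of_bdd (P := fun s => ∃ i, Y.h i - i = s)
    ⟨R.N, fun z ⟨i, hi⟩ => hi ▸ R.bound Y i hY.1 hY.2.1⟩ ⟨_, i1, rfl⟩
  have htop' : ∀ i, Y.h i - i ≤ lam := fun i => htop _ ⟨i, rfl⟩
  rcases R.peak Y i0 hY.1 hY.2.1 with h | h | ⟨y', K', hc, hA, hE⟩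
  · have := htop' (i0 - 1)
    omega
  · exact R.J_of_inp hY hg h
  · rw [h0] at hc
    rw [hY.2.2, show Y.h i0 = i0 + lam by omega] at hA
    by_cases hw : y'.w = V.P
    · have hπ : Z.π y'.id = V.p := Z.πmin _ _ hc.L V.L0 hw
      have hp := V.ppos
      have nd : Y.Nd i0 (i0 + lam) := ⟨by
        have := Z.mono Y hY.1 (show i0 - 1 ≤ i0 by omega); omega, by omega⟩
      have nd' := hc.nd
      rw [hπ] at nd'
      have hk : V.K y'.id := band_mem hY (box hY nd le_rfl (by omega) (by omega) le_rfl) hc.L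
        hc.Cl nd' (hw ▸ Agr.refl _ _ _)
      have hY' : V.Wd y' := ⟨hc.L, hk, hw⟩
      have b := R.bound y' i0 hc.L hk
      have := nd'.2
      have := htop' i1
      exact ih (n - 1) (by omega) y' hY' (good_step hY hg hY' nd nd') ⟨i0, by omega⟩
    · exact J_of_birth hY hg htop' (by omega) hc hA hE hw

theorem J : V.J :=
  R.J_of_good (R.N - (V.y0.h 0 - 0)).toNat V.y0 V.wd0 (good_base R.nd0) ⟨0, by omega⟩

theorem birth : D.Fc V.P R.i0 (R.i0 + D.l) := by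
  have hl : V.Lw (R.i0 + 1) (R.i0 + D.l + V.p - 1) := fun y hy => by
    have := V.size y hy.1 hy.2.1 (R.i0 + 1)
    rw [wd_π hy] at this
    omega
  rcases leak R.J V.wd0 R.nd0 hl with h | ⟨y, hy, hk, hπ, -, -, -, t⟩
  · have := D.Fc_sh (-V.p) h
    rwa [(Stat.Per_neg V.perP).shw, show R.i0 + V.p + -V.p = R.i0 by ring,
      show R.i0 + D.l + V.p + -V.p = R.i0 + D.l by ring] at this
  · exfalso
    have := V.nores2 V.y0 _ _ V.y0.id y.id V.L0 (V.KE _ V.K0) V.K0 (V.KE _ hk)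
      (fun h => hπ (h ▸ rfl)) (touch_col V.L0 (Agr.refl _ _ _) R.nd0.1) t
    have := R.perK hk
    have e : Z.π V.y0.id = V.p := rfl
    omega

theorem cert : Cert Z D.Fc D.Op D.C V.y0 R.i0 D.l V.K where
  L := V.L0
  K := V.K0
  Cl := R.KC _ V.K0
  nd := R.nd0
  size := V.size
  sqO := fun i j h1 h2 h3 h4 _ => by
    have e : Z.π V.y0.id = V.p := rfl
    have := box (V.wd0.sh (Stat.Per_neg V.perP)) (R.nd0.sh (-V.p)) (k := i) (r := j) (by omega)
      (by omega) (by omega) (by omega)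
    exact band_op (V.wd0.sh (Stat.Per_neg V.perP)) this (Agr.refl _ _ _)
  sqC := fun i j h1 h2 h3 h4 _ y hy hc hn hA => by
    have e : Z.π V.y0.id = V.p := rfl
    have := box (V.wd0.sh (Stat.Per_neg V.perP)) (R.nd0.sh (-V.p)) (k := i) (r := j) (by omega)
      (by omega) (by omega) (by omega)
    exact band_mem (V.wd0.sh (Stat.Per_neg V.perP)) this hy hc hn hA
  leak := fun _ _ _ hq hn hl _ => leak R.J hq hn hl

end Pk

end Crest.Agent.SCS
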