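import Crest.Agent.SCS.Nodes

/-! Reachability between units. -/

set_option autoImplicit false
set_option linter.dupNamespace false

namespace Crest.Agent.SCS

/-- A node of `d` lies in the band of `c`. -/
def Edge (cls : List Wk) (c d : Wk) : Prop := d ∈ cls ∧ ∃ n ∈ nodes d, n ∈ band c

/-- Reachability. -/
def Rch (cls : List Wk) : Wk → Wk → Prop := Relation.ReflTransGen (Edge cls)

lemma Rch.mono {cls cls' : List Wk} (h : ∀ d ∈ cls, d ∈ cls') {c d : Wk} (hr : Rch cls c d) :
    Rch cls' c d := by
  induction hr with
  | refl => exact Relation.ReflTransGen.refl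
  | tail _ he ih => exact ih.tail ⟨h _ he.1, he.2⟩

lemma Rch.mem {cls : List Wk} {c d : Wk} (hr : Rch cls c d) (hc : c ∈ cls) : d ∈ cls := by
  induction hr with
  | refl => exact hc
  | tail _ h _ => exact h.1

/-- Two lists have a common element. -/
def meets (A B : List Str) : Bool := A.any fun n => n ∈ B

lemma meets_iff {A B : List Str} : meets A B ↔ ∃ n ∈ A, n ∈ B := by simp [meets]

/-- One round of the search. -/
def expand (cls R : List Wk) : List Wk :=
  cls.filter fun d => decide (d ∈ R) || R.any fun c => meets (nodes d) (band c)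

lemma mem_expand {cls R : List Wk} {d : Wk} :
    d ∈ expand cls R ↔ (d ∈ cls ∧ d ∈ R) ∨ ∃ c ∈ R, Edge cls c d := by
  simp only [expand, List.mem_filter, Bool.or_eq_true, decide_eq_true_eq, List.any_eq_true,
    meets_iff, Edge]
  aesop

/-- All units reachable from `W`. -/
def reach (cls : List Wk) (W : Wk) : List Wk :=
  cls.foldl (fun R _ => expand cls R) (cls.filter fun d => d = W)

lemma reach_aux {cls : List Wk} {W : Wk} (hW : W ∈ cls) (l : List Wk) :
    let R := l.foldl (fun R _ => expand cls R) (cls.filter fun d => d = W)
    (∃ p, R = cls.filter p) ∧ W ∈ R ∧ (∀ d ∈ R, Rch cls W d) ∧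
      ((∀ c ∈ R, ∀ d, Edge cls c d → d ∈ R) ∨ l.length < R.length) := by
  induction l using List.reverseRecOn with
  | nil =>
    have : W ∈ cls.filter fun d => d = W := by simp [hW]
    refine ⟨⟨_, rfl⟩, this, fun d hd => ?_, Or.inr (List.length_pos_of_mem this)⟩
    obtain rfl : d = W := by simpa using (List.mem_filter.1 hd).2
    exact Relation.ReflTransGen.refl
  | append_singleton l b ih =>
    simp only [List.foldl_append, List.foldl_cons, List.foldl_nil, List.length_append,
      List.length_singleton] at ih ⊢
    generalize l.foldl (fun R _ => expand cls R) (cls.filter fun d => d = W) = R at ih ⊢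
    obtain ⟨⟨p, hp⟩, h1, h2, h3⟩ := ih
    have hsub : ∀ d ∈ R, d ∈ cls := fun d hd => (List.mem_filter.1 (hp ▸ hd)).1
    refine ⟨⟨_, rfl⟩, mem_expand.2 (Or.inl ⟨hW, h1⟩), fun d hd => ?_, ?_⟩
    · rcases mem_expand.1 hd with h | ⟨c, hc, h⟩
      · exact h2 d h.2
      · exact (h2 c hc).tail h
    · by_cases hcl : ∀ c ∈ R, ∀ d, Edge cls c d → d ∈ R
      · left
        intro c hc d he
        have hc' : c ∈ R := by
          rcases mem_expand.1 hc with h | ⟨c', hc', h⟩
          · exact h.2
          · exact hcl c' hc' c h
        exact mem_expand.2 (Or.inr ⟨c, hc', he⟩)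
      · right
        have h4 := h3.resolve_left hcl
        have hs : R.Sublist (expand cls R) := by
          have e : R = cls.filter fun d => decide (d ∈ R) := by
            conv_lhs => rw [hp]
            refine List.filter_congr fun d hd => ?_
            rw [hp]
            simp [hd]
          conv_lhs => rw [e]
          exact List.monotone_filter_right _ fun d hd => by simp only [hd, Bool.true_or]
        by_contra hc
        have := hs.eq_of_length_le (by omega)
        exact hcl fun c hc d he => this ▸ mem_expand.2 (Or.inr ⟨c, hc, he⟩)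

lemma mem_reach {cls : List Wk} {W : Wk} (hW : W ∈ cls) {d : Wk} :
    d ∈ reach cls W ↔ Rch cls W d := by
  obtain ⟨⟨p, hp⟩, h1, h2, h3⟩ := reach_aux hW cls
  refine ⟨h2 d, fun hr => ?_⟩
  rcases h3 with h3 | h3
  · induction hr with
    | refl => exact h1
    | tail _ he ih => exact h3 _ ih _ he
  · rw [hp] at h3
    have := List.length_filter_le p cls
    omega

lemma reach_sublist (cls : List Wk) (W : Wk) : (reach cls W).Sublist cls := by
  unfold reach
  have : ∀ l : List Wk, (l.foldl (fun R _ => expand cls R) (cls.filter fun d => d = W)).Sublist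
      cls := by
    intro l
    induction l using List.reverseRecOn with
    | nil => exact List.filter_sublist
    | append_singleton l b _ =>
      rw [List.foldl_append]
      exact List.filter_sublist
  exact this cls

/-- Below every unit there is a sink component. -/
lemma exists_sink {cls : List Wk} {c : Wk} (hc : c ∈ cls) :
    ∃ W, Rch cls c W ∧ ∀ d, Rch cls W d → Rch cls d W := by
  induction hk : (reach cls c).toFinset.card using Nat.strong_induction_on generalizing c with
  | _ k ih =>
  by_cases h : ∀ d, Rch cls c d → Rch cls d c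
  · exact ⟨c, Relation.ReflTransGen.refl, h⟩
  · push Not at h
    obtain ⟨d, h1, h2⟩ := h
    have hd := h1.mem hc
    obtain ⟨W, h3, h4⟩ := ih _ (hk ▸ Finset.card_lt_card (s := (reach cls d).toFinset) ⟨fun x hx => by
      rw [List.mem_toFinset] at hx ⊢
      exact (mem_reach hc).2 (h1.trans ((mem_reach hd).1 hx)), fun hs => h2 ((mem_reach hd).1
        (List.mem_toFinset.1 (hs (List.mem_toFinset.2 ((mem_reach hc).2
          Relation.ReflTransGen.refl)))))⟩) hd rfl
    exact ⟨W, h1.trans h3, h4⟩

end Crest.Agent.SCS
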