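import Crest.Agent.SCS.Trans
import Crest.Agent.SCS.Reach
import Crest.Agent.SCS.Geo6

/-! From the lists to the geometry. -/

set_option autoImplicit false
set_option linter.dupNamespace false

namespace Crest.Agent.SCS

open Crest.Agent.PT

/-- A unit has a node that is a prefix or a suffix of `u`. -/
def touched (u : Str) (c : Wk) : Bool :=
  (nodes c).any fun n => decide (u.take n.length = n) || decide (u.drop (u.length - n.length) = n)

lemma touched_iff {u : Str} {c : Wk} : touched u c ↔ ∃ n ∈ nodes c, n <+: u ∨ n <:+ u := by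
  simp only [touched, List.any_eq_true, Bool.or_eq_true, decide_eq_true_eq,
    List.prefix_iff_eq_take, List.suffix_iff_eq_drop]
  simp only [eq_comm]

/-- Candidates for root paths. -/
def cands (cls : List Wk) : List Str :=
  cls.flatMap fun d => flatRange d.length fun p =>
    mapRange (cls.flatten.length + 1) fun k => win (word d) p k

/-- Eligible payers. -/
def elig (cls R : List Wk) (recs : List (Str × List Wk)) : List Wk :=
  cls.filter fun c => decide (c ∈ R) ||
    recs.any fun r => decide (c ∈ r.2) && R.any fun d => decide (r.1 ∈ nodes d)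

lemma mem_elig {cls R : List Wk} {recs : List (Str × List Wk)} {c : Wk} : c ∈ elig cls R recs ↔
    c ∈ cls ∧ (c ∈ R ∨ ∃ r ∈ recs, c ∈ r.2 ∧ ∃ d ∈ R, r.1 ∈ nodes d) := by
  simp [elig]

/-- A root path that can be paid. -/
def good (R E : List Wk) (u : Str) : Bool :=
  R.any (touched u) && decide (u.length ≤ ((E.filter (touched u)).map per).sum)

lemma sum_le_of_subset {A B : List Wk} (hA : A.Nodup) (h : ∀ a ∈ A, a ∈ B) (f : Wk → ℕ) :
    (A.map f).sum ≤ (B.map f).sum := by
  obtain ⟨l, h1, h2⟩ := List.subperm_of_subset hA h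
  rw [← (h1.map f).sum_eq]
  exact (h2.map f).sum_le_sum fun _ _ => Nat.zero_le _

lemma tot_eq (L : List Wk) : tot L = L.flatten.length := by simp [tot, List.length_flatten]

lemma sum_per_le {cls : List Wk} (h : ∀ c ∈ cls, Valid c) : (cls.map per).sum ≤ tot cls :=
  List.sum_le_sum fun c hc => (per_spec (h c hc).pos).1

lemma touched_of_touch {Q : ℤ → ℕ} {i j : ℤ} {c : Wk} (h : ZZ.Touch Q i j c) :
    touched (str Q i j) c ∧ i ≤ j := by
  obtain ⟨y, hy, rfl, i', j', hn, hA, h⟩ := h
  obtain ⟨h1, h2⟩ := node_of_lift hy hn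
  rw [str_congr hA] at h1
  refine ⟨touched_iff.2 ⟨_, h1, ?_⟩, by omega⟩
  rcases h with ⟨rfl, h⟩ | ⟨rfl, h⟩
  · exact Or.inl (str_prefix _ _ h)
  · exact Or.inr (str_suffix _ _ h)

/-- The certificate of a record. -/
def RecOK (Φ : Str → Prop) (on : List Str) (cls : List Wk) (β : Str) (K : List Wk) : Prop :=
  ∀ i0 : ℤ, ∃ y' : Lift Wk, str y'.w i0 (i0 + β.length) = β ∧
    Cert ZZ (fun Q i j => Φ (str Q i j)) (fun Q i j => str Q i j ∈ on) (· ∈ cls) y' i0 β.length
      (· ∈ K)

lemma RecOK.evo {Φ Φ' : Str → Prop} {on on' : List Str} {cls cls' : List Wk} {β : Str}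
    {K : List Wk} (h : RecOK Φ on cls β K) (h1 : ∀ q, Φ q → β.length < q.length → Φ' q)
    (h2 : ∀ n, β.length < n.length → n ∈ on' → n ∈ on)
    (h3 : ∀ n d, β.length < n.length → d ∈ cls' → n ∈ nodes d → d ∈ cls ∨ n ∈ on)
    (h4 : ∀ d ∈ cls, d ∈ cls') : RecOK Φ' on' cls' β K := by
  intro i0
  obtain ⟨y', e, c⟩ := h i0
  refine ⟨y', e, c.L, c.K, h4 _ c.Cl, c.nd, c.size, fun i j a1 a2 a3 a4 a5 hn =>
    c.sqO i j a1 a2 a3 a4 a5 (h2 _ (by simp; omega) hn), fun i j a1 a2 a3 a4 a5 y hy hc hn hA => ?_,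
    fun yq i j a1 a2 a3 a4 => (c.leak yq i j a1 a2 a3 a4).imp
      (fun h => h1 _ h (by simp; omega)) id⟩
  rcases h3 _ _ (by simp; omega) hc (node_of_lift hy hn).1 with h | h
  · exact c.sqC i j a1 a2 a3 a4 a5 y hy h hn hA
  · exact absurd (str_congr hA ▸ h) (c.sqO i j a1 a2 a3 a4 a5)

namespace BInv

variable {S : List Str} {u : Str} {top l : ℕ} {opn cls : List Wk} {pend bs : List Str}
    {Φ : Str → Prop} {G : Multiset Str} (h : BInv S u top l opn cls pend bs Φ G)

/-- The dynamic system of a state. -/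
def dyn (hl : 1 ≤ l) : Dyn ZZ where
  Fc Q i j := Φ (str Q i j)
  Op Q i j := str Q i j ∈ onodes opn pend
  C c := c ∈ cls
  l := l
  lpos := by exact_mod_cast hl
  Fc_congr hA hF := str_congr hA ▸ hF
  Fc_sh d hF := by rwa [str_sh]
  Op_congr hA hF := str_congr hA ▸ hF
  Op_sh d hF := by rwa [str_sh]
  leakR := by
    intro Q i j hF hij
    have := h.leakR _ hF (by simp; omega)
    rw [tail_str] at this
    rcases this with h1 | h1 | ⟨e, he | he, h1, h2⟩
    · exact Or.inl h1
    · refine Or.inr (Or.inl ⟨mem_onodes.2 (Or.inr (Or.inl (h.sub_heads h1))), fun hc => ?_⟩)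
      obtain ⟨a, ha, h2⟩ := mem_heads.1 h1
      have := (h.ow a ha).lh
      rw [h2, length_str] at this
      omega
    · rw [length_str] at h2
      exact Or.inr (Or.inl ⟨mem_onodes.2 (Or.inr (Or.inl ⟨e, he, h1, by simp; omega⟩)),
        fun _ => mem_onodes.2 (Or.inr (Or.inl ⟨e, he, (str_prefix _ _ (by omega)).trans h1,
          by simp; omega⟩))⟩)
    · obtain ⟨c, hc, he⟩ := List.mem_flatten.1 he
      obtain ⟨y, hy, rfl, k1, k2, k3⟩ := lift_of_ent (h.val c hc) he i
      have := h1.length_le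
      rw [length_str] at h2 this
      exact Or.inr (Or.inr ⟨y, hy, hc, (agr_of_str (eq_str_of_prefix (k3 ▸ h1))).symm,
        by omega, by omega⟩)
  leakD := by
    intro Q i j hF hij
    have := h.leakD _ hF (by simp; omega)
    rw [dropLast_str] at this
    rcases this with h1 | h1 | ⟨e, he | he, h1⟩
    · exact Or.inl h1
    · refine Or.inr (Or.inl ⟨mem_onodes.2 (Or.inl h1), fun hc => ?_⟩)
      obtain ⟨a, ha, h2⟩ := mem_tails.1 h1
      have := (h.ow a ha).lt
      rw [h2, length_str] at this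
      omega
    · obtain ⟨a, ha, he'⟩ := List.mem_flatten.1 he
      obtain ⟨k1, -, k2⟩ := (h.ow a ha).ch.mem he'
      refine Or.inr (Or.inl ⟨mem_onodes.2 (Or.inr (Or.inl ⟨e, he, h1 ▸ List.prefix_refl _,
        h1 ▸ k1.length_le⟩)), fun _ => ?_⟩)
      have e1 : str Q (i + 1) j = e.2.tail := by rw [← h1, ← tail_str, add_sub_cancel_right]
      rw [e1]
      rcases k2 with k2 | ⟨e', k2, k3⟩
      · exact mem_onodes.2 (Or.inl (mem_tails.2 ⟨a, ha, k2.symm⟩))
      · exact mem_onodes.2 (Or.inr (Or.inl ⟨e', List.mem_flatten.2 ⟨a, ha, k2⟩,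
          k3 ▸ ((h.ow a ha).ch.mem k2).1, by rw [k3]⟩))
    · obtain ⟨c, hc, he⟩ := List.mem_flatten.1 he
      obtain ⟨y, hy, rfl, k1, k2, k3⟩ := lift_of_ent (h.val c hc) he i
      have := congrArg List.length h1
      rw [length_str] at this
      exact Or.inr (Or.inr ⟨y, hy, hc, (agr_of_str (h1.trans k3.symm)).symm, by omega⟩)

end BInv

/-- A trapped sink component without rescue. -/
structure Trap (l : ℕ) (cls : List Wk) (on : List Str) (recs : List (Str × List Wk)) (W : Wk)
    (e0 : Ent) : Prop where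
  mem : W ∈ cls
  nob : ∀ d ∈ reach cls W, ∀ n ∈ band d, n ∉ on
  big : ∀ d ∈ reach cls W, ∀ e ∈ d, l + per d ≤ e.1.length
  back : ∀ d ∈ reach cls W, Rch cls d W
  e0m : e0 ∈ W
  e0l : e0.1.length = l + per W
  nog : ∀ v ∈ cands cls, good (reach cls W) (elig cls (reach cls W) recs) v = false

namespace Trap

variable {S : List Str} {u : Str} {top l : ℕ} {opn cls : List Wk} {pend bs : List Str}
    {Φ : Str → Prop} {G : Multiset Str} (h : BInv S u top l opn cls pend bs Φ G) (hl : 1 ≤ l)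
    {recs : List (Str × List Wk)} {W : Wk} {e0 : Ent}
    (t : Trap l cls (onodes opn pend) recs W e0)

include h t in
lemma nores {y : Lift Wk} (hy : ZZ.L y) (hE : y.id ∈ elig cls (reach cls W) recs) {i j : ℤ}
    {A : List Wk} (hA : A.Nodup) (h1 : ∀ c ∈ A, c ∈ elig cls (reach cls W) recs ∧
      ZZ.Touch y.w i j c) {a : Wk} (ha : a ∈ A) (haR : a ∈ reach cls W) :
    ((A.map per).sum : ℤ) < j - i := by
  by_contra hc
  obtain ⟨k1, hij⟩ := touched_of_touch (h1 a ha).2
  obtain ⟨p, hp, e⟩ := win_of_lift hy hij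
  have s1 := sum_le_of_subset hA (fun c hc => (mem_elig.1 (h1 c hc).1).1) per
  have s2 := sum_per_le h.val
  rw [tot_eq] at s2
  have s3 := sum_le_of_subset hA (B := (elig cls (reach cls W) recs).filter
    (touched (str y.w i j))) (fun c hc =>
      List.mem_filter.2 ⟨(h1 c hc).1, (touched_of_touch (h1 c hc).2).1⟩) per
  have := t.nog (str y.w i j) (List.mem_flatMap.2 ⟨y.id, (mem_elig.1 hE).1, mem_flatRange.2
    ⟨p, hp, mem_mapRange.2 ⟨(j - i).toNat, by omega, e.symm⟩⟩⟩)
  simp only [good, Bool.and_eq_false_iff, decide_eq_false_iff_not, List.any_eq_false,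
    length_str] at this
  rcases this with h2 | h2
  · exact h2 a haR k1
  · omega

/-- The event structure. -/
def ev {y0 : Lift Wk} (hy : ZZ.L y0) (hid : y0.id = W) : Ev (h.dyn hl) where
  K c := c ∈ reach cls W
  E c := c ∈ elig cls (reach cls W) recs
  y0 := y0
  L0 := hy
  K0 := hid ▸ (mem_reach t.mem).2 Relation.ReflTransGen.refl
  KE c hc := mem_elig.2 ⟨(reach_sublist _ _).subset hc, Or.inl hc⟩
  size y hy hk i := by
    obtain ⟨e, he, h1, -⟩ := ent_of_lift hy i
    have := t.big _ hk e he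
    change (l : ℤ) + per y.id + i ≤ _
    omega
  noexO y i j hy hk hb := by
    refine t.nob _ hk _ (band_of_lift hy hb ?_)
    obtain ⟨e, he, h1, -⟩ := ent_of_lift hy (i - ZZ.π y.id)
    have := t.big _ hk e he
    have := hb.1
    rw [ZZ_π] at *
    omega
  noexC y y' i j hy hk hb hy' hc hn hA := by
    obtain ⟨h1, h2⟩ := node_of_lift hy' hn
    exact (mem_reach t.mem).2 (((mem_reach t.mem).1 hk).tail
      ⟨hc, _, h1, str_congr hA ▸ band_of_lift hy hb h2⟩)
  nores2 y i j a b hy hE ha hb hab ta tb := by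
    have := t.nores h hy hE (A := [a, b]) (by simp [hab]) (i := i) (j := j) (by
      simp only [List.mem_cons, List.not_mem_nil, or_false]
      rintro c (rfl | rfl)
      · exact ⟨mem_elig.2 ⟨(reach_sublist _ _).subset ha, Or.inl ha⟩, ta⟩
      · exact ⟨hb, tb⟩) List.mem_cons_self ha
    simpa [ZZ_π] using this
  nores3 y i j a b c hy hE ha hb hc hab hac hbc ta tb tc := by
    have := t.nores h hy hE (A := [a, b, c]) (by simp [hab, hac, hbc]) (i := i) (j := j) (by
      simp only [List.mem_cons, List.not_mem_nil, or_false]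
      rintro c (rfl | rfl | rfl)
      · exact ⟨mem_elig.2 ⟨(reach_sublist _ _).subset ha, Or.inl ha⟩, ta⟩
      · exact ⟨hb, tb⟩
      · exact ⟨hc, tc⟩) List.mem_cons_self ha
    simpa [ZZ_π, add_assoc] using this

end Trap

end Crest.Agent.SCS
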