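import Crest.Agent.SCS.Birth

/-! Births and rescues. -/

set_option autoImplicit false
set_option linter.dupNamespace false

namespace Crest.Agent.SCS

open Crest.Agent.PT

/-- Pending peaks, grounded units, root paths, records. -/
abbrev Ex := List Str × List Wk × List Str × List (Str × List Wk)

/-- Test for a trapped sink component. -/
def trapB (l : ℕ) (cls : List Wk) (on : List Str) (grd : List Wk) (W : Wk) : Bool :=
  (W.any fun e => decide (e.1.length = l + per W)) &&
  (reach cls W).all fun d => !decide (d ∈ grd) && !meets (band d) on &&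
    (d.all fun e => decide (l + per d ≤ e.1.length)) && decide (W ∈ reach cls d)

/-- The newborn string. -/
def born (l : ℕ) (W : Wk) : Str :=
  ((W.filter fun e => decide (e.1.length = l + per W)).headD ([], [])).1.take l

/-- The affordable root paths. -/
def goods (cls : List Wk) (recs : List (Str × List Wk)) (W : Wk) : List Str :=
  (cands cls).filter (good (reach cls W) (elig cls (reach cls W) recs))

/-- One event. -/
def evStep (l : ℕ) (opn cls : List Wk) (x : Ex) (W : Wk) : Ex :=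
  if trapB l cls (onodes opn x.1) x.2.1 W then
    if (goods cls x.2.2.2 W).isEmpty then
      (born l W :: x.1, x.2.1, x.2.2.1, (born l W, reach cls W) :: x.2.2.2)
    else (x.1, (elig cls (reach cls W) x.2.2.2).filter (touched ((goods cls x.2.2.2 W).headD []))
      ++ x.2.1, (goods cls x.2.2.2 W).headD [] :: x.2.2.1, x.2.2.2)
  else x

/-- The invariant of the records and of the budget. -/
structure RInv (l : ℕ) (opn cls : List Wk) (Φ : Str → Prop) (x : Ex) : Prop where
  rc : ∀ r ∈ x.2.2.2, RecOK Φ (onodes opn x.1) cls r.1 r.2 ∧ l ≤ r.1.length ∧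
    (l < r.1.length ∨ r.1 ∈ x.1) ∧ ∀ c ∈ r.2, c ∈ cls ∧ ∃ W, Rch cls c W ∧ r.1 ∈ band W
  lam : x.2.2.2.Pairwise fun r2 r1 => (∃ c ∈ r1.2, c ∈ r2.2) →
    r1.1 ∉ onodes opn x.1 ∧ ∀ d ∈ cls, r1.1 ∈ nodes d → d ∈ r2.2
  gr : ∀ r ∈ x.2.2.2, (∃ c ∈ r.2, c ∈ x.2.1) → r.1 ∉ onodes opn x.1 ∧
    ∀ d ∈ cls, r.1 ∈ nodes d → ∃ g ∈ x.2.1, Rch cls d g
  gnd : x.2.1.Nodup
  gsub : ∀ g ∈ x.2.1, g ∈ cls
  bud : (x.2.2.1.map List.length).sum ≤ (x.2.1.map per).sum
  tch : ∀ g ∈ x.2.1, ∃ v ∈ x.2.2.1, touched v g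

/-- A unit that needs no help at this level. -/
def Good (l : ℕ) (on : List Str) (grd : List Wk) (d : Wk) : Prop :=
  d ∈ grd ∨ (∃ n ∈ band d, n ∈ on) ∨ ∃ e ∈ d, e.1.length < l + per d

/-- Reaching a good unit. -/
def Free (l : ℕ) (opn cls : List Wk) (x : Ex) (c : Wk) : Prop :=
  ∃ d, Rch cls c d ∧ Good l (onodes opn x.1) x.2.1 d

lemma pairwise_tri {α : Type} {R : α → α → Prop} {l : List α} (h : l.Pairwise R) {a b : α}
    (ha : a ∈ l) (hb : b ∈ l) : a = b ∨ R a b ∨ R b a := by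
  induction h with
  | nil => simp at ha
  | cons h1 _ ih =>
    rcases List.mem_cons.1 ha with ha' | ha' <;> rcases List.mem_cons.1 hb with hb' | hb'
    · exact Or.inl (ha'.trans hb'.symm)
    · exact Or.inr (Or.inl (ha' ▸ h1 _ hb'))
    · exact Or.inr (Or.inr (hb' ▸ h1 _ ha'))
    · exact ih ha' hb'

lemma mem_onodes_cons {opn : List Wk} {pend : List Str} {v n : Str} :
    n ∈ onodes opn (v :: pend) ↔ n = v ∨ n ∈ onodes opn pend := by
  simp only [onodes, List.mem_append, List.mem_cons]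
  exact or_left_comm

lemma headD_mem {α : Type} {l : List α} {d : α} (h : l ≠ []) : l.headD d ∈ l := by
  cases l with
  | nil => exact absurd rfl h
  | cons a l => simp

theorem evStep_spec {S : List Str} {u : Str} {top l : ℕ} {opn cls : List Wk} {x : Ex}
    {Φ : Str → Prop} {G : Multiset Str} (hc : Ctx S u top) (hl : 1 ≤ l)
    (h : BInv S u top l opn cls x.1 (x.2.2.2.map (·.1)) Φ G) (r : RInv l opn cls Φ x) {W : Wk}
    (hW : W ∈ cls) :
    BInv S u top l opn cls (evStep l opn cls x W).1 ((evStep l opn cls x W).2.2.2.map (·.1)) Φ G ∧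
    RInv l opn cls Φ (evStep l opn cls x W) ∧ (∀ n ∈ x.1, n ∈ (evStep l opn cls x W).1) ∧
    (∀ n ∈ x.2.1, n ∈ (evStep l opn cls x W).2.1) ∧
    (Free l opn cls (evStep l opn cls x W) W ∨
      ¬ ((∃ e ∈ W, e.1.length = l + per W) ∧ ∀ d, Rch cls W d → Rch cls d W)) := by
  obtain ⟨pend, grd, roots, recs⟩ := x
  unfold evStep
  dsimp only at h ⊢
  by_cases ht : trapB l cls (onodes opn pend) grd W
  swap
  · rw [if_neg ht]
    refine ⟨h, r, fun _ h => h, fun _ h => h, ?_⟩
    by_contra hcon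
    rw [not_or, not_not] at hcon
    obtain ⟨h1, ⟨e, he, h2⟩, h3⟩ := hcon
    refine ht ?_
    simp only [trapB, Bool.and_eq_true, List.any_eq_true, decide_eq_true_eq, List.all_eq_true,
      Bool.not_eq_true', decide_eq_false_iff_not, ← Bool.not_eq_true, meets_iff]
    refine ⟨⟨e, he, h2⟩, fun d hd => ?_⟩
    have hd' := (mem_reach hW).1 hd
    refine ⟨⟨⟨fun hg => h1 ⟨d, hd', Or.inl hg⟩, fun hg => h1 ⟨d, hd', Or.inr (Or.inl hg)⟩⟩,
      fun e he => ?_⟩, (mem_reach (hd'.mem hW)).2 (h3 d hd')⟩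
    by_contra hg
    exact h1 ⟨d, hd', Or.inr (Or.inr ⟨e, he, by omega⟩)⟩
  rw [if_pos ht]
  simp only [trapB, Bool.and_eq_true, List.any_eq_true, decide_eq_true_eq, List.all_eq_true,
      Bool.not_eq_true', decide_eq_false_iff_not, ← Bool.not_eq_true, meets_iff] at ht
  obtain ⟨⟨e, he, he'⟩, ht⟩ := ht
  have ng : ∀ d, Rch cls W d → d ∉ grd := fun d hd => (ht d ((mem_reach hW).2 hd)).1.1.1
  have nob : ∀ d, Rch cls W d → ∀ n ∈ band d, n ∉ onodes opn pend := fun d hd n h1 h2 =>
    (ht d ((mem_reach hW).2 hd)).1.1.2 ⟨n, h1, h2⟩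
  have back : ∀ d, Rch cls W d → Rch cls d W := fun d hd =>
    (mem_reach (hd.mem hW)).1 (ht d ((mem_reach hW).2 hd)).2
  -- a record with a member in the component
  have inK : ∀ q ∈ recs, ∀ c ∈ q.2, Rch cls W c → q.1 ∉ onodes opn pend ∧
      ∀ d ∈ cls, q.1 ∈ nodes d → Rch cls W d := fun q hq c hc1 hc2 => by
    obtain ⟨-, W', k1, k2⟩ := (r.rc q hq).2.2.2 c hc1
    exact ⟨nob W' (hc2.trans k1) _ k2, fun d hd hn => (hc2.trans k1).tail ⟨hd, _, hn, k2⟩⟩
  split_ifs with hg
  · have hne : (W.filter fun e => decide (e.1.length = l + per W)) ≠ [] :=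
      List.ne_nil_of_mem (List.mem_filter.2 ⟨he, by simpa using he'⟩)
    obtain ⟨m1, m2⟩ := List.mem_filter.1 (headD_mem (d := ([], [])) hne)
    have t : Trap l cls (onodes opn pend) recs W
        ((W.filter fun e => decide (e.1.length = l + per W)).headD ([], [])) :=
      ⟨hW, fun d hd => nob d ((mem_reach hW).1 hd), fun d hd => (ht d hd).1.2,
        fun d hd => back d ((mem_reach hW).1 hd), m1, by simpa using m2, fun v hv => by
          have := List.filter_eq_nil_iff.1 (List.isEmpty_iff.1 hg) v hv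
          simpa using this⟩
    obtain ⟨b1, b2, b3, b4, b5⟩ := t.birth h hl hc fun β hβ => by
      obtain ⟨q, hq, rfl⟩ := List.mem_map.1 hβ
      exact ⟨q, hq, rfl, (r.rc q hq).1, fun c hc => ((r.rc q hq).2.2.2 c hc).1⟩
    change (born l W).length = l at b1
    change Φ (born l W) at b2
    change born l W ∈ band W at b3
    change Sub S (born l W) at b4
    change RecOK Φ _ cls (born l W) _ at b5
    generalize born l W = v at *
    have nv := nob W Relation.ReflTransGen.refl v b3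
    have keep : ∀ q ∈ recs, q.1 ∉ onodes opn pend → q.1 ∉ onodes opn (v :: pend) := by
      intro q hq h1 h2
      rcases mem_onodes_cons.1 h2 with h2 | h2
      · rcases (r.rc q hq).2.2.1 with h3 | h3
        · rw [h2] at h3; omega
        · exact h1 (mem_onodes.2 (Or.inr (Or.inr h3)))
      · exact h1 h2
    have evo : ∀ β K, l ≤ β.length → RecOK Φ (onodes opn pend) cls β K →
        RecOK Φ (onodes opn (v :: pend)) cls β K := fun β K h1 h2 =>
      h2.evo (fun _ h _ => h) (fun n h3 h4 => (mem_onodes_cons.1 h4).resolve_left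
        fun h5 => by rw [h5] at h3; omega) (fun _ _ _ h _ => Or.inl h) fun _ h => h
    refine ⟨h.birth b2 b1 (fun hp => nv (mem_onodes.2 (Or.inr (Or.inr hp)))) b4,
      ⟨?_, ?_, ?_, r.gnd, r.gsub, r.bud, r.tch⟩, fun _ h => List.mem_cons_of_mem _ h, fun _ h => h,
      Or.inl ⟨W, Relation.ReflTransGen.refl,
        Or.inr (Or.inl ⟨v, b3, mem_onodes_cons.2 (Or.inl rfl)⟩)⟩⟩
    · intro q hq
      rcases List.mem_cons.1 hq with rfl | hq
      · exact ⟨evo _ _ b1.ge b5, b1.ge, Or.inr List.mem_cons_self, fun c hc =>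
          ⟨(reach_sublist _ _).subset hc, W, back c ((mem_reach hW).1 hc), b3⟩⟩
      · obtain ⟨k1, k2, k3, k4⟩ := r.rc q hq
        exact ⟨evo _ _ k2 k1, k2, k3.imp id (List.mem_cons_of_mem _), k4⟩
    · refine List.pairwise_cons.2 ⟨fun q hq ⟨c, c1, c2⟩ => ?_, ?_⟩
      · obtain ⟨k1, k2⟩ := inK q hq c c1 ((mem_reach hW).1 c2)
        exact ⟨keep q hq k1, fun d hd hn => (mem_reach hW).2 (k2 d hd hn)⟩
      · exact r.lam.imp_of_mem fun _ hq h1 h2 => ⟨keep _ hq (h1 h2).1, (h1 h2).2⟩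
    · rintro q hq ⟨c, c1, c2⟩
      rcases List.mem_cons.1 hq with rfl | hq
      · exact absurd c2 (ng c ((mem_reach hW).1 c1))
      · exact ⟨keep q hq (r.gr q hq ⟨c, c1, c2⟩).1, (r.gr q hq ⟨c, c1, c2⟩).2⟩
  · have hm := headD_mem (d := []) (fun h => hg (List.isEmpty_iff.2 h))
    generalize (goods cls recs W).headD [] = v at *
    have hv := (List.mem_filter.1 hm).2
    simp only [good, Bool.and_eq_true, List.any_eq_true, decide_eq_true_eq] at hv
    obtain ⟨⟨g0, g1, g2⟩, hv⟩ := hv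
    have g3 : g0 ∈ (elig cls (reach cls W) recs).filter (touched v) ++ grd :=
      List.mem_append_left _ (List.mem_filter.2
        ⟨mem_elig.2 ⟨(reach_sublist _ _).subset g1, Or.inl g1⟩, g2⟩)
    have g4 := (mem_reach hW).1 g1
    have fin : ∀ d, Rch cls d W →
        ∃ g ∈ (elig cls (reach cls W) recs).filter (touched v) ++ grd, Rch cls d g :=
      fun d hd => ⟨g0, g3, hd.trans g4⟩
    refine ⟨h, ⟨r.rc, r.lam, ?_, ?_, ?_, ?_, ?_⟩, fun _ h => h,
      fun _ h => List.mem_append_right _ h, Or.inl ⟨g0, g4, Or.inl g3⟩⟩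
    · rintro q hq ⟨c, c1, c2⟩
      rcases List.mem_append.1 c2 with c2 | c2
      · obtain ⟨-, c3 | ⟨q', hq', c3, d', d1, d2⟩⟩ := mem_elig.1 (List.mem_filter.1 c2).1
        · obtain ⟨k1, k2⟩ := inK q hq c c1 ((mem_reach hW).1 c3)
          exact ⟨k1, fun d hd hn => fin d (back d (k2 d hd hn))⟩
        · have d3 := (mem_reach hW).1 d1
          have d4 := d3.mem hW
          rcases pairwise_tri r.lam hq hq' with rfl | h1 | h1
          · have := band_of_node (h.val _ d4) d2
            exact ⟨nob d' d3 _ this, fun d hd hn => fin d (back d (d3.tail ⟨hd, _, hn, this⟩))⟩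
          · obtain ⟨k1, k2⟩ := inK q hq d' ((h1 ⟨c, c3, c1⟩).2 d' d4 d2) d3
            exact ⟨k1, fun d hd hn => fin d (back d (k2 d hd hn))⟩
          · obtain ⟨k1, k2⟩ := h1 ⟨c, c1, c3⟩
            refine ⟨k1, fun d hd hn => fin d ?_⟩
            obtain ⟨-, W', k3, k4⟩ := (r.rc q' hq').2.2.2 d (k2 d hd hn)
            exact (k3.tail ⟨d4, _, d2, k4⟩).trans (back d' d3)
      · obtain ⟨k1, k2⟩ := r.gr q hq ⟨c, c1, c2⟩
        refine ⟨k1, fun d hd hn => ?_⟩
        obtain ⟨g, k3, k4⟩ := k2 d hd hn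
        exact ⟨g, List.mem_append_right _ k3, k4⟩
    · refine List.nodup_append.2 ⟨(h.nd.filter _).filter _, r.gnd, fun c hc c' hc' hcc => ?_⟩
      subst hcc
      obtain ⟨-, c3 | ⟨q', hq', c3, d', d1, d2⟩⟩ := mem_elig.1 (List.mem_filter.1 hc).1
      · exact ng c ((mem_reach hW).1 c3) hc'
      · have d3 := (mem_reach hW).1 d1
        obtain ⟨g, k1, k2⟩ := (r.gr q' hq' ⟨c, c3, hc'⟩).2 d' (d3.mem hW) d2
        exact ng g (d3.trans k2) k1
    · intro g hg
      rcases List.mem_append.1 hg with hg | hg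
      · exact (mem_elig.1 (List.mem_filter.1 hg).1).1
      · exact r.gsub g hg
    · have := r.bud
      simp only [List.map_cons, List.sum_cons, List.map_append, List.sum_append] at this ⊢
      omega
    · intro g hg
      rcases List.mem_append.1 hg with hg | hg
      · exact ⟨v, List.mem_cons_self, (List.mem_filter.1 hg).2⟩
      · obtain ⟨w, h1, h2⟩ := r.tch g hg
        exact ⟨w, List.mem_cons_of_mem _ h1, h2⟩

end Crest.Agent.SCS
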