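import Crest.Agent.SCS.Events

/-! The main loop. -/

set_option autoImplicit false
set_option linter.dupNamespace false

namespace Crest.Agent.SCS

open Crest.Agent.PT

/-- States of the main loop. -/
abbrev St := List Wk × List Wk × Ex

/-- All events of a level. -/
def events (l : ℕ) (opn cls : List Wk) (x : Ex) : Ex := cls.foldl (evStep l opn cls) x

/-- One level. -/
def stage (S : List Str) (st : St) (l : ℕ) : St :=
  ((matchAll (grow st.1 st.2.2.1) st.2.1).1, (matchAll (grow st.1 st.2.2.1) st.2.1).2,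
    if l = 0 then (S.filter fun s => s.length = l, st.2.2.2) else
      events l (matchAll (grow st.1 st.2.2.1) st.2.1).1 (matchAll (grow st.1 st.2.2.1) st.2.1).2
        (S.filter fun s => s.length = l, st.2.2.2))

lemma Free.mono {l : ℕ} {opn cls : List Wk} {x x' : Ex} (h1 : ∀ n ∈ x.1, n ∈ x'.1)
    (h2 : ∀ n ∈ x.2.1, n ∈ x'.2.1) {c : Wk} (h : Free l opn cls x c) : Free l opn cls x' c := by
  obtain ⟨d, k1, k2⟩ := h
  refine ⟨d, k1, k2.imp (h2 d) (Or.imp ?_ id)⟩
  rintro ⟨n, n1, n2⟩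
  exact ⟨n, n1, List.mem_append.2 ((List.mem_append.1 n2).imp id (h1 n))⟩

theorem events_spec {S : List Str} {u : Str} {top l : ℕ} {opn cls : List Wk} {x : Ex}
    {Φ : Str → Prop} {G : Multiset Str} (hc : Ctx S u top) (hl : 1 ≤ l)
    (h : BInv S u top l opn cls x.1 (x.2.2.2.map (·.1)) Φ G) (r : RInv l opn cls Φ x)
    (hf : ∀ c ∈ cls, Free (l + 1) opn cls x c) :
    BInv S u top l opn cls (events l opn cls x).1 ((events l opn cls x).2.2.2.map (·.1)) Φ G ∧
    RInv l opn cls Φ (events l opn cls x) ∧ ∀ c ∈ cls, Free l opn cls (events l opn cls x) c := by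
  have key : ∀ L : List Wk, (∀ W ∈ L, W ∈ cls) →
      BInv S u top l opn cls (L.foldl (evStep l opn cls) x).1
        ((L.foldl (evStep l opn cls) x).2.2.2.map (·.1)) Φ G ∧
      RInv l opn cls Φ (L.foldl (evStep l opn cls) x) ∧
      (∀ n ∈ x.1, n ∈ (L.foldl (evStep l opn cls) x).1) ∧
      (∀ n ∈ x.2.1, n ∈ (L.foldl (evStep l opn cls) x).2.1) ∧
      ∀ W ∈ L, Free l opn cls (L.foldl (evStep l opn cls) x) W ∨
        ¬ ((∃ e ∈ W, e.1.length = l + per W) ∧ ∀ d, Rch cls W d → Rch cls d W) := by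
    intro L
    induction L using List.reverseRecOn with
    | nil => intro _; exact ⟨h, r, fun _ h => h, fun _ h => h, by simp⟩
    | append_singleton L W ih =>
      intro hL
      obtain ⟨k1, k2, k3, k4, k5⟩ := ih fun V hV => hL V (by simp [hV])
      obtain ⟨m1, m2, m3, m4, m5⟩ := evStep_spec hc hl k1 k2 (hL W (by simp))
      rw [List.foldl_append, List.foldl_cons, List.foldl_nil]
      refine ⟨m1, m2, fun n hn => m3 n (k3 n hn), fun n hn => m4 n (k4 n hn), fun V hV => ?_⟩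
      rcases List.mem_append.1 hV with hV | hV
      · exact (k5 V hV).imp (Free.mono m3 m4) id
      · rw [List.mem_singleton.1 hV]; exact m5
  obtain ⟨k1, k2, k3, k4, k5⟩ := key cls fun _ h => h
  refine ⟨k1, k2, fun c hc => ?_⟩
  obtain ⟨W, w1, w2⟩ := exists_sink hc
  obtain ⟨d, d1, d2⟩ := (hf W (w1.mem hc)).mono k3 k4
  by_contra hcon
  rcases d2 with d2 | d2 | ⟨e, he, d2⟩
  · exact hcon ⟨d, w1.trans d1, Or.inl d2⟩
  · exact hcon ⟨d, w1.trans d1, Or.inr (Or.inl d2)⟩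
  · rcases k5 d (d1.mem (w1.mem hc)) with ⟨d', h1, h2⟩ | h1
    · exact hcon ⟨d', (w1.trans d1).trans h1, h2⟩
    · refine h1 ⟨⟨e, he, ?_⟩, fun d' hd' => (w2 d' (d1.trans hd')).trans d1⟩
      by_contra hne
      exact hcon ⟨d, w1.trans d1, Or.inr (Or.inr ⟨e, he, by omega⟩)⟩

/-- The invariant of the main loop. -/
def Inv (S : List Str) (u : Str) (top l : ℕ) (st : St) : Prop :=
  ∃ Φ G, BInv S u top l st.1 st.2.1 st.2.2.1 (st.2.2.2.2.2.map (·.1)) Φ G ∧
    RInv l st.1 st.2.1 Φ st.2.2 ∧ (∀ c ∈ st.2.1, Free (max l 1) st.1 st.2.1 st.2.2 c) ∧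
    (l = 0 → st.1 = [] ∧ st.2.2.1 = [])

theorem Inv.stage {S : List Str} {u : Str} {top l : ℕ} (hc : Ctx S u top) {st : St}
    (h : Inv S u top (l + 1) st) : Inv S u top l (stage S st l) := by
  obtain ⟨opn, cls, pend, grd, roots, recs⟩ := st
  obtain ⟨Φ, G, h, r, f, -⟩ := h
  dsimp only at h r f
  obtain ⟨Φ', G', h', ev⟩ := h.trans hc
  have M := matchAll_spec h.grow_ow h.nd h.val
  unfold SCS.stage
  dsimp only
  generalize matchAll (grow opn pend) cls = m at *
  generalize hp : (S.filter fun s => decide (s.length = l)) = pend' at *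
  have r' : RInv l m.1 m.2 Φ' (pend', grd, roots, recs) := by
    refine ⟨fun q hq => ?_, ?_, ?_, r.gnd, fun g hg => ev.e3 g (r.gsub g hg), r.bud, r.tch⟩
    · obtain ⟨k1, k2, -, k4⟩ := r.rc q hq
      refine ⟨k1.evo (fun n h1 h2 => ev.e6 n h1 (by omega)) (fun n h1 => ev.e1 n (by omega))
        (fun n d h1 => ev.e2 n d (by omega)) ev.e3, by omega, Or.inl (by omega), fun c hc => ?_⟩
      obtain ⟨c1, W, c2, c3⟩ := k4 c hc
      exact ⟨ev.e3 c c1, W, c2.mono ev.e3, c3⟩
    · refine r.lam.imp_of_mem fun {q2 q1} _ hq h1 h2 => ?_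
      obtain ⟨k1, k2⟩ := h1 h2
      have := (r.rc q1 hq).2.1
      exact ⟨fun h => k1 (ev.e1 _ (by omega) h), fun d hd hn =>
        k2 d ((ev.e2 _ d (by omega) hd hn).resolve_right k1) hn⟩
    · intro q hq h2
      obtain ⟨k1, k2⟩ := r.gr q hq h2
      have := (r.rc q hq).2.1
      refine ⟨fun h => k1 (ev.e1 _ (by omega) h), fun d hd hn => ?_⟩
      obtain ⟨g, g1, g2⟩ := k2 d ((ev.e2 _ d (by omega) hd hn).resolve_right k1) hn
      exact ⟨g, g1, g2.mono ev.e3⟩
  have f' : ∀ c ∈ m.2, Free (l + 1) m.1 m.2 (pend', grd, roots, recs) c := by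
    intro c hc
    rcases ev.e5 c hc with h1 | ⟨e, he, h1⟩
    · obtain ⟨d, d1, d2⟩ := f c h1
      rw [show max (l + 1) 1 = l + 1 by omega] at d2
      rcases d2 with d2 | ⟨n, n1, n2⟩ | d2
      · exact ⟨d, d1.mono ev.e3, Or.inl d2⟩
      · rcases ev.e4 n n2 with h2 | ⟨d', h2, h3, e, he, h4⟩
        · exact ⟨d, d1.mono ev.e3, Or.inr (Or.inl ⟨n, n1, h2⟩)⟩
        · exact ⟨d', (d1.mono ev.e3).tail ⟨h2, n, h3, n1⟩, Or.inr (Or.inr ⟨e, he, by omega⟩)⟩
      · exact ⟨d, d1.mono ev.e3, Or.inr (Or.inr d2)⟩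
    · exact ⟨c, Relation.ReflTransGen.refl, Or.inr (Or.inr ⟨e, he, by omega⟩)⟩
  split_ifs with hl
  · subst hl
    refine ⟨Φ', G', h', r', f', fun _ => ⟨?_, ?_⟩⟩
    · refine List.eq_nil_iff_forall_not_mem.2 fun a ha => M.disj a ha a ha ?_
      rw [List.length_eq_zero_iff.1 (M.ow a ha).lh, List.length_eq_zero_iff.1 (M.ow a ha).lt]
    · dsimp only
      rw [← hp, List.filter_eq_nil_iff]
      intro s hs
      simpa using hc.ne s hs
  · obtain ⟨k1, k2, k3⟩ := events_spec hc (by omega) (x := (pend', grd, roots, recs)) h' r' f'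
    exact ⟨Φ', G', k1, k2, by rwa [show max l 1 = l by omega], fun h => absurd h hl⟩

/-- The empty state. -/
def st0 : St := ([], [], [], [], [], [])

theorem Inv.init {S : List Str} {u : Str} {top : ℕ} (hc : Ctx S u top) (ht : 0 < top) :
    Inv S u top top st0 :=
  ⟨_, _, BInv.init hc ht, ⟨by simp [st0], by simp [st0], by simp [st0], by simp [st0],
    by simp [st0], by simp [st0], by simp [st0]⟩, by simp [st0], fun _ => ⟨rfl, rfl⟩⟩

/-- The levels in decreasing order. -/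
def levels (top : ℕ) : List ℕ := mapRange top fun k => top - 1 - k

theorem Inv.run {S : List Str} {u : Str} {top : ℕ} (hc : Ctx S u top) (ht : 0 < top) (k : ℕ)
    (hk : k ≤ top) :
    Inv S u top (top - k) ((mapRange k fun k => top - 1 - k).foldl (SCS.stage S) st0) := by
  induction k with
  | zero => exact Inv.init hc ht
  | succ k ih =>
    have := ih (by omega)
    rw [show top - k = top - (k + 1) + 1 by omega] at this
    have := this.stage hc
    simp only [mapRange, List.range_succ, List.map_append, List.foldl_append, List.map_cons,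
      List.map_nil, List.foldl_cons, List.foldl_nil] at this ⊢
    rwa [show top - 1 - k = top - (k + 1) by omega]

/-- What the main loop delivers. -/
structure Fin' (S : List Str) (n : ℕ) (cls grd : List Wk) (roots : List Str) : Prop where
  nd : cls.Nodup
  val : ∀ c ∈ cls, Valid c
  cov : ∀ s ∈ S, ∃ c ∈ cls, s ∈ nodes c
  cnt : tot cls ≤ n
  gnd : grd.Nodup
  gsub : ∀ g ∈ grd, g ∈ cls
  bud : (roots.map List.length).sum ≤ (grd.map per).sum
  tch : ∀ g ∈ grd, ∃ v ∈ roots, touched v g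
  free : ∀ c ∈ cls, ∃ d, Rch cls c d ∧ (d ∈ grd ∨ ∃ e ∈ d, e.1.length ≤ per d)

theorem Inv.fin {S : List Str} {u : Str} {top : ℕ} (hc : Ctx S u top) {st : St}
    (h : Inv S u top 0 st) : Fin' S (u.length - 1) st.2.1 st.2.2.2.1 st.2.2.2.2.1 := by
  obtain ⟨opn, cls, pend, grd, roots, recs⟩ := st
  obtain ⟨Φ, G, h, r, f, h0⟩ := h
  obtain ⟨rfl, rfl⟩ := h0 rfl
  dsimp only at h r f ⊢
  refine ⟨h.nd, h.val, fun s hs => ?_, ?_, r.gnd, r.gsub, r.bud, r.tch, fun c hc => ?_⟩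
  · obtain ⟨e, he | he, rfl⟩ := h.cov s hs (List.length_pos_iff.2 (hc.ne s hs))
    · simp at he
    · obtain ⟨c, h1, h2⟩ := List.mem_flatten.1 he
      exact ⟨c, h1, mem_nodes.2 ⟨e, h2, List.prefix_refl _, ((h.val c h1).mem h2).1.length_le⟩⟩
  · obtain ⟨t0, ht0⟩ := hc.fresh
    have h1 : Φ (str (cyc u) t0 (t0 + 1)) := h.spec _ ⟨t0, str_norm _ _ _⟩ (by
      rintro ⟨s, hs, h1⟩
      exact ht0 s hs (h1.subset (mem_str le_rfl (by omega)))) (by omega)
    have h2 : (str (cyc u) t0 (t0 + 1)).tail.length = 0 := by simp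
    have h3 : 0 < G.card := by
      rcases h.leakR _ h1 (by simp) with h3 | h3 | ⟨e, -, -, h3⟩
      · exact Multiset.card_pos_iff_exists_mem.2 ⟨_, h.ΦG _ h3 h2⟩
      · simp [heads] at h3
      · omega
    have := h.cnt
    omega
  · obtain ⟨d, d1, d2 | ⟨n, -, d2⟩ | ⟨e, he, d2⟩⟩ := f c hc
    · exact ⟨d, d1, Or.inl d2⟩
    · simp [onodes] at d2
    · exact ⟨d, d1, Or.inr ⟨e, he, by omega⟩⟩

end Crest.Agent.SCS
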