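import Crest.Agent.SCS.Walk
import Crest.Agent.SCS.Stage

/-! Joining all units to one walk. -/

set_option autoImplicit false
set_option linter.dupNamespace false

namespace Crest.Agent.SCS

open Crest.Agent.PT

/-- The tour of a unit together with a loop. -/
def loopT (c : Wk) (z : Str × Str × Str × Str) : Gw :=
  rot z.2.1 (tour c) ++ [(z.2.2.1, z.1), (z.2.2.2, z.2.1)]

/-- Nodes of a unit on the walk. -/
def hitA (M : Gw) (c : Wk) : List Str := (nodes c).filter fun n => decide (n ∈ gn M)
/-- Band nodes of a unit on the walk. -/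
def hitB (M : Gw) (c : Wk) : List (Str × Str × Str × Str) :=
  (bandX c).filter fun z => decide (z.1 ∈ gn M)

/-- Absorbing a unit. -/
def absorb (st : Gw × List Wk) (c : Wk) : Gw × List Wk :=
  if c ∈ st.2 then st else
  if (hitA st.1 c).isEmpty then
    if (hitB st.1 c).isEmpty then st else
      (splice st.1 ((hitB st.1 c).headD ([], [], [], [])).1
        (loopT c ((hitB st.1 c).headD ([], [], [], []))), c :: st.2)
  else (splice st.1 ((hitA st.1 c).headD []) (tour c), c :: st.2)

/-- The price of a unit. -/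
def price (M0 : Gw) (c : Wk) : ℕ := c.length + if meets (nodes c) (gn M0) then 0 else per c

/-- The invariant of the joining. -/
structure AInv (cls : List Wk) (M0 : Gw) (st : Gw × List Wk) : Prop where
  gw : GW [] st.1 []
  sub : ∀ n ∈ gn M0, n ∈ gn st.1
  nd : st.2.Nodup
  dsub : ∀ c ∈ st.2, c ∈ cls
  dn : ∀ c ∈ st.2, ∀ n ∈ nodes c, n ∈ gn st.1
  cost : (spell st.1).length ≤ (spell M0).length + (st.2.map (price M0)).sum

/-- A unit that can be absorbed. -/
def Ready (st : Gw × List Wk) (c : Wk) : Prop := c ∉ st.2 ∧ ∃ n ∈ band c, n ∈ gn st.1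

lemma AInv.absorb {cls : List Wk} {M0 : Gw} {st : Gw × List Wk} (h : AInv cls M0 st) {c : Wk}
    (hc : c ∈ cls) (hv : Valid c) : AInv cls M0 (absorb st c) ∧
      ((absorb st c = st ∧ ¬ Ready st c) ∨ (absorb st c).2 = c :: st.2) := by
  obtain ⟨⟨x, t1⟩, t2, t3⟩ := hv.tour
  have gen : ∀ (n : Str) (C : Gw) (y : Str), c ∉ st.2 → GW y C y → n ∈ gn st.1 → n ∈ gn C →
      (∀ n ∈ nodes c, n ∈ gn C) → (spell C).length ≤ price M0 c →
      AInv cls M0 (splice st.1 n C, c :: st.2) := by
    intro n C y h0 h1 h2 h3 h4 h5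
    have hp := splice_perm st.1 n C
    have hm : ∀ n', n' ∈ gn C ∨ n' ∈ gn st.1 → n' ∈ gn (splice st.1 n C) := fun n' hn =>
      (gn_perm hp).2 (by simpa using hn)
    refine ⟨h.gw.splice h1 h2 h3, fun n hn => hm n (Or.inr (h.sub n hn)),
      List.nodup_cons.2 ⟨h0, h.nd⟩, ?_, ?_, ?_⟩
    · intro d hd
      rcases List.mem_cons.1 hd with rfl | hd
      · exact hc
      · exact h.dsub d hd
    · intro d hd n hn
      rcases List.mem_cons.1 hd with rfl | hd
      · exact hm n (Or.inl (h4 n hn))
      · exact hm n (Or.inr (h.dn d hd n hn))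
    · have := h.cost
      simp only [spell_perm hp, spell_append, List.length_append, List.map_cons, List.sum_cons]
      omega
  unfold SCS.absorb
  split_ifs with h1 h2 h3
  · exact ⟨h, Or.inl ⟨rfl, fun hr => hr.1 h1⟩⟩
  · refine ⟨h, Or.inl ⟨rfl, ?_⟩⟩
    rintro ⟨-, n, n1, n2⟩
    obtain ⟨z, hz, rfl⟩ := List.mem_map.1 n1
    simpa [n2] using List.filter_eq_nil_iff.1 (List.isEmpty_iff.1 h3) z hz
  · refine ⟨?_, Or.inr rfl⟩
    have hm := headD_mem (d := ([], [], [], [])) (fun h => h3 (List.isEmpty_iff.2 h))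
    generalize (hitB st.1 c).headD ([], [], [], []) = z at hm
    obtain ⟨m1, m2⟩ := List.mem_filter.1 hm
    obtain ⟨z1, z2, z3, z4⟩ := bandX_spec hv m1
    have rp := rot_perm z.2.1 (tour c)
    refine gen _ _ z.2.1 h1 (GW_append.2 ⟨_, t1.rot (t3 _ z1), z2, z3, rfl⟩) (by simpa using m2)
      (by simp [loopT]) (fun n hn => by simp [loopT, gn_perm rp, t3 n hn]) ?_
    have : ¬ meets (nodes c) (gn M0) := by
      rw [meets_iff]
      rintro ⟨n, n1, n2⟩
      simpa [h.sub n n2] using List.filter_eq_nil_iff.1 (List.isEmpty_iff.1 h2) n n1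
    simp only [loopT, price, this, spell_append, List.length_append, spell_perm rp, t2, spell_cons,
      spell_nil, List.length_nil]
    simp only [Bool.false_eq_true, if_false]
    omega
  · refine ⟨?_, Or.inr rfl⟩
    have hm := headD_mem (d := []) (fun h => h2 (List.isEmpty_iff.2 h))
    generalize (hitA st.1 c).headD [] = n at hm
    obtain ⟨m1, m2⟩ := List.mem_filter.1 hm
    exact gen _ _ x h1 t1 (by simpa using m2) (t3 _ m1) t3 (by rw [t2, price]; omega)

lemma AInv.fold {cls : List Wk} {M0 : Gw} (hv : ∀ c ∈ cls, Valid c) (L : List Wk)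
    (hL : ∀ c ∈ L, c ∈ cls) {st : Gw × List Wk} (h : AInv cls M0 st) :
    AInv cls M0 (L.foldl SCS.absorb st) ∧ st.2.length ≤ (L.foldl SCS.absorb st).2.length ∧
      (∀ c ∈ st.2, c ∈ (L.foldl SCS.absorb st).2) ∧
      ((∃ c ∈ L, Ready st c) → st.2.length < (L.foldl SCS.absorb st).2.length) := by
  induction L generalizing st with
  | nil => exact ⟨h, le_rfl, fun _ h => h, by simp⟩
  | cons c L ih =>
    have hc := hL c List.mem_cons_self
    obtain ⟨k1, k2⟩ := h.absorb hc (hv c hc)
    obtain ⟨m1, m2, m3, m4⟩ := ih (fun d hd => hL d (List.mem_cons_of_mem _ hd)) k1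
    rw [List.foldl_cons]
    rcases k2 with ⟨k2, k3⟩ | k2
    · rw [k2] at m1 m2 m3 m4 ⊢
      refine ⟨m1, m2, m3, fun ⟨d, hd, hr⟩ => m4 ⟨d, ?_, hr⟩⟩
      exact (List.mem_cons.1 hd).resolve_left fun h => k3 (h ▸ hr)
    · rw [k2] at m2 m3
      simp only [List.length_cons] at m2
      exact ⟨m1, by omega, fun d hd => m3 d (List.mem_cons_of_mem _ hd), fun _ => by omega⟩

lemma AInv.rounds {cls : List Wk} {M0 : Gw} (hv : ∀ c ∈ cls, Valid c)
    (hf : ∀ c ∈ cls, ∃ d, Rch cls c d ∧ ∃ n ∈ nodes d, n ∈ gn M0) (h0 : GW [] M0 [])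
    (L : List Wk) : AInv cls M0 ((L.flatMap fun _ => cls).foldl SCS.absorb (M0, [])) ∧
      ((∀ c ∈ cls, c ∈ ((L.flatMap fun _ => cls).foldl SCS.absorb (M0, [])).2) ∨
        L.length ≤ ((L.flatMap fun _ => cls).foldl SCS.absorb (M0, [])).2.length) := by
  induction L using List.reverseRecOn with
  | nil => exact ⟨⟨h0, fun _ h => h, by simp, by simp, by simp, by simp⟩, Or.inr (by simp)⟩
  | append_singleton L b ih =>
    simp only [List.flatMap_append, List.flatMap_cons, List.flatMap_nil, List.append_nil,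
      List.foldl_append, List.length_append, List.length_singleton]
    generalize (L.flatMap fun _ => cls).foldl SCS.absorb (M0, []) = st at ih ⊢
    obtain ⟨h, h1⟩ := ih
    obtain ⟨m1, m2, m3, m4⟩ := h.fold hv cls fun _ h => h
    refine ⟨m1, ?_⟩
    by_cases hall : ∀ c ∈ cls, c ∈ st.2
    · exact Or.inl fun c hc => m3 c (hall c hc)
    · right
      have h2 := h1.resolve_left hall
      refine Nat.lt_of_le_of_lt h2 (m4 ?_)
      by_contra hcon
      refine hall fun c hc => ?_
      obtain ⟨d, d1, n, n1, n2⟩ := hf c hc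
      induction d1 using Relation.ReflTransGen.head_induction_on with
      | refl =>
        by_contra hd
        exact hcon ⟨d, hc, hd, n, band_of_node (hv d hc) n1, h.sub n n2⟩
      | @head c c' he _ ih =>
        by_contra hd
        obtain ⟨e1, m, e2, e3⟩ := he
        exact hcon ⟨c, hc, hd, m, e3, h.dn c' (ih e1) m e2⟩

/-- Units with a cheap root path. -/
def direct (cls grd : List Wk) : List Wk :=
  cls.filter fun c => !decide (c ∈ grd) && c.any fun e => decide (e.1.length ≤ per c)

/-- The cheap root path. -/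
def droot (c : Wk) : Str := ((c.filter fun e => decide (e.1.length ≤ per c)).headD ([], [])).1

/-- The final string. -/
def final (cls grd : List Wk) (roots : List Str) : Str :=
  spell ((cls.flatMap fun _ => cls).foldl absorb
    (base (roots ++ (direct cls grd).map droot), [])).1

lemma sum_split (L : List Wk) (p : Wk → Bool) :
    ((L.filter p).map per).sum + (L.map fun c => c.length + if p c then 0 else per c).sum =
      tot L + (L.map per).sum := by
  induction L with
  | nil => rfl
  | cons c L ih =>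
    cases h : p c <;> simp only [List.filter_cons, h, List.map_cons, List.sum_cons, tot_cons,
      if_true, Bool.false_eq_true, if_false] <;> omega

theorem Fin'.final {S : List Str} {n : ℕ} {cls grd : List Wk} {roots : List Str}
    (h : Fin' S n cls grd roots) :
    (∀ s ∈ S, s <:+: final cls grd roots) ∧ (final cls grd roots).length ≤ 2 * n := by
  obtain ⟨b1, b2, b3⟩ := base_spec (roots ++ (direct cls grd).map droot)
  unfold SCS.final
  generalize base (roots ++ (direct cls grd).map droot) = M0 at *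
  have dr : ∀ c ∈ direct cls grd, droot c ∈ nodes c ∧ (droot c).length ≤ per c := fun c hc => by
    obtain ⟨c1, c2⟩ := List.mem_filter.1 hc
    simp only [Bool.and_eq_true, List.any_eq_true] at c2
    obtain ⟨-, e, he, h1⟩ := c2
    obtain ⟨m1, m2⟩ := List.mem_filter.1 (headD_mem (d := ([], []))
      (List.ne_nil_of_mem (List.mem_filter.2 ⟨he, h1⟩ :
        e ∈ c.filter fun e => decide (e.1.length ≤ per c))))
    exact ⟨mem_nodes.2 ⟨_, m1, ((h.val c c1).mem m1).1, le_rfl⟩, of_decide_eq_true m2⟩
  have hit : ∀ c ∈ grd ++ direct cls grd, ∃ n ∈ nodes c, n ∈ gn M0 := fun c hc => by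
    rcases List.mem_append.1 hc with hc | hc
    · obtain ⟨v, v1, v2⟩ := h.tch c hc
      obtain ⟨n, n1, n2⟩ := touched_iff.1 v2
      exact ⟨n, n1, b3 v (List.mem_append_left _ v1) n n2⟩
    · exact ⟨_, (dr c hc).1, b3 _ (List.mem_append_right _ (List.mem_map_of_mem hc)) _
        (Or.inl (List.prefix_refl _))⟩
  obtain ⟨a, a2⟩ := AInv.rounds h.val (fun c hc => by
    obtain ⟨d, d1, d2⟩ := h.free c hc
    refine ⟨d, d1, hit d (List.mem_append.2 ?_)⟩
    by_cases hd : d ∈ grd
    · exact Or.inl hd
    · exact Or.inr (List.mem_filter.2 ⟨d1.mem hc, by simpa [hd] using d2⟩)) b1 cls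
  generalize (cls.flatMap fun _ => cls).foldl absorb (M0, []) = st at *
  have hall : ∀ c ∈ cls, c ∈ st.2 := a2.elim id fun h1 c hc =>
    ((List.subperm_of_subset a.nd a.dsub).perm_of_length_le h1).symm.subset hc
  refine ⟨fun s hs => ?_, ?_⟩
  · obtain ⟨c, c1, c2⟩ := h.cov s hs
    simpa using a.gw.infix (List.suffix_refl _) (a.dn c (hall c c1) s c2)
  · have c1 := a.cost
    have c2 := sum_le_of_subset a.nd a.dsub (price M0)
    have c3 := sum_split cls fun c => meets (nodes c) (gn M0)
    have c4 := sum_per_le h.val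
    have c5 := h.cnt
    have c6 := h.bud
    have c7 : (((direct cls grd).map droot).map List.length).sum ≤
        ((direct cls grd).map per).sum := by
      rw [List.map_map]
      exact List.sum_le_sum fun c hc => (dr c hc).2
    have c8 := sum_le_of_subset (A := grd ++ direct cls grd)
      (B := cls.filter fun c => meets (nodes c) (gn M0))
      (List.nodup_append.2 ⟨h.gnd, h.nd.filter _, fun c hc c' hc' hcc => by
        subst hcc
        simpa [hc] using (List.mem_filter.1 hc').2⟩) (fun c hc => List.mem_filter.2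
        ⟨(List.mem_append.1 hc).elim (h.gsub c) fun h => (List.mem_filter.1 h).1,
          meets_iff.2 (hit c hc)⟩) per
    simp only [List.map_append, List.sum_append] at b2 c8
    change _ + (cls.map (price M0)).sum = _ at c3
    omega

end Crest.Agent.SCS
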