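import Mathlib

/-! Geometry of periodic staircases: basic notions. -/

set_option autoImplicit false
set_option linter.dupNamespace false

namespace Crest.Agent.SCS

/-- Two words agree on `[i, j)`. -/
def Agr (Q P : ℤ → ℕ) (i j : ℤ) : Prop := ∀ t, i ≤ t → t < j → Q t = P t

lemma Agr.symm {Q P : ℤ → ℕ} {i j : ℤ} (h : Agr Q P i j) : Agr P Q i j :=
  fun t h1 h2 => (h t h1 h2).symm
lemma Agr.trans {Q P R : ℤ → ℕ} {i j : ℤ} (h : Agr Q P i j) (h' : Agr P R i j) : Agr Q R i j :=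
  fun t h1 h2 => (h t h1 h2).trans (h' t h1 h2)
lemma Agr.mono {Q P : ℤ → ℕ} {i j i' j' : ℤ} (h : Agr Q P i j) (hi : i ≤ i') (hj : j' ≤ j) :
    Agr Q P i' j' := fun t h1 h2 => h t (by omega) (by omega)
lemma Agr.refl (Q : ℤ → ℕ) (i j : ℤ) : Agr Q Q i j := fun _ _ _ => rfl

/-- `p` is a period. -/
def Per (Q : ℤ → ℕ) (p : ℤ) : Prop := ∀ t, Q (t + p) = Q t

lemma Per.sub {Q : ℤ → ℕ} {p : ℤ} (h : Per Q p) (t : ℤ) : Q (t - p) = Q t := by
  have := h (t - p); rw [sub_add_cancel] at this; exact this.symm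

lemma Per.mul {Q : ℤ → ℕ} {p : ℤ} (h : Per Q p) (k : ℤ) : Per Q (k * p) := by
  induction k using Int.induction_on with
  | zero => intro t; simp
  | succ k ih => intro t; rw [add_mul, one_mul, ← add_assoc, h, ih]
  | pred k ih => intro t; rw [sub_mul, one_mul, ← add_sub_assoc, h.sub, ih]

/-- Agreement spreading in both directions. -/
lemma eq_of_spread {Q P : ℤ → ℕ} {i j n : ℤ} (h : Agr Q P i j) (hn : n ≤ j - i)
    (hr : ∀ a b, n ≤ b - a → Agr Q P a b → Q b = P b)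
    (hl : ∀ a b, n ≤ b - a → Agr Q P a b → Q (a - 1) = P (a - 1)) : Q = P := by
  have h1 : ∀ k : ℕ, Agr Q P (i - k) (j + k) := by
    intro k
    induction k with
    | zero => simpa using h
    | succ k ih =>
      intro t h1 h2
      push_cast at h1 h2
      rcases lt_or_ge t (i - k) with h3 | h3
      · have : t = i - k - 1 := by omega
        rw [this]; exact hl _ _ (by omega) ih
      · rcases lt_or_ge t (j + k) with h4 | h4
        · exact ih t h3 h4
        · have : t = j + k := by omega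
          rw [this]; exact hr _ _ (by omega) ih
  funext t
  exact h1 ((t - i).natAbs + (t - j).natAbs + 1) t (by omega) (by omega)

/-- Fine and Wilf, weak form. -/
lemma fw {Q P : ℤ → ℕ} {p q i j : ℤ} (hp : 0 < p) (hq : 0 < q) (hQ : Per Q q) (hP : Per P p)
    (h : Agr Q P i j) (hn : p + q ≤ j - i) : Q = P := by
  refine eq_of_spread h hn ?_ ?_
  · intro a b hab hA
    have e1 := hQ.sub b
    have e2 := hA (b - q) (by omega) (by omega)
    have e3 := hP.sub (b - q)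
    have e4 := hA (b - q - p) (by omega) (by omega)
    have e5 := hQ (b - q - p)
    have e6 := hA (b - p) (by omega) (by omega)
    have e7 := hP.sub b
    rw [show b - q - p + q = b - p by ring] at e5
    omega
  · intro a b hab hA
    have e1 := hQ (a - 1)
    have e2 := hA (a - 1 + q) (by omega) (by omega)
    have e3 := hP (a - 1 + q)
    have e4 := hA (a - 1 + q + p) (by omega) (by omega)
    have e5 := hQ (a - 1 + p)
    have e6 := hA (a - 1 + p) (by omega) (by omega)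
    have e7 := hP (a - 1)
    rw [show a - 1 + p + q = a - 1 + q + p by ring] at e5
    omega

lemma fw1 {Q P : ℤ → ℕ} {p i j : ℤ} (hp : 0 < p) (hQ : Per Q p) (hP : Per P p)
    (h : Agr Q P i j) (hn : p ≤ j - i) : Q = P := by
  refine eq_of_spread h hn ?_ ?_
  · intro a b hab hA
    have e1 := hQ.sub b
    have e2 := hA (b - p) (by omega) (by omega)
    have e7 := hP.sub b
    omega
  · intro a b hab hA
    have e1 := hQ (a - 1)
    have e2 := hA (a - 1 + p) (by omega) (by omega)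
    have e7 := hP (a - 1)
    omega

/-- Maximal common runs. -/
lemma exists_run {Q P : ℤ → ℕ} {p q i j : ℤ} (hp : 0 < p) (hq : 0 < q) (hQ : Per Q q)
    (hP : Per P p) (hne : Q ≠ P) (h : Agr Q P i j) :
    ∃ a e, a ≤ i ∧ j ≤ e ∧ Agr Q P a e ∧ Q (a - 1) ≠ P (a - 1) ∧ Q e ≠ P e ∧ e - a < p + q := by
  have hb : ∀ a e, Agr Q P a e → e - a < p + q := fun a e hA => by
    by_contra hc
    exact hne (fw hp hq hQ hP hA (by omega))
  obtain ⟨a, ⟨ha1, ha2⟩, ha3⟩ := Int.exists_least_of_bdd (P := fun a => a ≤ i ∧ Agr Q P a j)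
    ⟨j - p - q, fun z hz => by have := hb _ _ hz.2; omega⟩ ⟨i, le_rfl, h⟩
  obtain ⟨e, ⟨he1, he2⟩, he3⟩ := Int.exists_greatest_of_bdd (P := fun e => j ≤ e ∧ Agr Q P a e)
    ⟨a + p + q, fun z hz => by have := hb _ _ hz.2; omega⟩ ⟨j, le_rfl, ha2⟩
  refine ⟨a, e, ha1, he1, he2, fun hc => ?_, fun hc => ?_, hb _ _ he2⟩
  · have := ha3 (a - 1) ⟨by omega, fun t h1 h2 => by
      rcases eq_or_lt_of_le h1 with h3 | h3
      · rw [← h3]; exact hc
      · exact ha2 t (by omega) h2⟩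
    omega
  · have := he3 (e + 1) ⟨by omega, fun t h1 h2 => by
      rcases eq_or_lt_of_le (show t ≤ e by omega) with h3 | h3
      · rw [h3]; exact hc
      · exact he2 t h1 h3⟩
    omega

/-- A periodic word together with a staircase. -/
structure Lift (ι : Type) where
  /-- The unit it comes from. -/
  id : ι
  /-- The word. -/
  w : ℤ → ℕ
  /-- The row at which the staircase leaves column `i`. -/
  h : ℤ → ℤ

variable {ι : Type}

/-- Shifting a word. -/
def shw (Q : ℤ → ℕ) (d : ℤ) : ℤ → ℕ := fun t => Q (t - d)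

lemma Per.shw {Q : ℤ → ℕ} {p : ℤ} (h : Per Q p) : shw Q p = Q := funext h.sub

lemma Agr.shw {Q P : ℤ → ℕ} {i j : ℤ} (h : Agr Q P i j) (d : ℤ) :
    Agr (shw Q d) (shw P d) (i + d) (j + d) := fun t h1 h2 => h (t - d) (by omega) (by omega)

/-- Shifting a lift. -/
def Lift.sh (y : Lift ι) (d : ℤ) : Lift ι := ⟨y.id, shw y.w d, fun i => y.h (i - d) + d⟩

@[simp] lemma Lift.sh_id (y : Lift ι) (d : ℤ) : (y.sh d).id = y.id := rfl
@[simp] lemma Lift.sh_w (y : Lift ι) (d : ℤ) : (y.sh d).w = shw y.w d := rfl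
lemma Lift.sh_h (y : Lift ι) (d i : ℤ) : (y.sh d).h i = y.h (i - d) + d := rfl

/-- Nodes of the staircase. -/
def Lift.Nd (y : Lift ι) (i j : ℤ) : Prop := y.h (i - 1) ≤ j ∧ j ≤ y.h i

lemma Lift.Nd.sh {y : Lift ι} {i j : ℤ} (h : y.Nd i j) (d : ℤ) : (y.sh d).Nd (i + d) (j + d) := by
  obtain ⟨h1, h2⟩ := h
  constructor
  · rw [Lift.sh_h, show i + d - 1 - d = i - 1 by ring]; omega
  · rw [Lift.sh_h, show i + d - d = i by ring]; omega

/-- The static data: all lifts and their periods. -/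
structure Stat (ι : Type) where
  /-- The lifts. -/
  L : Lift ι → Prop
  /-- The least periods. -/
  π : ι → ℤ
  sh_mem : ∀ y d, L y → L (y.sh d)
  mono : ∀ y, L y → Monotone y.h
  πpos : ∀ c, 0 < π c
  per : ∀ y, L y → Per y.w (π y.id)
  πmin : ∀ y y', L y → L y' → y.w = y'.w → π y.id = π y'.id

namespace Stat

variable (Z : Stat ι)

/-- The band of a lift. -/
def InBand (y : Lift ι) (i j : ℤ) : Prop :=
  y.h (i - Z.π y.id - 1) ≤ j ∧ j - Z.π y.id ≤ y.h i

/-- The unit `c` has a node that is a prefix or a suffix of the window. -/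
def Touch (Q : ℤ → ℕ) (i j : ℤ) (c : ι) : Prop :=
  ∃ y, Z.L y ∧ y.id = c ∧ ∃ i' j', y.Nd i' j' ∧ Agr y.w Q i' j' ∧
    ((i' = i ∧ j' ≤ j) ∨ (j' = j ∧ i ≤ i'))

/-- Members with the word `P`. -/
def Wind (K : ι → Prop) (P : ℤ → ℕ) (y : Lift ι) : Prop := Z.L y ∧ K y.id ∧ y.w = P

/-- Strictly below all windings. -/
def Low (K : ι → Prop) (P : ℤ → ℕ) (i j : ℤ) : Prop := ∀ y, Z.Wind K P y → j < y.h (i - 1)

/-- A member blocks the row or the column of a node. -/
def Gap (K : ι → Prop) (P : ℤ → ℕ) (p i j : ℤ) : Prop :=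
  ∃ y, Z.L y ∧ K y.id ∧ Z.π y.id ≠ p ∧ Agr y.w P (i + p) j ∧
    Z.Touch P (i + 1) j y.id ∧ Z.Touch P i (j - 1) y.id ∧ Z.Touch P i j y.id

variable {Z}

lemma Low.mono {K : ι → Prop} {P : ℤ → ℕ} {i j i' j' : ℤ} (h : Z.Low K P i j) (hi : i ≤ i')
    (hj : j' ≤ j) : Z.Low K P i' j' := fun y hy => by
  have := h y hy
  have := Z.mono y hy.1 (show i - 1 ≤ i' - 1 by omega)
  omega

lemma Wind.sh {K : ι → Prop} {P : ℤ → ℕ} {y : Lift ι} (h : Z.Wind K P y) {d : ℤ} (hd : Per P d) :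
    Z.Wind K P (y.sh d) := ⟨Z.sh_mem _ _ h.1, h.2.1, by rw [Lift.sh_w, h.2.2, hd.shw]⟩

lemma Per_neg {P : ℤ → ℕ} {d : ℤ} (hd : Per P d) : Per P (-d) := by
  simpa using hd.mul (-1)

lemma Low.sh {K : ι → Prop} {P : ℤ → ℕ} {i j d : ℤ} (h : Z.Low K P i j) (hd : Per P d) :
    Z.Low K P (i + d) (j + d) := fun y hy => by
  have := h _ (hy.sh (Per_neg hd))
  rw [Lift.sh_h, show i - 1 - -d = i + d - 1 by ring] at this
  omega

lemma Touch.sh {P : ℤ → ℕ} {i j d : ℤ} {c : ι} (h : Z.Touch P i j c) (hd : Per P d) :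
    Z.Touch P (i + d) (j + d) c := by
  obtain ⟨y, hy, hc, i', j', hn, ha, h⟩ := h
  refine ⟨y.sh d, Z.sh_mem _ _ hy, hc, i' + d, j' + d, hn.sh d, ?_, by omega⟩
  have := ha.shw d
  rwa [hd.shw] at this

/-- A monotone staircase above the diagonal meets every later row. -/
lemma exists_row {y : Lift ι} (hy : Z.L y) (hb : ∀ i, i ≤ y.h (i - 1)) {k r e : ℤ}
    (hk : y.h (k - 1) ≤ r) (hre : r ≤ e) : ∃ k', k ≤ k' ∧ y.Nd k' e := by
  obtain ⟨k', ⟨h1, h2⟩, h3⟩ := Int.exists_least_of_bdd (P := fun z => k ≤ z ∧ e ≤ y.h z)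
    ⟨k, fun z hz => hz.1⟩ ⟨max k e, le_max_left _ _, by
      have := hb (max k e + 1)
      rw [add_sub_cancel_right] at this
      have := le_max_right k e
      omega⟩
  refine ⟨k', h1, ?_, h2⟩
  rcases eq_or_lt_of_le h1 with h4 | h4
  · rw [← h4]; omega
  · by_contra hc
    have := h3 (k' - 1) ⟨by omega, by omega⟩
    omega

end Stat

end Crest.Agent.SCS
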