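import Crest.Agent.SCS.Geo1

/-! Leaking of the surplus inside a trapped component. -/

set_option autoImplicit false
set_option linter.dupNamespace false

namespace Crest.Agent.SCS

variable {ι : Type}

/-- The dynamic data at a level. -/
structure Dyn (Z : Stat ι) where
  /-- Windows with surplus. -/
  Fc : (ℤ → ℕ) → ℤ → ℤ → Prop
  /-- Nodes of open walks. -/
  Op : (ℤ → ℕ) → ℤ → ℤ → Prop
  /-- Closed units. -/
  C : ι → Prop
  /-- The level. -/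
  l : ℤ
  lpos : 1 ≤ l
  Fc_congr : ∀ {Q P i j}, Agr Q P i j → Fc Q i j → Fc P i j
  Fc_sh : ∀ {Q i j} d, Fc Q i j → Fc (shw Q d) (i + d) (j + d)
  Op_congr : ∀ {Q P i j}, Agr Q P i j → Op Q i j → Op P i j
  Op_sh : ∀ {Q i j} d, Op Q i j → Op (shw Q d) (i + d) (j + d)
  leakR : ∀ {Q i j}, Fc Q (i - 1) j → l ≤ j - i → Fc Q i j ∨
    (Op Q i j ∧ (l < j - i → Op Q i (j - 1))) ∨
    ∃ y, Z.L y ∧ C y.id ∧ Agr y.w Q i j ∧ y.h (i - 1) < j ∧ j ≤ y.h i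
  leakD : ∀ {Q i j}, Fc Q i (j + 1) → l ≤ j - i → Fc Q i j ∨
    (Op Q i j ∧ (l < j - i → Op Q (i + 1) j)) ∨
    ∃ y, Z.L y ∧ C y.id ∧ Agr y.w Q i j ∧ y.h i = j

/-- A trapped component without rescue. -/
structure Ev {Z : Stat ι} (D : Dyn Z) where
  /-- The members. -/
  K : ι → Prop
  /-- The eligible payers. -/
  E : ι → Prop
  /-- The distinguished lift. -/
  y0 : Lift ι
  L0 : Z.L y0
  K0 : K y0.id
  KE : ∀ c, K c → E c
  size : ∀ y, Z.L y → K y.id → ∀ i, D.l + Z.π y.id + i ≤ y.h (i - 1)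
  noexO : ∀ y i j, Z.L y → K y.id → Z.InBand y i j → ¬ D.Op y.w i j
  noexC : ∀ y y' i j, Z.L y → K y.id → Z.InBand y i j → Z.L y' → D.C y'.id → y'.Nd i j →
    Agr y'.w y.w i j → K y'.id
  nores2 : ∀ y i j a b, Z.L y → E y.id → K a → E b → a ≠ b → Z.Touch y.w i j a →
    Z.Touch y.w i j b → Z.π a + Z.π b < j - i
  nores3 : ∀ y i j a b c, Z.L y → E y.id → K a → E b → E c → a ≠ b → a ≠ c → b ≠ c →
    Z.Touch y.w i j a → Z.Touch y.w i j b → Z.Touch y.w i j c → Z.π a + Z.π b + Z.π c < j - i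

namespace Ev

variable {Z : Stat ι} {D : Dyn Z} (V : Ev D)

/-- The word. -/
abbrev P : ℤ → ℕ := V.y0.w
/-- The period. -/
abbrev p : ℤ := Z.π V.y0.id
/-- Windings. -/
abbrev Wd (y : Lift ι) : Prop := Z.Wind V.K V.P y
/-- Low windows. -/
abbrev Lw (i j : ℤ) : Prop := Z.Low V.K V.P i j

lemma ppos : 0 < V.p := Z.πpos _
lemma perP : Per V.P V.p := Z.per _ V.L0
lemma wd0 : V.Wd V.y0 := ⟨V.L0, V.K0, rfl⟩
variable {V}
lemma wd_π {y : Lift ι} (h : V.Wd y) : Z.π y.id = V.p := Z.πmin _ _ h.1 V.L0 h.2.2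

lemma diag {y : Lift ι} (hy : Z.L y) (hk : V.K y.id) (i : ℤ) : i ≤ y.h (i - 1) := by
  have := V.size y hy hk i
  have := D.lpos
  have := Z.πpos y.id
  omega

lemma touch_col {y : Lift ι} (hy : Z.L y) {Q : ℤ → ℕ} {a e : ℤ} (hA : Agr y.w Q a e)
    (h : y.h (a - 1) ≤ e) : Z.Touch Q a e y.id :=
  ⟨y, hy, rfl, a, y.h (a - 1), ⟨le_rfl, Z.mono y hy (by omega)⟩, hA.mono le_rfl h,
    Or.inl ⟨rfl, h⟩⟩

/-- A misaligned member. -/
lemma mis {y : Lift ι} (hy : Z.L y) (hk : V.K y.id) {k r : ℤ} (hn : y.Nd k r)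
    (hA : Agr y.w V.P k r) (hne : y.w ≠ V.P) :
    Z.π y.id ≠ V.p ∧ ∃ a e, a ≤ k ∧ r ≤ e ∧ Agr y.w V.P a e ∧ y.w (a - 1) ≠ V.P (a - 1) ∧
      V.Lw a e := by
  have hs := V.size y hy hk k
  have hl := D.lpos
  have hπ : Z.π y.id ≠ V.p := fun hc => hne (fw1 V.ppos (hc ▸ Z.per y hy) V.perP hA
    (by have := hn.1; omega))
  refine ⟨hπ, ?_⟩
  obtain ⟨a, e, h1, h2, h3, h4, -, h6⟩ :=
    exists_run V.ppos (Z.πpos y.id) (Z.per y hy) V.perP hne hA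
  refine ⟨a, e, h1, h2, h3, h4, fun y1 hy1 => ?_⟩
  by_contra hc
  have hπ1 := wd_π hy1
  have t1 : Z.Touch V.P a e y1.id := touch_col hy1.1 (hy1.2.2 ▸ Agr.refl _ _ _) (by omega)
  have t2 : Z.Touch V.P a e y.id := touch_col hy h3 (by
    have := Z.mono y hy (show a - 1 ≤ k - 1 by omega)
    have := hn.1
    omega)
  have := V.nores2 V.y0 a e y1.id y.id V.L0 (V.KE _ V.K0) hy1.2.1 (V.KE _ hk)
    (fun hc => hπ (hc ▸ hπ1)) t1 t2
  omega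

/-- Runs of misaligned members. -/
def Run (V : Ev D) (a e : ℤ) : Prop :=
  ∃ y, Z.L y ∧ V.K y.id ∧ Z.π y.id ≠ V.p ∧ Agr y.w V.P a e ∧ y.w (a - 1) ≠ V.P (a - 1) ∧
    V.Lw a e ∧ ∃ k r, a ≤ k ∧ r ≤ e ∧ y.Nd k r

lemma run_of_mis {y : Lift ι} (hy : Z.L y) (hk : V.K y.id) {k r : ℤ} (hn : y.Nd k r)
    (hA : Agr y.w V.P k r) (hne : y.w ≠ V.P) : ∃ a e, a ≤ k ∧ r ≤ e ∧ V.Run a e := by
  obtain ⟨h0, a, e, h1, h2, h3, h4, h5⟩ := mis hy hk hn hA hne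
  exact ⟨a, e, h1, h2, y, hy, hk, h0, h3, h4, h5, k, r, h1, h2, hn⟩

lemma Run.low {a e : ℤ} (h : V.Run a e) : V.Lw a e := by
  obtain ⟨y, -, -, -, -, -, h, -⟩ := h; exact h

lemma not_low_of_nd {y : Lift ι} (hy : V.Wd y) {i j a e : ℤ} (hn : y.Nd i j) (ha : a ≤ i)
    (he : j ≤ e) : ¬ V.Lw a e := fun h => by
  have := h y hy
  have := Z.mono y hy.1 (show a - 1 ≤ i - 1 by omega)
  have := hn.1
  omega

/-- Runs in a box are nested. -/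
lemma nest {yq : Lift ι} (hq : V.Wd yq) {i j : ℤ} (hn : yq.Nd i j) {a1 e1 a2 e2 : ℤ}
    (r1 : V.Run a1 e1) (r2 : V.Run a2 e2) (h1 : a1 < a2) (h2 : e1 < e2) (h3 : a2 ≤ i + V.p)
    (h4 : j ≤ e1) : False := by
  have hp := V.ppos
  have hl := D.lpos
  have g1 : i < a1 := by
    by_contra hc
    exact not_low_of_nd hq hn (by omega) h4 r1.low
  have g2 : e2 < j + V.p := by
    by_contra hc
    exact not_low_of_nd (hq.sh V.perP) (hn.sh V.p) h3 (by omega) r2.low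
  obtain ⟨y1, hy1, k1, p1, A1, -, -, c1, s1, c11, c12, n1⟩ := r1
  obtain ⟨y2, hy2, k2, p2, A2, J2, -, c2, s2, c21, c22, n2⟩ := r2
  have hπq := wd_π hq
  have hsq := V.size yq hq.1 hq.2.1 i
  have hn1 := hn.1
  have tq : Z.Touch V.P (a2 - V.p) e1 yq.id := touch_col hq.1 (hq.2.2 ▸ Agr.refl _ _ _) (by
    have := Z.mono yq hq.1 (show a2 - V.p - 1 ≤ i - 1 by omega)
    omega)
  have t1 : Z.Touch V.P (a2 - V.p) e1 y1.id := by
    obtain ⟨k', hk1, hk2⟩ := Stat.exists_row hy1 (diag hy1 k1) n1.1 c12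
    exact ⟨y1, hy1, rfl, k', e1, hk2, A1.mono (by omega) le_rfl, Or.inr ⟨rfl, by omega⟩⟩
  have t2 : Z.Touch V.P (a2 - V.p) e1 y2.id := by
    have h5 : y2.h (a2 - 1) ≤ e2 := by
      have := Z.mono y2 hy2 (show a2 - 1 ≤ c2 - 1 by omega)
      have := n2.1
      omega
    have : Z.Touch V.P a2 (e1 + V.p) y2.id :=
      ⟨y2, hy2, rfl, a2, y2.h (a2 - 1), ⟨le_rfl, Z.mono y2 hy2 (by omega)⟩, A2.mono le_rfl h5,
        Or.inl ⟨rfl, by omega⟩⟩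
    have := this.sh (Stat.Per_neg V.perP)
    rwa [show a2 + -V.p = a2 - V.p by ring, show e1 + V.p + -V.p = e1 by ring] at this
  have hne : y1.w ≠ y2.w := fun hc => J2 (hc ▸ A1 _ (by omega) (by omega))
  have hA : Agr y1.w y2.w a2 e1 :=
    (A1.mono h1.le le_rfl).trans (A2.mono le_rfl h2.le).symm
  have d1 : yq.id ≠ y1.id := fun hc => p1 (hc ▸ hπq)
  have d2 : yq.id ≠ y2.id := fun hc => p2 (hc ▸ hπq)
  by_cases hid : y1.id = y2.id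
  · have := V.nores2 V.y0 _ _ _ _ V.L0 (V.KE _ V.K0) hq.2.1 (V.KE _ k1) d1 tq t1
    exact hne (fw1 (Z.πpos y1.id) (Z.per y1 hy1) (hid ▸ Z.per y2 hy2) hA (by omega))
  · have := V.nores3 V.y0 _ _ _ _ _ V.L0 (V.KE _ V.K0) hq.2.1 (V.KE _ k1) (V.KE _ k2) d1 d2 hid
      tq t1 t2
    exact hne (fw (Z.πpos y2.id) (Z.πpos y1.id) (Z.per y1 hy1) (Z.per y2 hy2) hA (by omega))

lemma box {yq : Lift ι} (hq : V.Wd yq) {i j k r : ℤ} (hn : yq.Nd i j) (h1 : i ≤ k)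
    (h2 : k ≤ i + V.p) (h3 : j ≤ r) (h4 : r ≤ j + V.p) : Z.InBand yq k r := by
  have hπq := wd_π hq
  have := Z.mono yq hq.1 (show k - Z.π yq.id - 1 ≤ i - 1 by omega)
  have := Z.mono yq hq.1 h1
  have := hn.1
  have := hn.2
  constructor <;> omega

lemma band_op {yq : Lift ι} (hq : V.Wd yq) {k r : ℤ} (hb : Z.InBand yq k r) {Q : ℤ → ℕ}
    (hA : Agr Q V.P k r) : ¬ D.Op Q k r := fun h =>
  V.noexO yq k r hq.1 hq.2.1 hb (hq.2.2 ▸ D.Op_congr hA h)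

lemma band_mem {yq : Lift ι} (hq : V.Wd yq) {k r : ℤ} (hb : Z.InBand yq k r) {y : Lift ι}
    (hy : Z.L y) (hc : D.C y.id) (hn : y.Nd k r) (hA : Agr y.w V.P k r) : V.K y.id :=
  V.noexC yq y k r hq.1 hq.2.1 hb hy hc hn (hq.2.2 ▸ hA)

/-- A blocker on the row. -/
lemma gap_row {yq : Lift ι} (hq : V.Wd yq) {i j k : ℤ} (hn : yq.Nd i j)
    (hl : V.Lw (i + 1) (j - 1)) (h1 : i < k) (h2 : k ≤ i + V.p) {y : Lift ι} (hy : Z.L y)
    (hc : D.C y.id) (hA : Agr y.w V.P k j) (h3 : y.h (k - 1) < j) (h4 : j ≤ y.h k) :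
    Z.Gap V.K V.P V.p i j := by
  have hp := V.ppos
  have n1 : y.Nd k j := ⟨h3.le, h4⟩
  have n2 : y.Nd k (j - 1) := ⟨by omega, by omega⟩
  have hk := band_mem hq (box hq hn h1.le h2 le_rfl (by omega)) hy hc n1 hA
  have hne : y.w ≠ V.P := fun hw => not_low_of_nd ⟨hy, hk, hw⟩ n2 (by omega) le_rfl hl
  refine ⟨y, hy, hk, (mis hy hk n1 hA hne).1, hA.mono h2 le_rfl,
    ⟨y, hy, rfl, k, j, n1, hA, Or.inr ⟨rfl, by omega⟩⟩,
    ⟨y, hy, rfl, k, j - 1, n2, hA.mono le_rfl (by omega), Or.inr ⟨rfl, by omega⟩⟩,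
    ⟨y, hy, rfl, k, j, n1, hA, Or.inr ⟨rfl, by omega⟩⟩⟩

/-- A blocker on the column. -/
lemma gap_col {yq : Lift ι} (hq : V.Wd yq) {i j r : ℤ} (hn : yq.Nd i j)
    (hl : V.Lw (i + 1) (j - 1)) (h1 : j ≤ r) (h2 : r < j + V.p) {y : Lift ι} (hy : Z.L y)
    (hc : D.C y.id) (hA : Agr y.w V.P (i + V.p) r) (h3 : y.h (i + V.p) = r) :
    Z.Gap V.K V.P V.p i j := by
  have hp := V.ppos
  have n1 : y.Nd (i + V.p) r := ⟨h3 ▸ Z.mono y hy (by omega), h3.ge⟩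
  have n2 : y.Nd (i + V.p + 1) r :=
    ⟨by rw [add_sub_cancel_right]; exact h3.le, h3 ▸ Z.mono y hy (by omega)⟩
  have hk := band_mem hq (box hq hn (by omega) le_rfl h1 h2.le) hy hc n1 hA
  have hne : y.w ≠ V.P := fun hw =>
    not_low_of_nd ⟨hy, hk, hw⟩ n2 (by omega) (by omega) (hl.sh V.perP)
  have key : ∀ a e, Z.Touch V.P (a + V.p) (e + V.p) y.id → Z.Touch V.P a e y.id := fun a e h => by
    have := h.sh (Stat.Per_neg V.perP)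
    rwa [show a + V.p + -V.p = a by ring, show e + V.p + -V.p = e by ring] at this
  refine ⟨y, hy, hk, (mis hy hk n1 hA hne).1, hA.mono le_rfl h1, key _ _
    ⟨y, hy, rfl, _, r, n2, hA.mono (by omega) le_rfl, Or.inl ⟨by ring, by omega⟩⟩, key _ _
    ⟨y, hy, rfl, _, r, n1, hA, Or.inl ⟨rfl, by omega⟩⟩, key _ _
    ⟨y, hy, rfl, _, r, n1, hA, Or.inl ⟨rfl, by omega⟩⟩⟩

end Ev

end Crest.Agent.SCS
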