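import Crest.Agent.SCS.Geo2

/-! The leak lemma. -/

set_option autoImplicit false
set_option linter.dupNamespace false

namespace Crest.Agent.SCS

variable {ι : Type}

lemma ind_up {P : ℤ → Prop} {a b : ℤ} (hab : a ≤ b) (h0 : P a)
    (h : ∀ n, a ≤ n → n < b → P n → P (n + 1)) : P b := by
  have : ∀ k : ℕ, a + k ≤ b → P (a + k) := by
    intro k
    induction k with
    | zero => intro _; simpa using h0
    | succ k ih =>
      intro hk
      push_cast at hk ⊢
      rw [← add_assoc]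
      exact h _ (by omega) (by omega) (ih (by omega))
  have h1 := this (b - a).toNat (by omega)
  rwa [show a + ((b - a).toNat : ℤ) = b by omega] at h1

lemma ind_down {P : ℤ → Prop} {a b : ℤ} (hab : a ≤ b) (h0 : P b)
    (h : ∀ n, a ≤ n → n < b → P (n + 1) → P n) : P a := by
  have := ind_up (P := fun n => P (-n)) (a := -b) (b := -a) (by omega) (by simpa using h0)
    fun n h1 h2 h3 => h _ (by omega) (by omega) (by simpa using h3)
  simpa using this

lemma exists_mul_window {p : ℤ} (hp : 0 < p) (x a : ℤ) : ∃ k, a ≤ x + k * p ∧ x + k * p < a + p := by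
  refine ⟨-((x - a) / p), ?_, ?_⟩
  · have := Int.ediv_mul_add_emod (x - a) p
    have := Int.emod_nonneg (x - a) hp.ne'
    linarith
  · have := Int.ediv_mul_add_emod (x - a) p
    have := Int.emod_lt_of_pos (x - a) hp
    linarith

namespace Ev

variable {Z : Stat ι} {D : Dyn Z} (V : Ev D)

/-- A left junction certificate. -/
def JL (Q : ℤ → ℕ) (i j : ℤ) : Prop :=
  Q (i - 1) ≠ V.P (i - 1) ∧ Agr Q V.P i j ∧ D.Fc Q (i - 1) j ∧ ¬ V.Lw i j ∧ V.Lw i (j - 1)

/-- A right junction certificate. -/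
def JR (Q : ℤ → ℕ) (i j : ℤ) : Prop :=
  Q j ≠ V.P j ∧ Agr Q V.P i j ∧ D.Fc Q i (j + 1) ∧ ¬ V.Lw i j ∧ V.Lw (i + 1) j

variable {V}

lemma not_low_sh {i j d : ℤ} (h : ¬ V.Lw i j) (hd : Per V.P d) : ¬ V.Lw (i + d) (j + d) :=
  fun h' => h (by simpa using h'.sh (Stat.Per_neg hd))

lemma JL.sh {Q : ℤ → ℕ} {i j d : ℤ} (h : V.JL Q i j) (hd : Per V.P d) :
    V.JL (shw Q d) (i + d) (j + d) := by
  obtain ⟨h1, h2, h3, h4, h5⟩ := h
  refine ⟨?_, hd.shw ▸ h2.shw d, ?_, not_low_sh h4 hd, ?_⟩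
  · have := hd (i - 1)
    rw [show i + d - 1 = i - 1 + d by ring, this]
    simpa [shw] using h1
  · have := D.Fc_sh d h3
    rwa [show i - 1 + d = i + d - 1 by ring] at this
  · have := h5.sh hd
    rwa [show j - 1 + d = j + d - 1 by ring] at this

lemma JR.sh {Q : ℤ → ℕ} {i j d : ℤ} (h : V.JR Q i j) (hd : Per V.P d) :
    V.JR (shw Q d) (i + d) (j + d) := by
  obtain ⟨h1, h2, h3, h4, h5⟩ := h
  refine ⟨?_, hd.shw ▸ h2.shw d, ?_, not_low_sh h4 hd, ?_⟩
  · rw [hd j]
    simpa [shw] using h1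
  · have := D.Fc_sh d h3
    rwa [show j + 1 + d = j + d + 1 by ring] at this
  · have := h5.sh hd
    rwa [show i + 1 + d = i + d + 1 by ring] at this

lemma leakL {yq : Lift ι} (hq : V.Wd yq) {i j : ℤ} (hn : yq.Nd i j)
    (hl : V.Lw (i + 1) (j - 1)) {Q : ℤ → ℕ} {i' u : ℤ} (hJ : V.JL Q i' u) (h1 : i < i')
    (h2 : i' ≤ i + V.p) : D.Fc V.P (i + V.p) j ∨ Z.Gap V.K V.P V.p i j := by
  by_contra hcon
  rw [not_or] at hcon
  obtain ⟨hF, hG⟩ := hcon
  obtain ⟨J1, J2, J3, J4, J5⟩ := hJ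
  have hp := V.ppos
  have hl1 := D.lpos
  have hsq := V.size yq hq.1 hq.2.1 i
  rw [wd_π hq] at hsq
  have hn1 := hn.1
  have u1 : j ≤ u := by
    by_contra hc
    exact J4 (hl.mono (by omega) (by omega))
  have u2 : u ≤ j + V.p := by
    by_contra hc
    exact not_low_of_nd (hq.sh V.perP) (hn.sh V.p) h2 (by omega) J5
  obtain ⟨r, ⟨r1, r2⟩, r3⟩ := Int.exists_least_of_bdd
    (P := fun r => j ≤ r ∧ ∀ a e, V.Run a e → a ≤ i' → e < r) ⟨j, fun z hz => hz.1⟩
    ⟨u, u1, fun a e hr ha => by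
      by_contra hc
      exact J4 (hr.low.mono ha (by omega))⟩
  have r4 : r ≤ u := r3 u ⟨u1, fun a e hr ha => by
      by_contra hc
      exact J4 (hr.low.mono ha (by omega))⟩
  have r5 : r = j ∨ ∃ a e, V.Run a e ∧ a ≤ i' ∧ e = r - 1 ∧ j ≤ e := by
    by_contra hc
    rw [not_or] at hc
    have := r3 (r - 1) ⟨by omega, fun a e hr ha => by
      have := r2 a e hr ha
      by_contra hc'
      exact hc.2 ⟨a, e, hr, ha, by omega, by omega⟩⟩
    omega
  -- step 1
  have s1 : D.Fc Q (i' - 1) r := by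
    refine ind_down (P := fun n => D.Fc Q (i' - 1) n) r4 J3 fun n n1 n2 hn' => ?_
    have hb := box hq hn h1.le h2 (show j ≤ n by omega) (by omega)
    have hA : Agr Q V.P i' n := J2.mono le_rfl n2.le
    rcases D.leakD hn' (by omega) with h | ⟨-, h⟩ | ⟨y, hy, hc, hA', h⟩
    · exact h
    · exact absurd (by simpa using h (by omega)) (band_op hq hb hA)
    · have nd : y.Nd i' n := ⟨h.le, h ▸ Z.mono y hy (by omega)⟩
      have hA2 : Agr y.w V.P i' n := (hA'.mono (by omega) le_rfl).trans hA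
      have hk := band_mem hq hb hy hc nd hA2
      have hne : y.w ≠ V.P := fun hw => J1 (hw ▸ (hA' _ le_rfl (by omega)).symm)
      obtain ⟨a, e, a1, e1, hr⟩ := run_of_mis hy hk nd hA2 hne
      have := r2 a e hr a1
      omega
  -- step 2
  have lowr : ∀ k, i' ≤ k → V.Lw k (r - 1) := fun k hk => by
    rcases r5 with h | ⟨a, e, hr, ha, he, -⟩
    · exact hl.mono (by omega) (by omega)
    · exact hr.low.mono (by omega) (by omega)
  have step : ∀ (R : ℤ → ℕ) k, i' ≤ k → k ≤ i + V.p → Agr R V.P k r → D.Fc R (k - 1) r →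
      D.Fc V.P k r := by
    intro R k k1 k2 hA hf
    have hb := box hq hn (show i ≤ k by omega) k2 r1 (by omega)
    rcases D.leakR hf (by omega) with h | ⟨h, -⟩ | ⟨y, hy, hc, hA', h3, h4⟩
    · exact D.Fc_congr hA h
    · exact absurd h (band_op hq hb hA)
    · exfalso
      have hA2 := hA'.trans hA
      rcases r5 with h | ⟨a, e, hr, ha, he, he'⟩
      · subst h
        exact hG (gap_row hq hn hl (by omega) k2 hy hc hA2 h3 h4)
      · have nd : y.Nd k r := ⟨h3.le, h4⟩
        have hk := band_mem hq hb hy hc nd hA2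
        have hne : y.w ≠ V.P := fun hw =>
          not_low_of_nd ⟨hy, hk, hw⟩ (show y.Nd k (r - 1) from ⟨by omega, by omega⟩) le_rfl le_rfl
            (lowr k k1)
        obtain ⟨a2, e2, a1, e1, hr2⟩ := run_of_mis hy hk nd hA2 hne
        have : i' < a2 := by
          by_contra hc'
          have := r2 a2 e2 hr2 (by omega)
          omega
        exact nest hq hn hr hr2 (by omega) (by omega) (by omega) he'
  have s2 : D.Fc V.P (i + V.p) r :=
    ind_up (P := fun k => D.Fc V.P k r) h2 (step Q i' le_rfl h2 (J2.mono le_rfl r4) s1)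
      fun n n1 n2 hn' => step V.P (n + 1) (by omega) (by omega) (Agr.refl _ _ _) (by simpa using hn')
  -- step 3
  refine hF (ind_down (P := fun n => D.Fc V.P (i + V.p) n) r1 s2 fun n n1 n2 hn' => ?_)
  rcases D.leakD hn' (by omega) with h | ⟨h, -⟩ | ⟨y, hy, hc, hA', h⟩
  · exact h
  · exact absurd h (band_op hq (box hq hn (by omega) le_rfl n1 (by omega)) (Agr.refl _ _ _))
  · exact absurd (gap_col hq hn hl n1 (by omega) hy hc hA' h) hG

lemma leakRt {yq : Lift ι} (hq : V.Wd yq) {i j : ℤ} (hn : yq.Nd i j)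
    (hl : V.Lw (i + 1) (j - 1)) {Q : ℤ → ℕ} {u j' : ℤ} (hJ : V.JR Q u j') (h1 : j ≤ j')
    (h2 : j' < j + V.p) : D.Fc V.P (i + V.p) j ∨ Z.Gap V.K V.P V.p i j := by
  by_contra hcon
  rw [not_or] at hcon
  obtain ⟨hF, hG⟩ := hcon
  obtain ⟨J1, J2, J3, J4, J5⟩ := hJ
  have hp := V.ppos
  have hl1 := D.lpos
  have hsq := V.size yq hq.1 hq.2.1 i
  rw [wd_π hq] at hsq
  have hn1 := hn.1
  have hl' := hl.sh V.perP
  have u1 : i ≤ u := by
    by_contra hc
    exact not_low_of_nd hq hn (by omega) h1 J5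
  have u2 : u ≤ i + V.p := by
    by_contra hc
    exact J4 (hl'.mono (by omega) (by omega))
  have hu : ∀ a e, V.Run a e → j' ≤ e → u < a := fun a e hr ha => by
    by_contra hc
    exact J4 (hr.low.mono (by omega) ha)
  obtain ⟨r, ⟨r1, r2⟩, r3⟩ := Int.exists_greatest_of_bdd
    (P := fun r => r ≤ i + V.p ∧ ∀ a e, V.Run a e → j' ≤ e → r < a) ⟨_, fun z hz => hz.1⟩
    ⟨u, u2, hu⟩
  have r4 : u ≤ r := r3 u ⟨u2, hu⟩
  have r5 : r = i + V.p ∨ ∃ a e, V.Run a e ∧ j' ≤ e ∧ a = r + 1 ∧ a ≤ i + V.p := by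
    by_contra hc
    rw [not_or] at hc
    have := r3 (r + 1) ⟨by omega, fun a e hr ha => by
      have := r2 a e hr ha
      by_contra hc'
      exact hc.2 ⟨a, e, hr, ha, by omega, by omega⟩⟩
    omega
  -- step 1
  have s1 : D.Fc Q r (j' + 1) := by
    refine ind_up (P := fun n => D.Fc Q n (j' + 1)) r4 J3 fun n n1 n2 hn' => ?_
    have hb := box hq hn (show i ≤ n + 1 by omega) (by omega) h1 h2.le
    have hA : Agr Q V.P (n + 1) j' := J2.mono (by omega) le_rfl
    rcases D.leakR (i := n + 1) (by simpa using hn') (by omega) with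
      h | ⟨-, h⟩ | ⟨y, hy, hc, hA', h3, h4⟩
    · exact h
    · exact absurd (by simpa using h (by omega)) (band_op hq hb hA)
    · have nd : y.Nd (n + 1) j' := ⟨by omega, by omega⟩
      have hA2 : Agr y.w V.P (n + 1) j' := (hA'.mono le_rfl (by omega)).trans hA
      have hk := band_mem hq hb hy hc nd hA2
      have hne : y.w ≠ V.P := fun hw => J1 (hw ▸ (hA' _ (by omega) (by omega)).symm)
      obtain ⟨a, e, a1, e1, hr⟩ := run_of_mis hy hk nd hA2 hne
      have := r2 a e hr e1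
      omega
  -- step 2
  have lowr : ∀ k, k ≤ j' → V.Lw (r + 1) k := fun k hk => by
    rcases r5 with h | ⟨a, e, hr, ha, he, -⟩
    · exact hl'.mono (by omega) (by omega)
    · exact hr.low.mono (by omega) (by omega)
  have step : ∀ (R : ℤ → ℕ) k, j ≤ k → k ≤ j' → Agr R V.P r k → D.Fc R r (k + 1) →
      D.Fc V.P r k := by
    intro R k k1 k2 hA hf
    have hb := box hq hn (show i ≤ r by omega) r1 k1 (by omega)
    rcases D.leakD hf (by omega) with h | ⟨h, -⟩ | ⟨y, hy, hc, hA', h3⟩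
    · exact D.Fc_congr hA h
    · exact absurd h (band_op hq hb hA)
    · exfalso
      have hA2 := hA'.trans hA
      rcases r5 with h | ⟨a, e, hr, ha, he, he'⟩
      · subst h
        exact hG (gap_col hq hn hl k1 (by omega) hy hc hA2 h3)
      · have nd : y.Nd r k := ⟨h3 ▸ Z.mono y hy (by omega), h3.ge⟩
        have hk := band_mem hq hb hy hc nd hA2
        have hne : y.w ≠ V.P := fun hw =>
          not_low_of_nd ⟨hy, hk, hw⟩ (show y.Nd (r + 1) k from
            ⟨by simpa using h3.le, h3 ▸ Z.mono y hy (by omega)⟩) le_rfl le_rfl (lowr k k2)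
        obtain ⟨a2, e2, a1, e1, hr2⟩ := run_of_mis hy hk nd hA2 hne
        have : e2 < j' := by
          by_contra hc'
          have := r2 a2 e2 hr2 (by omega)
          omega
        exact nest hq hn hr2 hr (by omega) (by omega) he' (by omega)
  have s2 : D.Fc V.P r j :=
    ind_down (P := fun k => D.Fc V.P r k) h1 (step Q j' h1 le_rfl (J2.mono r4 le_rfl) s1)
      fun n n1 n2 hn' => step V.P n n1 n2.le (Agr.refl _ _ _) hn'
  -- step 3
  refine hF (ind_up (P := fun n => D.Fc V.P n j) r1 s2 fun n n1 n2 hn' => ?_)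
  rcases D.leakR (i := n + 1) (by simpa using hn') (by omega) with
    h | ⟨h, -⟩ | ⟨y, hy, hc, hA', h3, h4⟩
  · exact h
  · exact absurd h (band_op hq (box hq hn (by omega) (by omega) le_rfl (by omega))
      (Agr.refl _ _ _))
  · exact absurd (gap_row hq hn hl (by omega) (by omega) hy hc hA' h3 h4) hG

/-- A junction certificate. -/
def J (V : Ev D) : Prop := ∃ Q i j, V.JL Q i j ∨ V.JR Q i j

theorem leak (hJ : V.J) {yq : Lift ι} (hq : V.Wd yq) {i j : ℤ} (hn : yq.Nd i j)
    (hl : V.Lw (i + 1) (j - 1)) : D.Fc V.P (i + V.p) j ∨ Z.Gap V.K V.P V.p i j := by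
  obtain ⟨Q, a, b, h | h⟩ := hJ
  · obtain ⟨k, h1, h2⟩ := exists_mul_window V.ppos a (i + 1)
    exact leakL hq hn hl (h.sh (V.perP.mul k)) (by omega) (by omega)
  · obtain ⟨k, h1, h2⟩ := exists_mul_window V.ppos b j
    exact leakRt hq hn hl (h.sh (V.perP.mul k)) h1 h2

end Ev

end Crest.Agent.SCS
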