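import Crest.Agent.SCS.Geo3

/-! Sliding junction faces. -/

set_option autoImplicit false
set_option linter.dupNamespace false

namespace Crest.Agent.SCS

variable {ι : Type}

namespace Ev

variable {Z : Stat ι} {D : Dyn Z} {V : Ev D}

lemma not_low_iff {i j : ℤ} : ¬ V.Lw i j ↔ ∃ y, V.Wd y ∧ y.h (i - 1) ≤ j := by
  simp [Ev.Lw, Stat.Low]

lemma not_low_size {i j : ℤ} (h : ¬ V.Lw i j) : D.l + V.p + i ≤ j := by
  obtain ⟨y, hy, h⟩ := not_low_iff.1 h
  have := V.size y hy.1 hy.2.1 i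
  rw [wd_π hy] at this
  omega

/-- Above some winding and outside all bands. -/
def Far (V : Ev D) (i j : ℤ) : Prop := ¬ V.Lw i j ∧ ∀ y, V.Wd y → ¬ Z.InBand y i j

lemma Far.sh {i j d : ℤ} (h : V.Far i j) (hd : Per V.P d) : V.Far (i + d) (j + d) := by
  refine ⟨not_low_sh h.1 hd, fun y hy hb => h.2 _ (hy.sh (Stat.Per_neg hd)) ?_⟩
  obtain ⟨h1, h2⟩ := hb
  constructor
  · rw [Lift.sh_h, Lift.sh_id, show i - Z.π y.id - 1 - -d = i + d - Z.π y.id - 1 by ring]
    omega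
  · rw [Lift.sh_h, Lift.sh_id, show i - -d = i + d by ring]
    omega

/-- All far windows are high above the lift. -/
def Good (V : Ev D) (Y : Lift ι) : Prop := ∀ i j, V.Far i j → Y.h i < j - V.p

lemma high_of {Y : Lift ι} (hY : V.Wd Y) {i j : ℤ} (h : V.Far i j)
    (h1 : Y.h (i - V.p - 1) ≤ j) : Y.h i < j - V.p := by
  have := h.2 Y hY
  rw [Stat.InBand, wd_π hY] at this
  omega

lemma allHigh {Y : Lift ι} (hY : V.Wd Y) {i j : ℤ} (h : V.Far i j) (k : ℤ)
    (h1 : Y.h (i + k * V.p - V.p - 1) ≤ j + k * V.p) : Y.h i < j - V.p := by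
  have hp := V.ppos
  have hm := Z.mono Y hY.1
  let H : ℤ → Prop := fun k => Y.h (i + k * V.p) < j + k * V.p - V.p
  have hk : H k := high_of hY (h.sh (V.perP.mul k)) h1
  have up : ∀ n, H n → H (n + 1) := fun n hn => high_of hY (h.sh (V.perP.mul (n + 1))) (by
    have := hm (show i + (n + 1) * V.p - V.p - 1 ≤ i + n * V.p by linarith)
    simp only [H] at hn
    linarith)
  have dn : ∀ n, H (n + 1) → H n := fun n hn => high_of hY (h.sh (V.perP.mul n)) (by
    have := hm (show i + n * V.p - V.p - 1 ≤ i + (n + 1) * V.p by linarith)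
    simp only [H] at hn
    linarith)
  have : H 0 := by
    rcases le_total k 0 with hk0 | hk0
    · exact ind_up hk0 hk fun n _ _ => up n
    · exact ind_down hk0 hk fun n _ _ => dn n
  simpa [H] using this

lemma good_base {i0 : ℤ} (h0 : V.y0.Nd i0 (i0 + D.l + V.p)) : V.Good V.y0 := by
  intro i j h
  obtain ⟨k, h1, h2⟩ := exists_mul_window V.ppos i (i0 + 1)
  refine allHigh V.wd0 h k ?_
  have := Z.mono _ V.L0 (show i + k * V.p - V.p - 1 ≤ i0 - 1 by omega)
  have := h0.1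
  have := not_low_size h.1
  omega

lemma good_step {Y Y' : Lift ι} (hY : V.Wd Y) (hg : V.Good Y) (hY' : V.Wd Y') {a b : ℤ}
    (hn : Y.Nd a b) (hn' : Y'.Nd a (b + V.p)) : V.Good Y' := by
  intro i j h
  obtain ⟨k, h1, h2⟩ := exists_mul_window V.ppos i a
  refine allHigh hY' h k ?_
  have := hg _ _ (h.sh (V.perP.mul k))
  have := Z.mono _ hY.1 h1
  have := Z.mono _ hY'.1 (show i + k * V.p - V.p - 1 ≤ a - 1 by omega)
  have := hn.2
  have := hn'.1
  omega

lemma slideL {Q : ℤ → ℕ} {a u : ℤ} (J1 : Q (a - 1) ≠ V.P (a - 1)) (J2 : Agr Q V.P a u)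
    (J3 : D.Fc Q (a - 1) u) (J4 : ¬ V.Lw a u)
    (farO : ∀ n, n < u → V.Far a n → D.Op Q (a - 1) n → D.Op Q a n → False)
    (farC : ∀ n, n < u → V.Far a n → ∀ y, Z.L y → D.C y.id → Agr y.w Q (a - 1) n →
      y.h (a - 1) = n → False) : V.J := by
  have hp := V.ppos
  have hl := D.lpos
  obtain ⟨m, m1, m2⟩ := Int.exists_least_of_bdd (P := fun n => ¬ V.Lw a n)
    ⟨_, fun z hz => not_low_size hz⟩ ⟨u, J4⟩
  have m3 := m2 u J4
  have m4 := not_low_size m1
  refine ⟨Q, a, m, Or.inl ⟨J1, J2.mono le_rfl m3, ?_, m1, ?_⟩⟩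
  · refine ind_down (P := fun n => D.Fc Q (a - 1) n) m3 J3 fun n n1 n2 hn => ?_
    have nl : ¬ V.Lw a n := fun h => m1 (h.mono le_rfl n1)
    have hA : Agr Q V.P a n := J2.mono le_rfl n2.le
    rcases D.leakD hn (by omega) with h | ⟨h, h'⟩ | ⟨y, hy, hc, hA', h⟩
    · exact h
    · exfalso
      have h'' : D.Op Q a n := by simpa using h' (by omega)
      exact farO n n2 ⟨nl, fun y hy hb => band_op hy hb hA h''⟩ h h''
    · exfalso
      refine farC n n2 ⟨nl, fun yq hq hb => ?_⟩ y hy hc hA' h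
      have nd : y.Nd a n := ⟨h.le, h ▸ Z.mono y hy (by omega)⟩
      have hA2 : Agr y.w V.P a n := (hA'.mono (by omega) le_rfl).trans hA
      have hk := band_mem hq hb hy hc nd hA2
      have hne : y.w ≠ V.P := fun hw => J1 (hw ▸ (hA' _ le_rfl (by omega)).symm)
      obtain ⟨a', e, a1, e1, hr⟩ := run_of_mis hy hk nd hA2 hne
      exact nl (hr.low.mono a1 e1)
  · by_contra hc
    have := m2 _ hc
    omega

lemma slideR {Q : ℤ → ℕ} {u b : ℤ} (J1 : Q b ≠ V.P b) (J2 : Agr Q V.P u b)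
    (J3 : D.Fc Q u (b + 1)) (J4 : ¬ V.Lw u b) (far : ∀ n, u < n → ¬ V.Far n b) : V.J := by
  have hp := V.ppos
  have hl := D.lpos
  obtain ⟨m, m1, m2⟩ := Int.exists_greatest_of_bdd (P := fun n => ¬ V.Lw n b)
    ⟨b, fun z hz => by have := not_low_size hz; omega⟩ ⟨u, J4⟩
  have m3 := m2 u J4
  have m4 := not_low_size m1
  refine ⟨Q, m, b, Or.inr ⟨J1, J2.mono m3 le_rfl, ?_, m1, ?_⟩⟩
  · refine ind_up (P := fun n => D.Fc Q n (b + 1)) m3 J3 fun n n1 n2 hn => ?_
    have nl : ¬ V.Lw (n + 1) b := fun h => m1 (h.mono (by omega) le_rfl)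
    have hA : Agr Q V.P (n + 1) b := J2.mono (by omega) le_rfl
    rcases D.leakR (i := n + 1) (by simpa using hn) (by omega) with
      h | ⟨-, h'⟩ | ⟨y, hy, hc, hA', h3, h4⟩
    · exact h
    · exfalso
      have h'' : D.Op Q (n + 1) b := by simpa using h' (by omega)
      exact far (n + 1) (by omega) ⟨nl, fun y hy hb => band_op hy hb hA h''⟩
    · exfalso
      refine far (n + 1) (by omega) ⟨nl, fun yq hq hb => ?_⟩
      have nd : y.Nd (n + 1) b := ⟨by omega, by omega⟩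
      have hA2 : Agr y.w V.P (n + 1) b := (hA'.mono le_rfl (by omega)).trans hA
      have hk := band_mem hq hb hy hc nd hA2
      have hne : y.w ≠ V.P := fun hw => J1 (hw ▸ (hA' _ (by omega) (by omega)).symm)
      obtain ⟨a', e, a1, e1, hr⟩ := run_of_mis hy hk nd hA2 hne
      exact nl (hr.low.mono a1 e1)
  · by_contra hc
    have := m2 _ hc
    omega

end Ev

end Crest.Agent.SCS
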