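import Crest.Agent.SCS.Geo4

/-! Junction certificates from inputs and from earlier births. -/

set_option autoImplicit false
set_option linter.dupNamespace false

namespace Crest.Agent.SCS

variable {ι : Type}

/-- What is remembered about a birth. -/
structure Cert (Z : Stat ι) (Fc Op : (ℤ → ℕ) → ℤ → ℤ → Prop) (C : ι → Prop) (y' : Lift ι)
    (i0 lam : ℤ) (K' : ι → Prop) : Prop where
  L : Z.L y'
  K : K' y'.id
  Cl : C y'.id
  nd : y'.Nd i0 (i0 + lam + Z.π y'.id)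
  size : ∀ y, Z.L y → K' y.id → ∀ i, lam + Z.π y.id + i ≤ y.h (i - 1)
  sqO : ∀ i j, i0 - Z.π y'.id ≤ i → i ≤ i0 → i0 + lam ≤ j → j ≤ i0 + lam + Z.π y'.id →
    lam < j - i → ¬ Op y'.w i j
  sqC : ∀ i j, i0 - Z.π y'.id ≤ i → i ≤ i0 → i0 + lam ≤ j → j ≤ i0 + lam + Z.π y'.id →
    lam < j - i → ∀ y, Z.L y → C y.id → y.Nd i j → Agr y.w y'.w i j → K' y.id
  leak : ∀ yq i j, Z.Wind K' y'.w yq → yq.Nd i j → Z.Low K' y'.w (i + 1) (j - 1) →
    lam < j - i - Z.π y'.id → Fc y'.w (i + Z.π y'.id) j ∨ Z.Gap K' y'.w (Z.π y'.id) i j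

namespace Ev

variable {Z : Stat ι} {D : Dyn Z} {V : Ev D}

lemma J_of_birth {Y y' : Lift ι} {i0 lam : ℤ} {K' : ι → Prop} (hY : V.Wd Y) (hg : V.Good Y)
    (htop : ∀ i, Y.h i - i ≤ lam) (h0 : Y.h i0 = i0 + lam)
    (hc : Cert Z D.Fc D.Op D.C y' i0 lam K') (hA : Agr y'.w V.P i0 (i0 + lam))
    (hE : ∀ c, K' c → V.E c) (hne : y'.w ≠ V.P) : V.J := by
  have hp := V.ppos
  have hl := D.lpos
  have hp' := Z.πpos y'.id
  have hP' := Z.per _ hc.L
  have hm := Z.mono Y hY.1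
  have hlam : D.l + V.p ≤ lam := by
    have := V.size Y hY.1 hY.2.1 i0
    rw [wd_π hY] at this
    have := hm (show i0 - 1 ≤ i0 by omega)
    omega
  obtain ⟨a, e, a1, e1, hA2, Ja, Je, hlen⟩ := exists_run V.ppos hp' hP' V.perP hne hA
  have hYK : ¬ K' Y.id := fun h => by
    have := hc.size Y hY.1 h i0
    have := Z.πpos Y.id
    have := hm (show i0 - 1 ≤ i0 by omega)
    omega
  have wπ : ∀ y, Z.Wind K' y'.w y → Z.π y.id = Z.π y'.id := fun y hy =>
    Z.πmin _ _ hy.1 hc.L hy.2.2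
  have nl : ∀ i j, ¬ Z.Low K' y'.w i j → ∃ y, Z.Wind K' y'.w y ∧ y.h (i - 1) ≤ j := by
    intro i j h
    simpa [Stat.Low] using h
  have nls : ∀ i j, ¬ Z.Low K' y'.w i j → lam + Z.π y'.id + i ≤ j := fun i j h => by
    obtain ⟨y, hy, h⟩ := nl i j h
    have := hc.size y hy.1 hy.2.1 i
    rw [wπ y hy] at this
    omega
  have w' : Z.Wind K' y'.w y' := ⟨hc.L, hc.K, rfl⟩
  have nd1 := hc.nd.1
  have resc : ∀ i j (y2 y : Lift ι), Z.Wind K' y'.w y2 → y2.h (i - 1) ≤ j → K' y.id →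
      Z.π y.id ≠ Z.π y'.id → Z.Touch y'.w i j Y.id → Z.Touch y'.w i j y.id →
      V.p + Z.π y'.id + Z.π y.id < j - i := by
    intro i j y2 y h2 h3 h4 h5 t1 t2
    have := V.nores3 y' i j Y.id y2.id y.id hc.L (hE _ hc.K) hY.2.1 (hE _ h2.2.1) (hE _ h4)
      (fun h => hYK (h ▸ h2.2.1)) (fun h => hYK (h ▸ h4)) (fun h => h5 (h ▸ wπ y2 h2)) t1
      (touch_col h2.1 (h2.2.2 ▸ Agr.refl _ _ _) h3) t2
    rwa [wd_π hY, wπ y2 h2] at this
  rcases le_or_gt (i0 + lam + V.p) e with hcase | hcase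
  · obtain ⟨ρ, r1, r2⟩ := Int.exists_least_of_bdd (P := fun n => ¬ Z.Low K' y'.w a n)
      ⟨_, fun z hz => nls _ _ hz⟩ ⟨i0 + lam + Z.π y'.id, fun h => by
        have := h y' w'
        have := Z.mono y' hc.L (show a - 1 ≤ i0 - 1 by omega)
        omega⟩
    have r3 : ρ ≤ i0 + lam + Z.π y'.id := r2 _ fun h => by
      have := h y' w'
      have := Z.mono y' hc.L (show a - 1 ≤ i0 - 1 by omega)
      omega
    have r4 := nls _ _ r1
    have r5 : Z.Low K' y'.w a (ρ - 1) := by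
      by_contra h
      have := r2 _ h
      omega
    obtain ⟨y2, w2, h2⟩ := nl _ _ r1
    have h3 := r5 y2 w2
    have nd2 : y2.Nd (a - 1) ρ := ⟨(Z.mono y2 w2.1 (by omega)).trans h2, by omega⟩
    have hYa := htop (a - 1)
    rcases hc.leak y2 (a - 1) ρ w2 nd2 (by simpa using r5) (by omega) with
      h | ⟨y, hy, hk, hπ, hA3, t1, -, -⟩
    · have h4 := D.Fc_sh (-Z.π y'.id) h
      rw [(Stat.Per_neg hP').shw, show a - 1 + Z.π y'.id + -Z.π y'.id = a - 1 by ring] at h4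
      have win : ∀ n, n < ρ + -Z.π y'.id → V.Far a n → ∃ d, Per V.P d ∧ 0 ≤ d ∧ a + d < i0 ∧
          i0 + lam ≤ n + d ∧ n + d ≤ e := by
        intro n n1 hf
        obtain ⟨k, k1, k2⟩ := exists_mul_window V.ppos n (i0 + lam)
        refine ⟨k * V.p, V.perP.mul k, by omega, ?_, k1, by omega⟩
        have := hg _ _ (hf.sh (V.perP.mul k))
        by_contra hcc
        have := hm (show i0 ≤ a + k * V.p by omega)
        omega
      refine slideL Ja (hA2.mono le_rfl (by omega)) h4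
        (not_low_iff.2 ⟨Y, hY, by omega⟩) (fun n n1 hf _ ho => ?_) fun n n1 hf y hy hC hA3 hh => ?_
      · obtain ⟨d, d1, d2, d3, d4, d5⟩ := win n n1 hf
        have o1 := D.Op_sh d (D.Op_congr (hA2.mono le_rfl (by omega)) ho)
        rw [d1.shw] at o1
        exact hc.sqO (a + d) (n + d) (by omega) (by omega) d4 (by omega) (by omega)
          (D.Op_congr (hA2.mono (by omega) d5).symm o1)
      · obtain ⟨d, d1, d2, d3, d4, d5⟩ := win n n1 hf
        have nd : y.Nd a n := ⟨hh.le, hh ▸ Z.mono y hy (by omega)⟩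
        have hA4 : Agr y.w V.P a n := (hA3.mono (by omega) le_rfl).trans (hA2.mono le_rfl (by omega))
        have hA5 := hA4.shw d
        rw [d1.shw] at hA5
        have hk := hc.sqC (a + d) (n + d) (by omega) (by omega) d4 (by omega) (by omega) (y.sh d)
          (Z.sh_mem _ _ hy) hC (nd.sh d) (hA5.trans (hA2.mono (by omega) d5).symm)
        have hs := hc.size y hy hk a
        have := fw V.ppos (Z.πpos y.id) (Z.per y hy) V.perP hA4 (by omega)
        exact Ja (this ▸ (hA3 _ le_rfl (by omega)).symm)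
    · exfalso
      have t0 : Z.Touch y'.w a ρ Y.id := ⟨Y, hY.1, rfl, a, Y.h (a - 1), ⟨le_rfl, hm (by omega)⟩,
        hY.2.2 ▸ (hA2.mono le_rfl (by omega)).symm, Or.inl ⟨rfl, by omega⟩⟩
      have hr := resc a ρ y2 y w2 h2 hk hπ t0 (by simpa using t1)
      have hA4 := hA3.shw (-Z.π y'.id)
      rw [(Stat.Per_neg hP').shw, show a - 1 + Z.π y'.id + -Z.π y'.id = a - 1 by ring] at hA4
      have hπy := Z.πpos y.id
      have hper : Per (shw y.w (-Z.π y'.id)) (Z.π y.id) :=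
        Z.per (y.sh (-Z.π y'.id)) (Z.sh_mem y (-Z.π y'.id) hy)
      have := fw V.ppos hπy hper V.perP
        ((hA4.mono (show a - 1 ≤ a by omega) le_rfl).trans (hA2.mono le_rfl (by omega))) (by omega)
      exact Ja (this ▸ (hA4 _ le_rfl (by omega)).symm)
  · have ex : ¬ Z.Low K' y'.w (i0 - Z.π y'.id) e := fun h => by
      have := h _ (w'.sh (Stat.Per_neg hP'))
      rw [Lift.sh_h, show i0 - Z.π y'.id - 1 - -Z.π y'.id = i0 - 1 by ring] at this
      omega
    obtain ⟨κ, r1, r2⟩ := Int.exists_greatest_of_bdd (P := fun n => ¬ Z.Low K' y'.w n e)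
      ⟨e - lam - Z.π y'.id, fun z hz => by have := nls _ _ hz; omega⟩ ⟨_, ex⟩
    have r3 := r2 _ ex
    have r4 := nls _ _ r1
    have r5 : Z.Low K' y'.w (κ + 1) e := by
      by_contra h
      have := r2 _ h
      omega
    obtain ⟨y2, w2, h2⟩ := nl _ _ r1
    have h3 := r5 y2 w2
    rw [add_sub_cancel_right] at h3
    have nd2 : y2.Nd κ (e + 1) := ⟨by omega, by omega⟩
    rcases hc.leak y2 κ (e + 1) w2 nd2 (by simpa using r5) (by omega) with
      h | ⟨y, hy, hk, hπ, hA3, -, t1, -⟩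
    · have hYa := htop (κ + Z.π y'.id - 1)
      refine slideR Je (hA2.mono (by omega) le_rfl) h (not_low_iff.2 ⟨Y, hY, by omega⟩)
        fun n n1 hf => ?_
      have := hg _ _ hf
      have := hm (show i0 ≤ n by omega)
      omega
    · exfalso
      obtain ⟨k', k1, k2⟩ := Stat.exists_row hY.1 (diag hY.1 hY.2.1) (k := i0) (r := e) (e := e)
        (by have := hm (show i0 - 1 ≤ i0 by omega); omega) le_rfl
      have t0 : Z.Touch y'.w κ e Y.id := ⟨Y, hY.1, rfl, k', e, k2,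
        hY.2.2 ▸ (hA2.mono (by omega) le_rfl).symm, Or.inr ⟨rfl, by omega⟩⟩
      have hr := resc κ e y2 y w2 h2 hk hπ t0 (by simpa using t1)
      have hπy := Z.πpos y.id
      have := fw V.ppos hπy (Z.per _ hy) V.perP
        ((hA3.mono le_rfl (show e ≤ e + 1 by omega)).trans (hA2.mono (by omega) le_rfl)) (by omega)
      exact Je (this ▸ (hA3 _ (by omega) (by omega)).symm)

end Ev

end Crest.Agent.SCS
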