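import Crest.Agent.SCS.Nodes

/-! Greedy matching of open walks at one level. -/

set_option autoImplicit false
set_option linter.dupNamespace false

namespace Crest.Agent.SCS

open Crest.Agent.PT

/-- One step of `pick`. -/
def pickStep (p : Wk → Bool) (s : Wk × List Wk) (x : Wk) : Wk × List Wk :=
  if s.1.isEmpty && p x then (x, s.2) else (s.1, x :: s.2)

/-- Takes out a walk with a property. -/
def pick (p : Wk → Bool) (L : List Wk) : Wk × List Wk := L.foldl (pickStep p) ([], [])

lemma pick_spec (p : Wk → Bool) (L : List Wk) (h : ∀ x ∈ L, x ≠ []) :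
    ((pick p L).1 = [] ∧ (pick p L).2.Perm L ∧ ∀ x ∈ L, p x = false) ∨
    (p (pick p L).1 ∧ ((pick p L).1 :: (pick p L).2).Perm L) := by
  induction L using List.reverseRecOn with
  | nil => simp [pick]
  | append_singleton L x ih =>
    have e : pick p (L ++ [x]) = pickStep p (pick p L) x := by simp [pick]
    rw [e]
    have pa : (x :: L).Perm (L ++ [x]) := (List.perm_append_singleton x L).symm
    rcases ih fun y hy => h y (by simp [hy]) with ⟨h1, h2, h3⟩ | ⟨h1, h2⟩
    · cases hp : p x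
      · left
        simp only [pickStep, hp, Bool.and_false, Bool.false_eq_true, if_false]
        refine ⟨h1, (h2.cons x).trans pa, fun y hy => ?_⟩
        rcases List.mem_append.1 hy with hy | hy
        · exact h3 y hy
        · rw [List.mem_singleton.1 hy]; exact hp
      · right
        simp only [pickStep, hp, h1, List.isEmpty_nil, Bool.and_true, if_true]
        exact ⟨trivial, (h2.cons x).trans pa⟩
    · right
      have hne : (pick p L).1 ≠ [] := h _ (by simp [h2.subset List.mem_cons_self])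
      have : (pick p L).1.isEmpty = false := by simpa using hne
      simp only [pickStep, this, Bool.false_and, Bool.false_eq_true, if_false]
      exact ⟨h1, ((List.Perm.swap _ _ _).trans (h2.cons x)).trans pa⟩

/-- Open walks at a level. -/
structure OW (l : ℕ) (a : Wk) : Prop where
  ne : a ≠ []
  ch : Ch (hd a) a (tl a)
  lh : (hd a).length = l
  lt : (tl a).length = l

lemma OW.append {l : ℕ} {a b : Wk} (ha : OW l a) (hb : OW l b) (h : hd b = tl a) :
    OW l (a ++ b) ∧ hd (a ++ b) = hd a ∧ tl (a ++ b) = tl b := by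
  have h1 : Ch (hd a) (a ++ b) (tl b) := Ch_append.2 ⟨_, ha.ch, h ▸ hb.ch⟩
  have h2 : a ++ b ≠ [] := by simp [ha.ne]
  obtain ⟨h3, h4⟩ := h1.hd_tl h2
  exact ⟨⟨h2, by rw [h3, h4]; exact h1, h3 ▸ ha.lh, h4 ▸ hb.lt⟩, h3, h4⟩

lemma OW.hd_mem {l : ℕ} {a : Wk} (ha : OW l a) : ∃ e ∈ a, e.1 = hd a := by
  cases a with
  | nil => exact absurd rfl ha.ne
  | cons e r => exact ⟨e, by simp, rfl⟩

/-- First nodes. -/
def heads (L : List Wk) : Multiset Str := (L.map hd : List Str)
/-- Last nodes. -/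
def tails (L : List Wk) : Multiset Str := (L.map tl : List Str)
/-- Number of columns. -/
def tot (L : List Wk) : ℕ := (L.map List.length).sum

@[simp] lemma heads_cons (a : Wk) (L : List Wk) : heads (a :: L) = {hd a} + heads L := rfl
@[simp] lemma tails_cons (a : Wk) (L : List Wk) : tails (a :: L) = {tl a} + tails L := rfl
@[simp] lemma tot_cons (a : Wk) (L : List Wk) : tot (a :: L) = a.length + tot L := rfl
lemma heads_perm {L L' : List Wk} (h : L.Perm L') : heads L = heads L' :=
  Multiset.coe_eq_coe.2 (h.map _)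
lemma tails_perm {L L' : List Wk} (h : L.Perm L') : tails L = tails L' :=
  Multiset.coe_eq_coe.2 (h.map _)
lemma tot_perm {L L' : List Wk} (h : L.Perm L') : tot L = tot L' := (h.map _).sum_eq
lemma mem_heads {L : List Wk} {q : Str} : q ∈ heads L ↔ ∃ a ∈ L, hd a = q := by simp [heads]
lemma mem_tails {L : List Wk} {q : Str} : q ∈ tails L ↔ ∃ a ∈ L, tl a = q := by simp [tails]

/-- Attaching a walk to the end. -/
lemma attach_tail {l : ℕ} {a : Wk} {L : List Wk} (ha : OW l a) (hL : ∀ b ∈ L, OW l b)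
    (hd' : ∀ b ∈ L, ∀ c ∈ L, hd b ≠ tl c) :
    let r := pick (fun b => hd b = tl a) L
    OW l (a ++ r.1) ∧ (∀ b ∈ r.2, b ∈ L) ∧ (∀ b ∈ r.2, hd b ≠ tl (a ++ r.1)) ∧
    (∃ X, heads (a :: L) = heads ((a ++ r.1) :: r.2) + X ∧
      tails (a :: L) = tails ((a ++ r.1) :: r.2) + X) ∧
    ((a :: L).flatten.Perm ((a ++ r.1) :: r.2).flatten) := by
  intro r
  rcases pick_spec (fun b => hd b = tl a) L (fun b hb => (hL b hb).ne) with
    ⟨h1, h2, h3⟩ | ⟨h1, h2⟩
  · change r.1 = [] at h1
    change r.2.Perm L at h2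
    rw [h1, List.append_nil]
    refine ⟨ha, fun b hb => h2.subset hb, fun b hb => by simpa using h3 b (h2.subset hb),
      ⟨0, by simp [heads_perm h2], by simp [tails_perm h2]⟩, (h2.symm.cons a).flatten⟩
  · change (r.1 :: r.2).Perm L at h2
    have h1' : hd r.1 = tl a := by simpa using h1
    have hm : r.1 ∈ L := h2.subset List.mem_cons_self
    have hs : ∀ b ∈ r.2, b ∈ L := fun b hb => h2.subset (List.mem_cons_of_mem _ hb)
    obtain ⟨k1, k2, k3⟩ := ha.append (hL _ hm) h1'
    refine ⟨k1, hs, fun b hb => k3 ▸ hd' b (hs b hb) _ hm, ⟨{tl a}, ?_, ?_⟩, ?_⟩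
    · simp only [heads_cons, ← heads_perm h2, k2, h1']; abel
    · simp only [tails_cons, ← tails_perm h2, k3]; abel
    · simpa using (h2.symm.cons a).flatten

/-- Attaching a walk to the front. -/
lemma attach_head {l : ℕ} {a : Wk} {L : List Wk} (ha : OW l a) (hL : ∀ b ∈ L, OW l b)
    (hd' : ∀ b ∈ L, ∀ c ∈ L, hd b ≠ tl c) (ht : ∀ b ∈ L, hd b ≠ tl a) :
    let r := pick (fun b => tl b = hd a) L
    OW l (r.1 ++ a) ∧ (∀ b ∈ r.2, b ∈ L) ∧ (∀ b ∈ r.2, hd b ≠ tl (r.1 ++ a)) ∧
    (∀ b ∈ r.2, hd (r.1 ++ a) ≠ tl b) ∧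
    (∃ X, heads (a :: L) = heads ((r.1 ++ a) :: r.2) + X ∧
      tails (a :: L) = tails ((r.1 ++ a) :: r.2) + X) ∧
    ((a :: L).flatten.Perm ((r.1 ++ a) :: r.2).flatten) := by
  intro r
  rcases pick_spec (fun b => tl b = hd a) L (fun b hb => (hL b hb).ne) with
    ⟨h1, h2, h3⟩ | ⟨h1, h2⟩
  · change r.1 = [] at h1
    change r.2.Perm L at h2
    rw [h1, List.nil_append]
    refine ⟨ha, fun b hb => h2.subset hb, fun b hb => ht b (h2.subset hb),
      fun b hb h => by simpa [h] using h3 b (h2.subset hb),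
      ⟨0, by simp [heads_perm h2], by simp [tails_perm h2]⟩, (h2.symm.cons a).flatten⟩
  · change (r.1 :: r.2).Perm L at h2
    have h1' : tl r.1 = hd a := by simpa using h1
    have hm : r.1 ∈ L := h2.subset List.mem_cons_self
    have hs : ∀ b ∈ r.2, b ∈ L := fun b hb => h2.subset (List.mem_cons_of_mem _ hb)
    obtain ⟨k1, k2, k3⟩ := (hL _ hm).append ha h1'.symm
    refine ⟨k1, hs, fun b hb => k3 ▸ ht b (hs b hb), fun b hb => k2 ▸ hd' _ hm b (hs b hb),
      ⟨{hd a}, ?_, ?_⟩, ?_⟩
    · simp only [heads_cons, ← heads_perm h2, k2]; abel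
    · simp only [tails_cons, ← tails_perm h2, k3, h1']; abel
    · refine (h2.symm.cons a).flatten.trans ?_
      simp only [List.flatten_cons, ← List.append_assoc]
      exact List.perm_append_comm.append_right _

/-- First half of an insertion. -/
def ins1 (L : List Wk) (a : Wk) : Wk × List Wk :=
  (a ++ (pick (fun b => hd b = tl a) L).1, (pick (fun b => hd b = tl a) L).2)

/-- Second half of an insertion. -/
def ins2 (r : Wk × List Wk) : Wk × List Wk :=
  ((pick (fun b => tl b = hd r.1) r.2).1 ++ r.1, (pick (fun b => tl b = hd r.1) r.2).2)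

/-- Closing or keeping the merged walk. -/
def ins3 (cls : List Wk) (r : Wk × List Wk) : List Wk × List Wk :=
  if hd r.1 = tl r.1 then (r.2, if r.1 ∈ cls then cls else r.1 :: cls) else (r.1 :: r.2, cls)

/-- Inserting a walk. -/
def ins (st : List Wk × List Wk) (a : Wk) : List Wk × List Wk := ins3 st.2 (ins2 (ins1 st.1 a))

/-- The invariant of the matching. -/
structure MInv (l : ℕ) (A cls0 : List Wk) (st : List Wk × List Wk) : Prop where
  ow : ∀ a ∈ st.1, OW l a
  nd : st.2.Nodup
  val : ∀ c ∈ st.2, Valid c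
  sub : ∀ c ∈ cls0, c ∈ st.2
  disj : ∀ a ∈ st.1, ∀ b ∈ st.1, hd a ≠ tl b
  bal : ∃ X, heads A = heads st.1 + X ∧ tails A = tails st.1 + X
  entO : ∀ e ∈ st.1.flatten, e ∈ A.flatten
  entC : ∀ c ∈ st.2, c ∈ cls0 ∨ ((∀ e ∈ c, e ∈ A.flatten) ∧ ∃ e ∈ c, e.1.length = l)
  entA : ∀ e ∈ A.flatten, e ∈ st.1.flatten ∨ ∃ c ∈ st.2, e ∈ c ∧ ∃ e' ∈ c, e'.1.length = l
  cnt : st.1.flatten.length + tot st.2 ≤ A.flatten.length + tot cls0

lemma MInv.ins {l : ℕ} {A cls0 : List Wk} {st : List Wk × List Wk} (h : MInv l A cls0 st)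
    {a : Wk} (ha : OW l a) : MInv l (a :: A) cls0 (ins st a) := by
  obtain ⟨p1, p2, p3, ⟨X1, p4, p5⟩, p6⟩ := attach_tail ha h.ow h.disj
  change OW l (ins1 st.1 a).1 at p1
  change ∀ b ∈ (ins1 st.1 a).2, _ at p2 p3
  change ∀ b ∈ _, hd b ≠ tl (ins1 st.1 a).1 at p3
  change _ = heads ((ins1 st.1 a).1 :: (ins1 st.1 a).2) + _ at p4
  change _ = tails ((ins1 st.1 a).1 :: (ins1 st.1 a).2) + _ at p5
  change List.Perm _ ((ins1 st.1 a).1 :: (ins1 st.1 a).2).flatten at p6
  unfold SCS.ins
  generalize ins1 st.1 a = r at *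
  obtain ⟨q1, q2, q3, q3', ⟨X2, q4, q5⟩, q6⟩ := attach_head p1 (fun b hb => h.ow b (p2 b hb))
    (fun b hb c hc => h.disj b (p2 b hb) c (p2 c hc)) p3
  change OW l (ins2 r).1 at q1
  change ∀ b ∈ (ins2 r).2, _ at q2 q3 q3'
  change ∀ b ∈ _, hd b ≠ tl (ins2 r).1 at q3
  change ∀ b ∈ _, hd (ins2 r).1 ≠ tl b at q3'
  change _ = heads ((ins2 r).1 :: (ins2 r).2) + _ at q4
  change _ = tails ((ins2 r).1 :: (ins2 r).2) + _ at q5
  change List.Perm _ ((ins2 r).1 :: (ins2 r).2).flatten at q6
  generalize ins2 r = r' at *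
  obtain ⟨X, b1, b2⟩ := h.bal
  have pp := p6.trans q6
  have hs : ∀ b ∈ r'.2, b ∈ st.1 := fun b hb => p2 b (q2 b hb)
  have eO : ∀ e ∈ (r'.1 :: r'.2).flatten, e ∈ (a :: A).flatten := fun e he => by
    have := pp.symm.subset he
    simp only [List.flatten_cons, List.mem_append] at this ⊢
    exact this.imp id (h.entO e)
  have eA : ∀ e ∈ (a :: A).flatten, e ∈ (r'.1 :: r'.2).flatten ∨
      ∃ c ∈ st.2, e ∈ c ∧ ∃ e' ∈ c, e'.1.length = l := fun e he => by
    rcases List.mem_append.1 he with he | he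
    · exact Or.inl (pp.subset (List.mem_append_left _ he))
    · exact (h.entA e he).imp (fun h => pp.subset (List.mem_append_right _ h)) id
  have eC : ∀ c ∈ st.2, c ∈ cls0 ∨ ((∀ e ∈ c, e ∈ (a :: A).flatten) ∧
      ∃ e ∈ c, e.1.length = l) := fun c hc =>
    (h.entC c hc).imp id fun h => ⟨fun e he => List.mem_append_right _ (h.1 e he), h.2⟩
  have hH : heads (a :: A) = heads (r'.1 :: r'.2) + (X2 + X1 + X) := by
    rw [heads_cons, b1, ← add_assoc, ← heads_cons, p4, q4]; abel
  have hT : tails (a :: A) = tails (r'.1 :: r'.2) + (X2 + X1 + X) := by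
    rw [tails_cons, b2, ← add_assoc, ← tails_cons, p5, q5]; abel
  have hc := pp.length_eq
  have hc0 := h.cnt
  simp only [List.flatten_cons, List.length_append] at hc
  unfold ins3
  split_ifs with h1 h2
  · obtain ⟨e0, he0, he1⟩ := q1.hd_mem
    refine ⟨fun b hb => h.ow b (hs b hb), h.nd, h.val, h.sub,
      fun b hb c hc => h.disj b (hs b hb) c (hs c hc), ⟨{hd r'.1} + (X2 + X1 + X), ?_, ?_⟩,
      fun e he => eO e (List.mem_append_right _ he), eC, fun e he => ?_, ?_⟩
    · rw [hH, heads_cons]; abel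
    · rw [hT, tails_cons, h1]; abel
    · rcases eA e he with he | he
      · exact (List.mem_append.1 he).symm.imp id fun h => ⟨_, h2, h, e0, he0, he1 ▸ q1.lh⟩
      · exact Or.inr he
    · simp only [List.flatten_cons, List.length_append]; omega
  · obtain ⟨e0, he0, he1⟩ := q1.hd_mem
    refine ⟨fun b hb => h.ow b (hs b hb), List.nodup_cons.2 ⟨h2, h.nd⟩, ?_,
      fun c hc => List.mem_cons_of_mem _ (h.sub c hc),
      fun b hb c hc => h.disj b (hs b hb) c (hs c hc), ⟨{hd r'.1} + (X2 + X1 + X), ?_, ?_⟩,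
      fun e he => eO e (List.mem_append_right _ he), ?_, fun e he => ?_, ?_⟩
    · intro c hc
      rcases List.mem_cons.1 hc with rfl | hc
      · exact ⟨q1.ne, tl r'.1, by have := q1.ch; rwa [h1] at this⟩
      · exact h.val c hc
    · rw [hH, heads_cons]; abel
    · rw [hT, tails_cons, h1]; abel
    · intro c hc
      rcases List.mem_cons.1 hc with rfl | hc
      · exact Or.inr ⟨fun e he => eO e (List.mem_append_left _ he), e0, he0, he1 ▸ q1.lh⟩
      · exact eC c hc
    · rcases eA e he with he | ⟨c, hc, he⟩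
      · exact (List.mem_append.1 he).symm.imp id
          fun h => ⟨_, List.mem_cons_self, h, e0, he0, he1 ▸ q1.lh⟩
      · exact Or.inr ⟨c, List.mem_cons_of_mem _ hc, he⟩
    · simp only [List.flatten_cons, List.length_append, tot_cons]; omega
  · refine ⟨fun b hb => ?_, h.nd, h.val, h.sub, fun b hb c hc => ?_, ⟨_, hH, hT⟩, eO, eC, eA, ?_⟩
    · rcases List.mem_cons.1 hb with rfl | hb
      · exact q1
      · exact h.ow b (hs b hb)
    · rcases List.mem_cons.1 hb with rfl | hb <;> rcases List.mem_cons.1 hc with rfl | hc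
      · exact h1
      · exact q3' c hc
      · exact q3 b hb
      · exact h.disj b (hs b hb) c (hs c hc)
    · simp only [List.flatten_cons, List.length_append]; omega

/-- The matching. -/
def matchAll (A cls : List Wk) : List Wk × List Wk := A.foldl ins ([], cls)

lemma matchAll_spec {l : ℕ} {A cls : List Wk} (hA : ∀ a ∈ A, OW l a) (h1 : cls.Nodup)
    (h2 : ∀ c ∈ cls, Valid c) : MInv l A.reverse cls (matchAll A cls) := by
  induction A using List.reverseRecOn with
  | nil => exact ⟨by simp [matchAll], h1, h2, fun c hc => hc, by simp [matchAll],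
      ⟨0, by simp [matchAll], by simp [matchAll]⟩, by simp [matchAll], fun c hc => Or.inl hc,
      by simp, by simp [matchAll]⟩
  | append_singleton A a ih =>
    have := (ih fun b hb => hA b (by simp [hb])).ins (hA a (by simp))
    simpa [matchAll] using this

end Crest.Agent.SCS
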