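import Crest.Agent.SCS.Unit

/-! Nodes and bands of units. -/

set_option autoImplicit false
set_option linter.dupNamespace false

namespace Crest.Agent.SCS

open Crest.Agent.PT

/-- All nodes of a walk except for the last one. -/
def nodes (a : Wk) : List Str :=
  a.flatMap fun e => mapRange (e.2.length + 1 - e.1.length) fun t => e.2.take (e.1.length + t)

lemma mem_nodes {a : Wk} {n : Str} :
    n ∈ nodes a ↔ ∃ e ∈ a, n <+: e.2 ∧ e.1.length ≤ n.length := by
  simp only [nodes, List.mem_flatMap, mem_mapRange]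
  constructor
  · rintro ⟨e, he, k, hk, rfl⟩
    exact ⟨e, he, List.take_prefix _ _, by simp; omega⟩
  · rintro ⟨e, he, h1, h2⟩
    have := h1.length_le
    refine ⟨e, he, n.length - e.1.length, by omega, ?_⟩
    rw [Nat.add_sub_cancel' h2]
    exact (List.prefix_iff_eq_take.1 h1).symm

lemma ent_of_lift {y : Lift Wk} (hy : ZZ.L y) (i : ℤ) : ∃ e ∈ y.id,
    y.h (i - 1) = i + e.1.length ∧ y.h i = i + e.2.length ∧ str y.w i (y.h i) = e.2 := by
  obtain ⟨hv, d, h⟩ := hy
  generalize y.id = a at hv h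
  subst h
  refine ⟨ent a (i - d), hv.ent_mem _, ?_, ?_, ?_⟩
  · rw [Lift.sh_h, show i - 1 - d = i - d - 1 by ring, hv.h_pred]; ring
  · rw [Lift.sh_h, lift0_h]; ring
  · rw [Lift.sh_w, str_sh', Lift.sh_h, lift0_h, add_sub_cancel_right]
    exact (hv.top_str _).symm

lemma lift_of_ent {a : Wk} (hv : Valid a) {e : Ent} (he : e ∈ a) (i : ℤ) : ∃ y, ZZ.L y ∧
    y.id = a ∧ y.h (i - 1) = i + e.1.length ∧ y.h i = i + e.2.length ∧
    str y.w i (y.h i) = e.2 := by
  obtain ⟨t, -, rfl⟩ := exists_ent he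
  refine ⟨(lift0 a).sh (i - t), L_lift hv _, rfl, ?_, ?_, ?_⟩
  · rw [Lift.sh_h, show i - 1 - (i - t) = t - 1 by ring, hv.h_pred]; ring
  · rw [Lift.sh_h, lift0_h, sub_sub_cancel]; ring
  · rw [Lift.sh_w, str_sh', Lift.sh_h, lift0_h, add_sub_cancel_right, sub_sub_cancel]
    exact (hv.top_str _).symm

lemma node_of_lift {y : Lift Wk} (hy : ZZ.L y) {i j : ℤ} (hn : y.Nd i j) :
    str y.w i j ∈ nodes y.id ∧ i ≤ j := by
  obtain ⟨e, he, h1, h2, h3⟩ := ent_of_lift hy i
  have := hn.1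
  exact ⟨mem_nodes.2 ⟨e, he, h3 ▸ str_prefix _ _ hn.2, by simp; omega⟩, by omega⟩

lemma lift_of_node {a : Wk} (hv : Valid a) {n : Str} (hn : n ∈ nodes a) (i : ℤ) : ∃ y, ZZ.L y ∧
    y.id = a ∧ y.Nd i (i + n.length) ∧ str y.w i (i + n.length) = n := by
  obtain ⟨e, he, h1, h2⟩ := mem_nodes.1 hn
  obtain ⟨y, hy, h3, h4, h5, h6⟩ := lift_of_ent hv he i
  have := h1.length_le
  exact ⟨y, hy, h3, ⟨by omega, by omega⟩, (eq_str_of_prefix (h6 ▸ h1)).symm⟩

/-- Band nodes with the data of their loops. -/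
def bandX (a : Wk) : List (Str × Str × Str × Str) :=
  flatRange a.length fun i =>
    flatRange ((a.getD i ([], [])).2.length + 1 - (a.getD i ([], [])).1.length) fun t =>
      flatRange (per a + 1) fun x => mapRange (per a + 1) fun y =>
        (win (word a) (i + x) ((a.getD i ([], [])).1.length + t + y - x),
          (a.getD i ([], [])).2.take ((a.getD i ([], [])).1.length + t),
          win (word a) (i + ((a.getD i ([], [])).1.length + t)) y,
          win (word a) (i + ((a.getD i ([], [])).1.length + t) + y) (per a - y))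

/-- The band of a unit. -/
def band (a : Wk) : List Str := (bandX a).map (·.1)

lemma mem_bandX {a : Wk} {z : Str × Str × Str × Str} : z ∈ bandX a ↔ ∃ i k x y : ℕ,
    i < a.length ∧ (ent a i).1.length ≤ k ∧ k ≤ (ent a i).2.length ∧ x ≤ per a ∧ y ≤ per a ∧
    z = (win (word a) (i + x) (k + y - x), (ent a i).2.take k, win (word a) (i + k) y,
      win (word a) (i + k + y) (per a - y)) := by
  simp only [bandX, mem_flatRange, mem_mapRange]
  constructor
  · rintro ⟨i, hi, t, ht, x, hx, y, hy, rfl⟩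
    rw [← ent_nat a hi] at ht ⊢
    exact ⟨i, _, x, y, hi, by omega, by omega, by omega, by omega, rfl⟩
  · rintro ⟨i, k, x, y, hi, h1, h2, h3, h4, rfl⟩
    refine ⟨i, hi, k - (ent a i).1.length, ?_, x, by omega, y, by omega, ?_⟩
    · rw [← ent_nat a hi]; omega
    · rw [← ent_nat a hi, Nat.add_sub_cancel' h1]

lemma bandX_spec {a : Wk} (hv : Valid a) {z : Str × Str × Str × Str} (hz : z ∈ bandX a) :
    z.2.1 ∈ nodes a ∧ z.1 <:+ z.2.1 ++ z.2.2.1 ∧ z.2.1 <:+ z.1 ++ z.2.2.2 ∧
      z.2.2.1.length + z.2.2.2.length = per a := by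
  obtain ⟨i, k, x, y, hi, h1, h2, h3, h4, rfl⟩ := mem_bandX.1 hz
  have hw : (ent a i).2.take k = str (cyc (word a)) i (i + k) := by
    rw [hv.top_str, take_str _ _ _ _ (by omega)]
  have hn : win (word a) (i + x) (k + y - x) = str (cyc (word a)) (i + x) (i + k + y) := by
    rw [win_eq]
    exact str_ext (by omega) fun _ _ => by push_cast; rfl
  refine ⟨mem_nodes.2 ⟨_, hv.ent_mem i, List.take_prefix _ _, by simp; omega⟩, ?_, ?_, ?_⟩
  · simp only [hw, hn, win_eq]
    push_cast
    exact suffix_str_append _ (by omega) (by omega)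
  · simp only [hw, hn, win_eq]
    rw [← str_per (per_spec hv.pos).2.1, show ((i + k + y : ℕ) : ℤ) + (per a - y : ℕ) =
      i + k + per a by push_cast; omega]
    push_cast
    exact suffix_str_append _ (by omega) (by omega)
  · simp [win]; omega

lemma band_str {a : Wk} {n : Str} (h : n ∈ band a) :
    ∃ p : ℤ, n = str (cyc (word a)) p (p + n.length) := by
  obtain ⟨z, hz, rfl⟩ := List.mem_map.1 h
  obtain ⟨i, k, x, y, -, -, -, -, -, rfl⟩ := mem_bandX.1 hz
  exact ⟨(i + x : ℕ), by simp only [win_eq]; exact str_norm _ _ _⟩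

lemma lift_per {y : Lift Wk} (hy : ZZ.L y) (k : ℤ) : y.sh (k * y.id.length) = y := by
  obtain ⟨hv, d, h⟩ := hy
  generalize y.id = a at hv h
  subst h
  rw [sh_sh, add_comm, ← sh_sh]
  congr 1
  simp only [Lift.sh, lift0, Lift.mk.injEq, true_and]
  constructor
  · have := (per_cyc (word a)).mul k
    rw [length_word] at this
    exact this.shw
  · funext t
    have := ent_per a (t - k * a.length) k
    rw [sub_add_cancel] at this
    rw [this]; ring

lemma band_of_lift {y : Lift Wk} (hy : ZZ.L y) {i j : ℤ} (hb : ZZ.InBand y i j) (hij : i ≤ j) :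
    str y.w i j ∈ band y.id := by
  obtain ⟨b1, b2⟩ := hb
  rw [ZZ_π] at b1 b2
  have hm := ZZ.mono y hy
  obtain ⟨c, ⟨c1, c2⟩, c3⟩ := Int.exists_least_of_bdd
    (P := fun c => i - per y.id ≤ c ∧ j - per y.id ≤ y.h c) ⟨_, fun z hz => hz.1⟩
    ⟨i, by omega, b2⟩
  have c4 : c ≤ i := c3 i ⟨by omega, b2⟩
  have c5 : y.h (c - 1) ≤ j := by
    rcases eq_or_lt_of_le c1 with h | h
    · rw [← h]; exact b1
    · by_contra hc
      have := c3 (c - 1) ⟨by omega, by omega⟩
      omega
  have c6 := hm (show c - 1 ≤ c by omega)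
  obtain ⟨hv, d, h⟩ := hy
  generalize y.id = a at *
  subst h
  obtain ⟨s, k, s1, s2⟩ := exists_red hv.pos (c - d)
  have e1 : ((lift0 a).sh d).h c = c + (ent a s).2.length := by
    rw [Lift.sh_h, lift0_h, s2, ent_per]; omega
  have e2 : ((lift0 a).sh d).h (c - 1) = c + (ent a s).1.length := by
    rw [Lift.sh_h, show c - 1 - d = c - d - 1 by ring, hv.h_pred, s2, ent_per]; omega
  rw [e1] at c2 c6
  rw [e2] at c5 c6
  refine List.mem_map.2 ⟨_, mem_bandX.2 ⟨s, (max (c + (ent a s).1.length) (j - per a) - c).toNat,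
    (i - c).toNat, (j - max (c + (ent a s).1.length) (j - per a)).toNat, s1, by omega, by omega,
    by omega, by omega, rfl⟩, ?_⟩
  have hp := (per_cyc (word a)).mul k
  rw [length_word] at hp
  simp only [win_eq, Lift.sh_w, str_sh', lift0_w]
  rw [← str_per hp]
  congr 1 <;> omega

lemma band_of_node {a : Wk} (hv : Valid a) {n : Str} (hn : n ∈ nodes a) : n ∈ band a := by
  obtain ⟨y, hy, rfl, h1, h2⟩ := lift_of_node hv hn 0
  have hp := ZZ.πpos y.id
  have hm := ZZ.mono y hy (show 0 - ZZ.π y.id - 1 ≤ 0 - 1 by omega)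
  have := h1.1
  have := h1.2
  exact h2 ▸ band_of_lift hy ⟨by omega, by omega⟩ (by omega)

lemma win_of_lift {y : Lift Wk} (hy : ZZ.L y) {i j : ℤ} (hij : i ≤ j) :
    ∃ p, p < y.id.length ∧ str y.w i j = win (word y.id) p (j - i).toNat := by
  obtain ⟨hv, d, h⟩ := hy
  generalize y.id = a at *
  subst h
  obtain ⟨s, k, s1, s2⟩ := exists_red hv.pos (i - d)
  refine ⟨s, s1, ?_⟩
  have hp := (per_cyc (word a)).mul k
  rw [length_word] at hp
  simp only [win_eq, Lift.sh_w, str_sh', lift0_w]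
  rw [← str_per hp s]
  congr 1 <;> omega

end Crest.Agent.SCS
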