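import Crest.Agent.SCS.PTLib
import Crest.Agent.SCS.Final

/-! Polynomial time of the basic operations. -/

set_option autoImplicit false
set_option linter.dupNamespace false

namespace Crest.Agent.SCS

open Crest.Agent.PT

variable {α : Type} [Enc α]

@[fun_prop] lemma pt_win {u : α → Str} {p k : α → ℕ} (hu : PT u) (hp : PT p) (hk : PT k)
    (hb : PB k) : PT fun a => win (u a) (p a) (k a) := by
  unfold win; fun_prop

@[fun_prop] lemma pt_hd {f : α → Wk} (hf : PT f) : PT fun a => hd (f a) := by
  unfold hd; fun_prop

@[fun_prop] lemma pt_tl {f : α → Wk} (hf : PT f) : PT fun a => tl (f a) := by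
  unfold tl; fun_prop

@[fun_prop] lemma pt_word {f : α → Wk} (hf : PT f) : PT fun a => word (f a) := by
  unfold word; fun_prop

@[fun_prop] lemma pt_per {f : α → Wk} (hf : PT f) : PT fun a => per (f a) := by
  unfold per; fun_prop

lemma per_le (a : Wk) : per a ≤ a.length + 1 := by
  rcases Nat.eq_zero_or_pos a.length with h | h
  · simp [per, h, mapRange]
  · have := (per_spec h).1; omega

@[fun_prop] lemma pb_per {f : α → Wk} (hf : PT f) : PB fun a => per (f a) :=
  PB.mono (u := fun a => (f a).length + 1) (by fun_prop) fun _ => per_le _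

@[fun_prop] lemma pt_nodes {f : α → Wk} (hf : PT f) : PT fun a => nodes (f a) := by
  unfold nodes; fun_prop

@[fun_prop] lemma pt_bandX {f : α → Wk} (hf : PT f) : PT fun a => bandX (f a) := by
  unfold bandX; fun_prop

@[fun_prop] lemma pt_band {f : α → Wk} (hf : PT f) : PT fun a => band (f a) := by
  unfold band; fun_prop

lemma pt_pick {p : α → Wk → Bool} {L : α → List Wk} (hp : PT fun x : α × Wk => p x.1 x.2)
    (hL : PT L) : PT fun a => pick (p a) (L a) := by
  have h1 : PT fun x : α × (Wk × List Wk) × Wk => p x.1 x.2.2 :=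
    hp.comp (f := fun x : α × (Wk × List Wk) × Wk => (x.1, x.2.2)) (by fun_prop)
  refine PT.foldl_add (f := fun a => pickStep (p a)) (by unfold pickStep; fun_prop) hL
    (by fun_prop) (g := fun _ b => 2 * sz b + 1) (by fun_prop) fun a s b => ?_
  obtain ⟨s1, s2⟩ := s
  unfold pickStep
  split_ifs <;> simp <;> omega

lemma sz_pick (p : Wk → Bool) (L : List Wk) : 2 * sz (pick p L).1 + sz (pick p L).2 ≤ sz L := by
  induction L using List.reverseRecOn with
  | nil => simp [pick]
  | append_singleton L x ih =>
    have e : pick p (L ++ [x]) = pickStep p (pick p L) x := by simp [pick]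
    rw [e]
    unfold pickStep
    split_ifs <;> simp <;> omega

@[fun_prop] lemma pt_ins1 {L : α → List Wk} {f : α → Wk} (hL : PT L) (hf : PT f) :
    PT fun a => ins1 (L a) (f a) := by
  have := pt_pick (p := fun a b => decide (hd b = tl (f a))) (by fun_prop) hL
  unfold ins1; fun_prop

@[fun_prop] lemma pt_ins2 {r : α → Wk × List Wk} (hr : PT r) : PT fun a => ins2 (r a) := by
  have := pt_pick (p := fun a b => decide (tl b = hd (r a).1)) (by fun_prop) hr.snd
  unfold ins2; fun_prop

@[fun_prop] lemma pt_ins3 {c : α → List Wk} {r : α → Wk × List Wk} (hc : PT c) (hr : PT r) :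
    PT fun a => ins3 (c a) (r a) := by
  unfold ins3; fun_prop

@[fun_prop] lemma pt_matchAll {A c : α → List Wk} (hA : PT A) (hc : PT c) :
    PT fun a => matchAll (A a) (c a) := by
  refine PT.foldl_add (f := fun _ => ins) (by unfold ins; fun_prop) hA
    (by fun_prop) (g := fun _ b => 4 * sz b + 2) (by fun_prop) fun _ s b => ?_
  obtain ⟨s1, s2⟩ := s
  have h1 : 2 * sz (ins1 s1 b).1 + sz (ins1 s1 b).2 ≤ sz s1 + 2 * sz b := by
    have := sz_pick (fun c => decide (hd c = tl b)) s1
    simp only [ins1, sz_append]; omega
  unfold ins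
  dsimp only
  generalize ins1 s1 b = r at h1
  have h2 : 2 * sz (ins2 r).1 + sz (ins2 r).2 ≤ 2 * sz r.1 + sz r.2 := by
    have := sz_pick (fun c => decide (tl c = hd r.1)) r.2
    simp only [ins2, sz_append]; omega
  generalize ins2 r = r' at h2
  unfold ins3
  split_ifs <;> simp <;> omega

@[fun_prop] lemma pt_ext {f : α → Wk} (hf : PT f) : PT fun a => ext (f a) := by
  unfold ext; fun_prop

@[fun_prop] lemma pt_single {f : α → Str} (hf : PT f) : PT fun a => single (f a) := by
  unfold single; fun_prop

@[fun_prop] lemma pt_onodes {f : α → List Wk} {g : α → List Str} (hf : PT f) (hg : PT g) :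
    PT fun a => onodes (f a) (g a) := by
  unfold onodes; fun_prop

@[fun_prop] lemma pt_grow {f : α → List Wk} {g : α → List Str} (hf : PT f) (hg : PT g) :
    PT fun a => grow (f a) (g a) := by
  have h1 : PT fun a => (f a).map ext := hf.map (f := fun _ b => ext b) (by fun_prop)
  have h2 : PT fun a => (g a).map single := hg.map (f := fun _ b => single b) (by fun_prop)
  exact h1.append h2

@[fun_prop] lemma pt_meets {f g : α → List Str} (hf : PT f) (hg : PT g) :
    PT fun a => meets (f a) (g a) := by
  unfold meets; fun_prop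

@[fun_prop] lemma pt_expand {f g : α → List Wk} (hf : PT f) (hg : PT g) :
    PT fun a => expand (f a) (g a) := by
  unfold expand; fun_prop

@[fun_prop] lemma pt_reach {f : α → List Wk} {g : α → Wk} (hf : PT f) (hg : PT g) :
    PT fun a => reach (f a) (g a) := by
  refine PT.foldl (f := fun a R _ => expand (f a) R) (by fun_prop) hf (by fun_prop)
    (t := fun a => sz (f a)) (by fun_prop) fun a l _ => sz_le_of_sublist ?_
  induction l using List.reverseRecOn with
  | nil => exact List.filter_sublist
  | append_singleton l b _ =>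
    rw [List.foldl_append]
    exact List.filter_sublist

@[fun_prop] lemma pt_touched {f : α → Str} {g : α → Wk} (hf : PT f) (hg : PT g) :
    PT fun a => touched (f a) (g a) := by
  unfold touched; fun_prop

@[fun_prop] lemma pt_cands {f : α → List Wk} (hf : PT f) : PT fun a => cands (f a) := by
  unfold cands; fun_prop

@[fun_prop] lemma pt_elig {f g : α → List Wk} {r : α → List (Str × List Wk)} (hf : PT f)
    (hg : PT g) (hr : PT r) : PT fun a => elig (f a) (g a) (r a) := by
  unfold elig; fun_prop

@[fun_prop] lemma pt_good {f g : α → List Wk} {r : α → Str} (hf : PT f)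
    (hg : PT g) (hr : PT r) : PT fun a => good (f a) (g a) (r a) := by
  have h1 : PT fun a => (f a).any (touched (r a)) :=
    hf.any (f := fun a b => touched (r a) b) (by fun_prop)
  have h2 : PT fun a => ((g a).filter (touched (r a))).map per :=
    (hg.filter (f := fun a b => touched (r a) b) (by fun_prop)).map (f := fun _ b => per b)
      (by fun_prop)
  unfold good; fun_prop

end Crest.Agent.SCS
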