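import Crest.Agent.SCS.PT1

/-! Polynomial time of the events and of the joining. -/

set_option autoImplicit false
set_option linter.dupNamespace false

namespace Crest.Agent.SCS

open Crest.Agent.PT

variable {α : Type} [Enc α]

@[fun_prop] lemma pt_trapB {l : α → ℕ} {c g : α → List Wk} {o : α → List Str} {W : α → Wk}
    (hl : PT l) (hc : PT c) (ho : PT o) (hg : PT g) (hW : PT W) :
    PT fun a => trapB (l a) (c a) (o a) (g a) (W a) := by
  unfold trapB; fun_prop

@[fun_prop] lemma pt_born {l : α → ℕ} {W : α → Wk} (hl : PT l) (hW : PT W) :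
    PT fun a => born (l a) (W a) := by
  unfold born; fun_prop

@[fun_prop] lemma pt_goods {c : α → List Wk} {r : α → List (Str × List Wk)} {W : α → Wk}
    (hc : PT c) (hr : PT r) (hW : PT W) : PT fun a => goods (c a) (r a) (W a) :=
  (pt_cands hc).filter (f := fun a b => good (reach (c a) (W a))
    (elig (c a) (reach (c a) (W a)) (r a)) b) (by fun_prop)

@[fun_prop] lemma pt_evStep {l : α → ℕ} {o c : α → List Wk} {x : α → Ex} {W : α → Wk}
    (hl : PT l) (ho : PT o) (hc : PT c) (hx : PT x) (hW : PT W) :
    PT fun a => evStep (l a) (o a) (c a) (x a) (W a) := by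
  have h1 : PT fun a => (elig (c a) (reach (c a) (W a)) (x a).2.2.2).filter
      (touched ((goods (c a) (x a).2.2.2 (W a)).headD [])) :=
    PT.filter (f := fun a b => touched ((goods (c a) (x a).2.2.2 (W a)).headD []) b)
      (by fun_prop) (by fun_prop)
  unfold evStep; fun_prop

lemma sz_evStep (l : ℕ) (opn cls : List Wk) (x : Ex) (W : Wk) :
    sz (evStep l opn cls x W) ≤ sz x + (8 * sz W + 4 * sz cls + 4 * sz (cands cls) + 20) := by
  obtain ⟨pend, grd, roots, recs⟩ := x
  have h1 : sz (born l W) ≤ sz W + 1 := by
    have a1 : sz (born l W) ≤ _ := sz_le_of_sublist (List.take_sublist _ _)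
    have a2 := sz_fst_le ((W.filter fun e => decide (e.1.length = l + per W)).headD ([], []))
    have a3 := sz_headD_le (W.filter fun e => decide (e.1.length = l + per W)) ([], [])
    have a4 := sz_le_of_sublist (List.filter_sublist (l := W)
      (p := fun e => decide (e.1.length = l + per W)))
    simp only [sz_prod, sz_nil] at a3
    omega
  have h2 := sz_le_of_sublist (reach_sublist cls W)
  have h3 : sz ((goods cls recs W).headD []) ≤ sz (cands cls) := by
    have a3 := sz_headD_le (goods cls recs W) []
    have a4 : sz (goods cls recs W) ≤ sz (cands cls) := sz_le_of_sublist List.filter_sublist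
    simp only [sz_nil] at a3
    omega
  have h4 : ∀ p, sz ((elig cls (reach cls W) recs).filter p) ≤ sz cls := fun p =>
    sz_le_of_sublist (List.filter_sublist.trans List.filter_sublist)
  unfold evStep
  dsimp only
  split_ifs
  · simp only [sz_prod, sz_cons]; omega
  · have := h4 (touched ((goods cls recs W).headD []))
    simp only [sz_prod, sz_cons, sz_append]; omega
  · omega

@[fun_prop] lemma pt_events {l : α → ℕ} {o c : α → List Wk} {x : α → Ex}
    (hl : PT l) (ho : PT o) (hc : PT c) (hx : PT x) :
    PT fun a => events (l a) (o a) (c a) (x a) :=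
  PT.foldl_add (f := fun a => evStep (l a) (o a) (c a)) (by fun_prop) hc hx
    (g := fun a W => 8 * sz W + 4 * sz (c a) + 4 * sz (cands (c a)) + 20) (by fun_prop)
    fun _ _ _ => sz_evStep _ _ _ _ _

lemma sz_events (l : ℕ) (opn cls : List Wk) (x : Ex) :
    sz (events l opn cls x) ≤ sz x + sz cls * (12 * sz cls + 4 * sz (cands cls) + 20) := by
  have : ∀ L : List Wk, (∀ W ∈ L, W ∈ cls) → sz (L.foldl (evStep l opn cls) x) ≤
      sz x + L.length * (12 * sz cls + 4 * sz (cands cls) + 20) := by
    intro L
    induction L using List.reverseRecOn with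
    | nil => simp
    | append_singleton L W ih =>
      intro h
      have h1 := ih fun V hV => h V (by simp [hV])
      have h2 := sz_evStep l opn cls (L.foldl (evStep l opn cls) x) W
      have h3 := sz_le_of_mem (h W (by simp))
      simp only [List.foldl_append, List.foldl_cons, List.foldl_nil, List.length_append,
        List.length_singleton, add_mul]
      omega
  refine (this cls fun _ h => h).trans ?_
  have := length_le_sz cls
  gcongr

@[fun_prop] lemma pt_stage {S : α → List Str} {st : α → St} {l : α → ℕ} (hS : PT S) (hs : PT st)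
    (hl : PT l) : PT fun a => stage (S a) (st a) (l a) := by
  unfold stage; fun_prop

@[fun_prop] lemma pt_spell {f : α → Gw} (hf : PT f) : PT fun a => spell (f a) := by
  unfold spell; fun_prop

@[fun_prop] lemma pt_gn {f : α → Gw} (hf : PT f) : PT fun a => gn (f a) := by
  unfold gn; fun_prop

@[fun_prop] lemma pt_cut {n : α → Str} {f : α → Gw} (hn : PT n) (hf : PT f) :
    PT fun a => cut (n a) (f a) := by
  refine (PT.foldl_add (f := fun a => cutStep (n a)) (by unfold cutStep; fun_prop) hf
    (by fun_prop) (g := fun _ b => 4 * sz b + 4) (by fun_prop) fun a s b => ?_).snd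
  obtain ⟨s1, s2, s3⟩ := s
  have := sz_bool true
  have := sz_bool (decide (b.2 = n a))
  unfold cutStep
  split_ifs <;> simp only [sz_prod, sz_append, sz_cons, sz_nil] <;> omega

@[fun_prop] lemma pt_rot {n : α → Str} {f : α → Gw} (hn : PT n) (hf : PT f) :
    PT fun a => rot (n a) (f a) := by
  unfold rot; fun_prop

@[fun_prop] lemma pt_splice {n : α → Str} {f g : α → Gw} (hf : PT f) (hn : PT n) (hg : PT g) :
    PT fun a => splice (f a) (n a) (g a) := by
  unfold splice; fun_prop

@[fun_prop] lemma pt_ups {k : α → ℕ} {f : α → Str} (hk : PT k) (hf : PT f) :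
    PT fun a => ups (k a) (f a) := by
  unfold ups; fun_prop

@[fun_prop] lemma pt_downs {f : α → Str} (hf : PT f) : PT fun a => downs (f a) := by
  unfold downs; fun_prop

@[fun_prop] lemma pt_tour {f : α → Wk} (hf : PT f) : PT fun a => tour (f a) := by
  unfold tour; fun_prop

@[fun_prop] lemma pt_base {f : α → List Str} (hf : PT f) : PT fun a => base (f a) := by
  have : PT fun a => (f a).flatMap rootT :=
    hf.flatMap (f := fun _ b => rootT b) (by unfold rootT; fun_prop)
  unfold base; fun_prop

@[fun_prop] lemma pt_absorb {s : α → Gw × List Wk} {c : α → Wk} (hs : PT s) (hc : PT c) :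
    PT fun a => absorb (s a) (c a) := by
  unfold absorb loopT hitA hitB; fun_prop

lemma sz_absorb (s : Gw × List Wk) (c : Wk) :
    sz (absorb s c) ≤ sz s + (2 * sz (tour c) + 24 * sz (bandX c) + 2 * sz c + 100) := by
  obtain ⟨M, dn⟩ := s
  unfold absorb
  dsimp only
  split_ifs
  · omega
  · omega
  · have a3 := sz_headD_le (hitB M c) ([], [], [], [])
    have a4 : sz (hitB M c) ≤ sz (bandX c) := sz_le_of_sublist List.filter_sublist
    generalize (hitB M c).headD ([], [], [], []) = z at a3
    obtain ⟨z1, z2, z3, z4⟩ := z
    simp only [sz_prod, sz_perm (splice_perm _ _ _), sz_append, loopT, sz_perm (rot_perm _ _),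
      sz_cons, sz_nil] at a3 ⊢
    omega
  · simp only [sz_prod, sz_perm (splice_perm _ _ _), sz_append, sz_cons]
    omega

@[fun_prop] lemma pt_final {c g : α → List Wk} {r : α → List Str} (hc : PT c) (hg : PT g)
    (hr : PT r) : PT fun a => final (c a) (g a) (r a) := by
  have h1 : PT fun a => (direct (c a) (g a)).map droot :=
    PT.map (f := fun _ b => droot b) (by unfold direct; fun_prop) (by unfold droot; fun_prop)
  exact pt_spell (PT.foldl_add (f := fun _ => absorb) (by fun_prop) (by fun_prop) (by fun_prop)
    (g := fun _ c => 2 * sz (tour c) + 24 * sz (bandX c) + 2 * sz c + 100) (by fun_prop)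
    fun _ _ _ => sz_absorb _ _).fst

end Crest.Agent.SCS
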