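import Crest.Agent.SCS.Geo1
import Crest.Agent.PT.Range

/-! Windows of words as strings. -/

set_option autoImplicit false
set_option linter.dupNamespace false

namespace Crest.Agent.SCS

open Crest.Agent.PT

/-- Strings. -/
abbrev Str := List ℕ

/-- The window `[i, j)` of a word. -/
def str (Q : ℤ → ℕ) (i j : ℤ) : Str := mapRange (j - i).toNat fun t => Q (i + t)

@[simp] lemma length_mapRange {β : Type} (t : ℕ) (f : ℕ → β) : (mapRange t f).length = t := by
  simp [mapRange]

@[simp] lemma getElem_mapRange {β : Type} (t : ℕ) (f : ℕ → β) (k : ℕ)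
    (h : k < (mapRange t f).length) : (mapRange t f)[k] = f k := by
  simp [mapRange]

lemma mem_mapRange {β : Type} {t : ℕ} {f : ℕ → β} {x : β} :
    x ∈ mapRange t f ↔ ∃ k, k < t ∧ f k = x := by
  simp [mapRange]

lemma mem_flatRange {β : Type} {t : ℕ} {f : ℕ → List β} {x : β} :
    x ∈ flatRange t f ↔ ∃ k, k < t ∧ x ∈ f k := by
  simp [flatRange]

@[simp] lemma length_str (Q : ℤ → ℕ) (i j : ℤ) : (str Q i j).length = (j - i).toNat := by
  simp [str]

@[simp] lemma getElem_str (Q : ℤ → ℕ) (i j : ℤ) (k : ℕ) (h : k < (str Q i j).length) :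
    (str Q i j)[k] = Q (i + k) := by
  simp [str]

lemma str_ext {Q P : ℤ → ℕ} {i j i' j' : ℤ} (h : (j - i).toNat = (j' - i').toNat)
    (h' : ∀ k : ℕ, i + k < j → Q (i + k) = P (i' + k)) : str Q i j = str P i' j' := by
  refine List.ext_getElem (by simpa using h) fun k h1 h2 => ?_
  simp only [getElem_str]
  exact h' k (by simp at h1; omega)

lemma eq_str {s : Str} {Q : ℤ → ℕ} {i j : ℤ} (h : s.length = (j - i).toNat)
    (h' : ∀ (k : ℕ) (hk : k < s.length), s[k] = Q (i + k)) : s = str Q i j :=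
  List.ext_getElem (by simpa using h) fun k h1 _ => by rw [getElem_str]; exact h' k h1

lemma str_congr {Q P : ℤ → ℕ} {i j : ℤ} (h : Agr Q P i j) : str Q i j = str P i j :=
  str_ext rfl fun k hk => h _ (by omega) hk

lemma str_sh (Q : ℤ → ℕ) (i j d : ℤ) : str (shw Q d) (i + d) (j + d) = str Q i j :=
  str_ext (by omega) fun k _ => by simp only [shw]; congr 1; ring

lemma str_sh' (Q : ℤ → ℕ) (i j d : ℤ) : str (shw Q d) i j = str Q (i - d) (j - d) := by
  rw [← str_sh Q (i - d) (j - d) d]; simp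

lemma str_per {Q : ℤ → ℕ} {d : ℤ} (h : Per Q d) (i j : ℤ) : str Q (i + d) (j + d) = str Q i j := by
  conv_lhs => rw [← h.shw]
  exact str_sh _ _ _ _

lemma agr_of_str {Q P : ℤ → ℕ} {i j j' : ℤ} (h : str Q i j = str P i j') : Agr Q P i j := by
  intro t h1 h2
  have h3 : (t - i).toNat < (str Q i j).length := by simp; omega
  have h4 : (str Q i j)[(t - i).toNat] = (str P i j')[(t - i).toNat]'(h ▸ h3) := by simp only [h]
  simp only [getElem_str] at h4
  rwa [show i + ((t - i).toNat : ℤ) = t by omega] at h4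

lemma str_nil (Q : ℤ → ℕ) {i j : ℤ} (h : j ≤ i) : str Q i j = [] :=
  List.length_eq_zero_iff.1 (by simp; omega)

lemma take_str (Q : ℤ → ℕ) (i j : ℤ) (k : ℕ) (h : i + k ≤ j) :
    (str Q i j).take k = str Q i (i + k) :=
  eq_str (by simp; omega) fun t ht => by simp

lemma drop_str (Q : ℤ → ℕ) (i j : ℤ) (k : ℕ) : (str Q i j).drop k = str Q (i + k) j :=
  eq_str (by simp; omega) fun t ht => by simp [add_assoc]

lemma tail_str (Q : ℤ → ℕ) (i j : ℤ) : (str Q (i - 1) j).tail = str Q i j := by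
  have := drop_str Q (i - 1) j 1
  simpa using this

lemma dropLast_str (Q : ℤ → ℕ) (i j : ℤ) : (str Q i (j + 1)).dropLast = str Q i j :=
  eq_str (by simp; omega) fun t ht => by simp

lemma str_append (Q : ℤ → ℕ) {i j k : ℤ} (h1 : i ≤ j) (h2 : j ≤ k) :
    str Q i j ++ str Q j k = str Q i k :=
  eq_str (by simp; omega) fun t ht => by
    rw [List.getElem_append]
    split_ifs with h
    · simp
    · simp only [getElem_str, length_str] at h ⊢
      congr 1; omega

lemma str_prefix (Q : ℤ → ℕ) (i : ℤ) {j k : ℤ} (h : j ≤ k) : str Q i j <+: str Q i k := by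
  rcases le_total i j with h1 | h1
  · exact ⟨_, str_append Q h1 h⟩
  · rw [str_nil Q h1]; exact List.nil_prefix

lemma str_suffix (Q : ℤ → ℕ) {i j : ℤ} (k : ℤ) (h : i ≤ j) : str Q j k <:+ str Q i k := by
  rcases le_total j k with h1 | h1
  · exact ⟨_, str_append Q h h1⟩
  · rw [str_nil Q h1]; exact List.nil_suffix

lemma str_infix (Q : ℤ → ℕ) {i j i' j' : ℤ} (h1 : i ≤ i') (h2 : j' ≤ j) :
    str Q i' j' <:+: str Q i j :=
  (str_prefix Q i' h2).isInfix.trans (str_suffix Q j h1).isInfix

lemma suffix_str_append (Q : ℤ → ℕ) {a b a' b' : ℤ} (h1 : a' ≤ a) (h2 : b' ≤ b) :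
    str Q a b <:+ str Q a' b' ++ str Q b' b := by
  rcases le_total a' b' with h | h
  · rw [str_append Q h h2]; exact str_suffix Q _ h1
  · rw [str_nil Q h, List.nil_append]; exact str_suffix Q _ (by omega)

lemma eq_str_of_prefix {n : Str} {Q : ℤ → ℕ} {i j : ℤ} (h : n <+: str Q i j) :
    n = str Q i (i + n.length) := by
  have h1 := h.length_le
  refine eq_str (by omega) fun k hk => ?_
  rw [h.getElem hk, getElem_str]

lemma str_norm (Q : ℤ → ℕ) (i j : ℤ) : str Q i j = str Q i (i + (str Q i j).length) :=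
  eq_str_of_prefix (List.prefix_refl _)

lemma mem_str {Q : ℤ → ℕ} {i j t : ℤ} (h1 : i ≤ t) (h2 : t < j) : Q t ∈ str Q i j :=
  mem_mapRange.2 ⟨(t - i).toNat, by omega, by congr 1; omega⟩

/-- The periodic word of a string. -/
def cyc (u : Str) : ℤ → ℕ := fun t => u.getD (t % u.length).toNat 0

lemma per_cyc (u : Str) : Per (cyc u) u.length := fun t => by simp [cyc]

lemma cyc_nat (u : Str) (t : ℕ) : cyc u t = u.getD (t % u.length) 0 := by
  simp only [cyc]
  congr 1

lemma str_cyc (u : Str) : str (cyc u) 0 u.length = u :=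
  (eq_str (by simp) fun k hk => by
    rw [zero_add, cyc_nat, Nat.mod_eq_of_lt hk, List.getD_eq_getElem _ _ hk]).symm

/-- Windows of a cyclic string. -/
def win (u : Str) (p k : ℕ) : Str := mapRange k fun t => u.getD ((p + t) % u.length) 0

lemma win_eq (u : Str) (p k : ℕ) : win u p k = str (cyc u) p (p + k) :=
  eq_str (by simp [win]) fun t ht => by
    simp only [win, getElem_mapRange]
    rw [← cyc_nat]; simp

end Crest.Agent.SCS
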