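import Crest.Agent.SCS.Base

/-! Passing to the next level. -/

set_option autoImplicit false
set_option linter.dupNamespace false

namespace Crest.Agent.SCS

open Crest.Agent.PT

/-- The walks entering the matching. -/
def grow (opn : List Wk) (pend : List Str) : List Wk := opn.map ext ++ pend.map single

/-- How the nodes change from one level to the next. -/
structure Evo (l : ℕ) (opn cls : List Wk) (pend : List Str) (Φ : Str → Prop)
    (opn' cls' : List Wk) (pend' : List Str) (Φ' : Str → Prop) : Prop where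
  e1 : ∀ n, l < n.length → n ∈ onodes opn' pend' → n ∈ onodes opn pend
  e2 : ∀ n d, l < n.length → d ∈ cls' → n ∈ nodes d → d ∈ cls ∨ n ∈ onodes opn pend
  e3 : ∀ d ∈ cls, d ∈ cls'
  e4 : ∀ n ∈ onodes opn pend, n ∈ onodes opn' pend' ∨
    ∃ d ∈ cls', n ∈ nodes d ∧ ∃ e ∈ d, e.1.length = l
  e5 : ∀ d ∈ cls', d ∈ cls ∨ ∃ e ∈ d, e.1.length = l
  e6 : ∀ q, Φ q → l + 1 < q.length → Φ' q

lemma le_of_balance {α : Type} [DecidableEq α] {A B H T : Multiset α} (h : A + T = B + H)
    (hd : ∀ x ∈ H, x ∉ T) : H ≤ A := by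
  rw [Multiset.le_iff_count]
  intro x
  by_cases hx : x ∈ H
  · have h1 := congrArg (Multiset.count x) h
    have h2 := Multiset.count_eq_zero.2 (hd x hx)
    simp only [Multiset.count_add] at h1
    omega
  · rw [Multiset.count_eq_zero.2 hx]; omega

namespace BInv

variable {S : List Str} {u : Str} {top l : ℕ} {opn cls : List Wk} {pend bs : List Str}
    {Φ : Str → Prop} {G : Multiset Str} (h : BInv S u top (l + 1) opn cls pend bs Φ G)

include h

lemma len_pend {s : Str} (hs : s ∈ pend) : s.length = l + 1 := h.lenG _ (h.pend' s hs).1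

lemma grow_ow : ∀ a ∈ grow opn pend, OW l a := by
  intro a ha
  rcases List.mem_append.1 ha with ha | ha
  · obtain ⟨b, hb, rfl⟩ := List.mem_map.1 ha
    exact (h.ow b hb).ext.1
  · obtain ⟨b, hb, rfl⟩ := List.mem_map.1 ha
    exact OW_single (h.len_pend hb)

omit h in
lemma grow_heads : heads (grow opn pend) = (heads opn + (pend : Multiset Str)).map List.dropLast := by
  simp only [heads, grow, List.map_append, List.map_map, Multiset.coe_add, Multiset.map_coe]
  congr 2

lemma grow_tails : tails (grow opn pend) = (tails opn + (pend : Multiset Str)).map List.tail := by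
  simp only [tails, grow, List.map_append, List.map_map, Multiset.coe_add, Multiset.map_coe]
  congr 2
  exact List.map_congr_left fun a ha => (h.ow a ha).ext.2.2

omit h in
lemma grow_len : (grow opn pend).flatten.length = opn.flatten.length + opn.length + pend.length ∨
    ∃ a ∈ opn, a = [] := by
  by_cases hx : ∃ a ∈ opn, a = []
  · exact Or.inr hx
  left
  simp only [grow, List.flatten_append, List.length_append]
  congr 1
  · induction opn with
    | nil => rfl
    | cons a r ih =>
      have h1 := ih fun ⟨b, hb, h⟩ => hx ⟨b, List.mem_cons_of_mem _ hb, h⟩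
      have h2 : (ext a).length = a.length + 1 := by
        cases a with
        | nil => exact absurd ⟨[], List.mem_cons_self, rfl⟩ hx
        | cons e r => simp [ext]
      simp only [List.map_cons, List.flatten_cons, List.length_append, List.length_cons, h1, h2]
      omega
  · induction pend with
    | nil => rfl
    | cons a r ih => simp only [List.map_cons, List.flatten_cons, List.length_append, ih,
        List.length_cons, single, List.length_nil]; omega

/-- Columns entering the matching. -/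
lemma grow_ent {e : Ent} (he : e ∈ (grow opn pend).flatten) :
    (l < e.2.length ∧ Sub S e.2 ∧ (e.2 ∈ S ∨ e.2 ∈ bs ∨ e.1 = e.2)) ∧
    ∀ n, l < n.length → n <+: e.2 → e.1.length ≤ n.length → n ∈ onodes opn pend := by
  obtain ⟨a, ha, he⟩ := List.mem_flatten.1 he
  rcases List.mem_append.1 ha with ha | ha
  · obtain ⟨b, hb, rfl⟩ := List.mem_map.1 ha
    have hw := h.ow b hb
    rcases mem_ext hw.ne he with he | ⟨f, hf, h1, rfl⟩ | rfl
    · have hm := List.mem_flatten.2 ⟨b, hb, he⟩
      obtain ⟨k1, k2, k3⟩ := h.ent e (Or.inl hm)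
      exact ⟨⟨by omega, k2, k3⟩, fun n _ h1 h2 => mem_onodes.2 (Or.inr (Or.inl ⟨e, hm, h1, h2⟩))⟩
    · have hm := List.mem_flatten.2 ⟨b, hb, hf⟩
      obtain ⟨k1, k2, k3⟩ := h.ent f (Or.inl hm)
      have := hw.lh
      refine ⟨⟨by simp only; omega, k2, k3.imp id (Or.imp id fun hc => ?_)⟩, fun n h0 h2 _ =>
        mem_onodes.2 (Or.inr (Or.inl ⟨f, hm, h2, by rw [h1]; omega⟩))⟩
      rw [← hc, h1] at k1; omega
    · obtain ⟨f, hf, h1⟩ := tl_mem hw.ne
      have := hw.lt
      refine ⟨⟨by simp only; omega, (h.ent f (Or.inl (List.mem_flatten.2 ⟨b, hb, hf⟩))).2.1.of_infix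
        (h1 ▸ (List.tail_suffix _).isInfix), Or.inr (Or.inr rfl)⟩, fun n _ h2 h3 => ?_⟩
      rw [h2.eq_of_length_le h3]
      exact mem_onodes.2 (Or.inl (mem_tails.2 ⟨b, hb, rfl⟩))
  · obtain ⟨s, hs, rfl⟩ := List.mem_map.1 ha
    obtain rfl : e = (s.dropLast, s) := by simpa [single] using he
    have := h.len_pend hs
    refine ⟨⟨by simp only; omega, (h.pend' s hs).2.1, (h.pend' s hs).2.2.imp id Or.inl⟩,
      fun n h1 h2 _ => ?_⟩
    rw [h2.eq_of_length_le (by simp only; omega)]
    exact mem_onodes.2 (Or.inr (Or.inr hs))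

omit h in
lemma grow_old {e : Ent} (he : e ∈ opn.flatten) :
    ∃ e' ∈ (grow opn pend).flatten, e'.2 = e.2 ∧ e'.1.length ≤ e.1.length := by
  obtain ⟨a, ha, he⟩ := List.mem_flatten.1 he
  obtain ⟨e', h1, h2⟩ := ext_of_mem he
  exact ⟨e', List.mem_flatten.2 ⟨ext a, List.mem_append_left _ (List.mem_map_of_mem ha), h1⟩, h2⟩

lemma grow_hd {q : Str} (hq : q ∈ heads opn ∨ q ∈ pend) :
    ∃ e ∈ (grow opn pend).flatten, q <+: e.2 ∧ e.1.length < q.length := by
  rcases hq with hq | hq
  · obtain ⟨a, ha, rfl⟩ := mem_heads.1 hq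
    obtain ⟨e', h1, h2⟩ := (h.ow a ha).ext_hd
    exact ⟨e', List.mem_flatten.2 ⟨ext a, List.mem_append_left _ (List.mem_map_of_mem ha), h1⟩, h2⟩
  · refine ⟨(q.dropLast, q), List.mem_flatten.2 ⟨single q,
      List.mem_append_right _ (List.mem_map_of_mem hq), by simp [single]⟩, List.prefix_refl _, ?_⟩
    simp [h.len_pend hq]

lemma grow_tl {q : Str} (hq : q ∈ tails opn ∨ q ∈ pend) :
    ∃ e ∈ (grow opn pend).flatten, q = e.2 ∧ e.1.length ≤ q.length := by
  rcases hq with hq | hq
  · obtain ⟨a, ha, rfl⟩ := mem_tails.1 hq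
    exact ⟨(tl a, tl a), List.mem_flatten.2 ⟨ext a,
      List.mem_append_left _ (List.mem_map_of_mem ha), by simp [ext]⟩, rfl, le_rfl⟩
  · exact ⟨(q.dropLast, q), List.mem_flatten.2 ⟨single q,
      List.mem_append_right _ (List.mem_map_of_mem hq), by simp [single]⟩, rfl, by simp⟩

theorem trans (hc : Ctx S u top) : ∃ Φ' G',
    BInv S u top l (matchAll (grow opn pend) cls).1 (matchAll (grow opn pend) cls).2
      (S.filter fun s => s.length = l) bs Φ' G' ∧
    Evo l opn cls pend Φ (matchAll (grow opn pend) cls).1 (matchAll (grow opn pend) cls).2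
      (S.filter fun s => s.length = l) Φ' := by
  have M := matchAll_spec h.grow_ow h.nd h.val
  generalize matchAll (grow opn pend) cls = m at M ⊢
  have hrev : ∀ e, e ∈ (grow opn pend).reverse.flatten ↔ e ∈ (grow opn pend).flatten :=
    fun e => (List.reverse_perm _).flatten.mem_iff
  obtain ⟨X, b1, b2⟩ := M.bal
  rw [heads_perm (List.reverse_perm _), grow_heads] at b1
  rw [tails_perm (List.reverse_perm _), h.grow_tails] at b2
  have hpG : (pend : Multiset Str) ≤ G :=
    (Multiset.le_iff_subset (by simpa using h.pnd)).2 fun s hs => (h.pend' s (by simpa using hs)).1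
  obtain ⟨F, rfl⟩ := Multiset.le_iff_exists_add.1 hpG
  have bal : F.map List.tail + tails m.1 = F.map List.dropLast + heads m.1 := by
    have := h.bal
    rw [show (pend : Multiset Str) + F + heads opn = F + (heads opn + pend) by abel,
      show (pend : Multiset Str) + F + tails opn = F + (tails opn + pend) by abel,
      Multiset.map_add List.dropLast F, Multiset.map_add List.tail F, b1, b2, ← add_assoc, ← add_assoc] at this
    exact (add_right_cancel this).symm
  have hH : heads m.1 ≤ F.map List.tail := le_of_balance bal fun x hx hx' => by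
    obtain ⟨a, ha, rfl⟩ := mem_heads.1 hx
    obtain ⟨b, hb, h⟩ := mem_tails.1 hx'
    exact M.disj a ha b hb h.symm
  obtain ⟨G', hG1⟩ := Multiset.le_iff_exists_add.1 hH
  have hG2 : F.map List.dropLast = tails m.1 + G' := by
    rw [hG1, show heads m.1 + G' + tails m.1 = tails m.1 + G' + heads m.1 by abel] at bal
    exact (add_right_cancel bal).symm
  have lenF : ∀ q ∈ F, q.length = l + 1 := fun q hq => h.lenG q (Multiset.mem_add.2 (Or.inr hq))
  have lenG' : ∀ q ∈ G', q.length = l := fun q hq => by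
    obtain ⟨g, hg, rfl⟩ := Multiset.mem_map.1 (hG1 ▸ Multiset.mem_add.2 (Or.inr hq))
    simp [lenF g hg]
  have entA : ∀ e ∈ (grow opn pend).flatten, e ∈ m.1.flatten ∨ e ∈ m.2.flatten := fun e he =>
    (M.entA e ((hrev e).2 he)).imp id fun ⟨c, hc, he, _⟩ => List.mem_flatten.2 ⟨c, hc, he⟩
  have entOld : ∀ e, e ∈ opn.flatten ∨ e ∈ cls.flatten → ∃ e', (e' ∈ m.1.flatten ∨
      e' ∈ m.2.flatten) ∧ e'.2 = e.2 ∧ e'.1.length ≤ e.1.length := by
    rintro e (he | he)
    · obtain ⟨e', h1, h2⟩ := grow_old (pend := pend) he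
      exact ⟨e', entA e' h1, h2⟩
    · obtain ⟨c, hc, he⟩ := List.mem_flatten.1 he
      exact ⟨e, Or.inr (List.mem_flatten.2 ⟨c, M.sub c hc, he⟩), rfl, le_rfl⟩
  have ent' : ∀ e, e ∈ m.1.flatten ∨ e ∈ m.2.flatten →
      l < e.2.length ∧ Sub S e.2 ∧ (e.2 ∈ S ∨ e.2 ∈ bs ∨ e.1 = e.2) := by
    rintro e (he | he)
    · exact (h.grow_ent ((hrev e).1 (M.entO e he))).1
    · obtain ⟨c, hc, he⟩ := List.mem_flatten.1 he
      rcases M.entC c hc with h1 | ⟨h1, -⟩
      · obtain ⟨k1, k2⟩ := h.ent e (Or.inr (List.mem_flatten.2 ⟨c, h1, he⟩))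
        exact ⟨by omega, k2⟩
      · exact (h.grow_ent ((hrev e).1 (h1 e he))).1
  let Φ' : Str → Prop := fun q => (l + 1 < q.length ∧ Φ q) ∨ q ∈ F ∨ q ∈ G'
  have hΦ : ∀ q, Φ q → l < q.length → Φ' q ∨ q ∈ pend := fun q h1 h2 => by
    by_cases h3 : q.length = l + 1
    · rcases Multiset.mem_add.1 (h.ΦG q h1 h3) with h4 | h4
      · exact Or.inr (by simpa using h4)
      · exact Or.inl (Or.inr (Or.inl h4))
    · exact Or.inl (Or.inl ⟨by omega, h1⟩)
  refine ⟨Φ', G', ⟨by have := h.ltop; omega, M.ow, M.nd, M.val, ent', hc.nd.filter _, ?_, ?_, ?_,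
    lenG', ?_, ?_, ?_, ?_, ?_, ?_⟩, ?_, ?_, M.sub, ?_, fun d hd => (M.entC d hd).imp id (·.2),
    fun q h1 h2 => Or.inl ⟨h2, h1⟩⟩
  · intro s hs
    obtain ⟨hs, hl⟩ := List.mem_filter.1 hs
    have hl : s.length = l := by simpa using hl
    refine ⟨?_, ⟨s, hs, List.infix_refl _⟩, Or.inl hs⟩
    obtain ⟨p, hp⟩ := hc.occ s hs
    have e : (str (cyc u) (p - 1) (p + s.length)).tail = s := by rw [tail_str, ← hp]
    have hl' : (str (cyc u) (p - 1) (p + s.length)).length = s.length + 1 := by
      rw [length_str]; omega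
    have ho : Occ u (str (cyc u) (p - 1) (p + s.length)) := ⟨p - 1, str_norm _ _ _⟩
    generalize str (cyc u) (p - 1) (p + s.length) = g at e hl' ho
    have big : ∀ q, s <:+: q → s.length < q.length → ¬ Sub S q := by
      rintro q h1 h2 ⟨t, ht, h3⟩
      have := hc.free s hs t ht (h1.trans h3)
      subst this
      have := h3.length_le
      omega
    have hn : ¬ Sub S g := big g (e ▸ (List.tail_suffix _).isInfix) (by omega)
    have hg : g ∈ F := by
      rcases Multiset.mem_add.1 (h.ΦG g (h.spec g ho hn (by omega)) (by omega)) with h4 | h4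
      · exact absurd (h.pend' g (by simpa using h4)).2.1 hn
      · exact h4
    have : s ∈ heads m.1 + G' := hG1 ▸ Multiset.mem_map.2 ⟨g, hg, e⟩
    rcases Multiset.mem_add.1 this with h4 | h4
    · obtain ⟨a, ha, h5⟩ := mem_heads.1 h4
      obtain ⟨f, hf, -, h6⟩ := (M.ow a ha).hd_pre
      obtain ⟨k1, k2, -⟩ := ent' f (Or.inl (List.mem_flatten.2 ⟨a, ha, hf⟩))
      exact absurd k2 (big _ (h5 ▸ h6.isInfix) (by omega))
    · exact h4
  · intro s hs hl
    by_cases h1 : s.length = l + 1
    · obtain ⟨e, he, h2, -⟩ := h.grow_tl (Or.inr (h.covP s hs h1))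
      exact ⟨e, entA e he, h2.symm⟩
    · obtain ⟨e, he, h2⟩ := h.cov s hs (by omega)
      obtain ⟨e', k1, k2, -⟩ := entOld e he
      exact ⟨e', k1, k2.trans h2⟩
  · intro s hs hl
    exact List.mem_filter.2 ⟨hs, by simpa using hl⟩
  · rintro q (h1 | h1 | h1) h2
    · omega
    · have := lenF q h1; omega
    · exact h1
  · rw [add_comm G', add_comm G', ← hG1, ← hG2, Multiset.map_map, Multiset.map_map]
    exact Multiset.map_congr rfl fun x _ => by simp [List.tail_dropLast]
  · rintro g (⟨h1, h2⟩ | h1 | h1) h3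
    · have blk : g.tail ∈ heads opn ∨ g.tail ∈ pend → ∃ e, (e ∈ m.1.flatten ∨ e ∈ m.2.flatten) ∧
          g.tail <+: e.2 ∧ e.1.length < g.tail.length := fun hq => by
        obtain ⟨e, he, h⟩ := h.grow_hd hq
        exact ⟨e, entA e he, h⟩
      rcases h.leakR g h2 h1 with h4 | h4 | ⟨e, he, h4, h5⟩
      · exact (hΦ _ h4 (by simp; omega)).imp id fun h => Or.inr (blk (Or.inr h))
      · exact Or.inr (Or.inr (blk (Or.inl h4)))
      · obtain ⟨e', k1, k2, k3⟩ := entOld e he
        exact Or.inr (Or.inr ⟨e', k1, k2 ▸ h4, by omega⟩)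
    · have : g.tail ∈ heads m.1 + G' := hG1 ▸ Multiset.mem_map_of_mem _ h1
      rcases Multiset.mem_add.1 this with h4 | h4
      · exact Or.inr (Or.inl h4)
      · exact Or.inl (Or.inr (Or.inr h4))
    · have := lenG' g h1; omega
  · rintro g (⟨h1, h2⟩ | h1 | h1) h3
    · have blk : g.dropLast ∈ tails opn ∨ g.dropLast ∈ pend →
          ∃ e, (e ∈ m.1.flatten ∨ e ∈ m.2.flatten) ∧ g.dropLast = e.2 := fun hq => by
        obtain ⟨e, he, h, -⟩ := h.grow_tl hq
        exact ⟨e, entA e he, h⟩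
      rcases h.leakD g h2 h1 with h4 | h4 | ⟨e, he, h4⟩
      · exact (hΦ _ h4 (by simp; omega)).imp id fun h => Or.inr (blk (Or.inr h))
      · exact Or.inr (Or.inr (blk (Or.inl h4)))
      · obtain ⟨e', k1, k2, k3⟩ := entOld e he
        exact Or.inr (Or.inr ⟨e', k1, k2 ▸ h4⟩)
    · have : g.dropLast ∈ tails m.1 + G' := hG2 ▸ Multiset.mem_map_of_mem _ h1
      rcases Multiset.mem_add.1 this with h4 | h4
      · exact Or.inr (Or.inl h4)
      · exact Or.inl (Or.inr (Or.inr h4))
    · have := lenG' g h1; omega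
  · intro q h1 h2
    have := h.ltop
    exact Or.inl ⟨by omega, h.occ q h1 h2⟩
  · have c1 := h.cnt
    have c2 := M.cnt
    have c3 := congrArg Multiset.card hG1
    rw [(List.reverse_perm _).flatten.length_eq] at c2
    rcases grow_len (opn := opn) (pend := pend) with c4 | ⟨a, ha, rfl⟩
    · simp only [Multiset.card_add, Multiset.card_map, heads, Multiset.coe_card,
        List.length_map] at c1 c3
      omega
    · exact absurd rfl (h.ow _ ha).ne
  · intro n h1 hn
    rcases mem_onodes.1 hn with h2 | ⟨e, he, h2, h3⟩ | h2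
    · obtain ⟨a, ha, rfl⟩ := mem_tails.1 h2
      have := (M.ow a ha).lt; omega
    · exact (h.grow_ent ((hrev e).1 (M.entO e he))).2 n h1 h2 h3
    · have : n.length = l := by simpa using (List.mem_filter.1 h2).2
      omega
  · intro n d h1 hd hn
    obtain ⟨e, he, h2, h3⟩ := mem_nodes.1 hn
    exact (M.entC d hd).imp id fun h4 => (h.grow_ent ((hrev e).1 (h4.1 e he))).2 n h1 h2 h3
  · intro n hn
    have : ∃ e ∈ (grow opn pend).flatten, n <+: e.2 ∧ e.1.length ≤ n.length := by
      rcases mem_onodes.1 hn with h2 | ⟨e, he, h2, h3⟩ | h2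
      · obtain ⟨e, he, h3, h4⟩ := h.grow_tl (Or.inl h2)
        exact ⟨e, he, h3 ▸ List.prefix_refl _, h4⟩
      · obtain ⟨e', k1, k2, k3⟩ := grow_old (pend := pend) he
        exact ⟨e', k1, k2 ▸ h2, by omega⟩
      · obtain ⟨e, he, h3, h4⟩ := h.grow_tl (Or.inr h2)
        exact ⟨e, he, h3 ▸ List.prefix_refl _, h4⟩
    obtain ⟨e, he, h2⟩ := this
    rcases M.entA e ((hrev e).2 he) with h3 | ⟨c, hc, h3, h4⟩
    · exact Or.inl (mem_onodes.2 (Or.inr (Or.inl ⟨e, h3, h2⟩)))
    · exact Or.inr ⟨c, hc, mem_nodes.2 ⟨e, h3, h2⟩, h4⟩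

end BInv

end Crest.Agent.SCS
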