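import Crest.Agent.SCS.Str

/-! Walks, closed units and their lifts. -/

set_option autoImplicit false
set_option linter.dupNamespace false

namespace Crest.Agent.SCS

open Crest.Agent.PT

/-- A column of a walk: its lowest and its highest node. -/
abbrev Ent := Str × Str
/-- Walks. -/
abbrev Wk := List Ent

/-- Chains of columns. -/
def Ch : Str → Wk → Str → Prop
  | x, [], z => x = z
  | x, e :: r, z => e.1 = x ∧ e.1 <+: e.2 ∧ e.2 ≠ [] ∧ Ch e.2.tail r z

@[simp] lemma Ch_nil (x z : Str) : Ch x [] z ↔ x = z := Iff.rfl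
@[simp] lemma Ch_cons (x z : Str) (e : Ent) (r : Wk) :
    Ch x (e :: r) z ↔ e.1 = x ∧ e.1 <+: e.2 ∧ e.2 ≠ [] ∧ Ch e.2.tail r z := Iff.rfl

lemma Ch_append {x z : Str} {a b : Wk} : Ch x (a ++ b) z ↔ ∃ m, Ch x a m ∧ Ch m b z := by
  induction a generalizing x with
  | nil => simp
  | cons e r ih => simp only [List.cons_append, Ch_cons, ih]; aesop

lemma Ch.mem {x z : Str} {a : Wk} (h : Ch x a z) {e : Ent} (he : e ∈ a) :
    e.1 <+: e.2 ∧ e.2 ≠ [] ∧ (e.2.tail = z ∨ ∃ e' ∈ a, e'.1 = e.2.tail) := by
  induction a generalizing x with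
  | nil => simp at he
  | cons f r ih =>
    obtain ⟨h1, h2, h3, h4⟩ := h
    rcases List.mem_cons.1 he with rfl | he
    · refine ⟨h2, h3, ?_⟩
      cases r with
      | nil => exact Or.inl h4
      | cons g r => exact Or.inr ⟨g, by simp, h4.1⟩
    · obtain ⟨k1, k2, k3⟩ := ih h4 he
      refine ⟨k1, k2, k3.imp id ?_⟩
      rintro ⟨e', he', h⟩
      exact ⟨e', by simp [he'], h⟩

lemma Ch.getD {x z : Str} {a : Wk} (h : Ch x a z) (i : ℕ) (hi : i < a.length) :
    (a.getD i ([], [])).2.tail = if i + 1 < a.length then (a.getD (i + 1) ([], [])).1 else z := by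
  induction a generalizing x i with
  | nil => simp at hi
  | cons f r ih =>
    obtain ⟨h1, h2, h3, h4⟩ := h
    cases i with
    | zero =>
      cases r with
      | nil => simpa using h4
      | cons g r => simpa using h4.1.symm
    | succ i =>
      have := ih h4 i (by simpa using hi)
      simpa using this

lemma Ch.sum {x z : Str} {a : Wk} (h : Ch x a z) :
    (a.map fun e => e.2.length - e.1.length).sum + x.length = z.length + a.length := by
  induction a generalizing x with
  | nil => simp at h ⊢; rw [h]
  | cons f r ih =>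
    obtain ⟨h1, h2, h3, h4⟩ := h
    have := ih h4
    have := h2.length_le
    have := List.length_pos_iff.2 h3
    simp only [List.map_cons, List.sum_cons, List.length_cons, List.length_tail, ← h1] at *
    omega

/-- First node. -/
def hd (a : Wk) : Str := (a.headD ([], [])).1
/-- Last node. -/
def tl (a : Wk) : Str := (a.reverse.headD ([], [])).2.tail

lemma Ch.hd_tl {x z : Str} {a : Wk} (h : Ch x a z) (hne : a ≠ []) : hd a = x ∧ tl a = z := by
  constructor
  · cases a with
    | nil => simp at hne
    | cons e r => exact h.1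
  · induction a using List.reverseRecOn with
    | nil => simp at hne
    | append_singleton r e _ =>
      obtain ⟨m, -, h2⟩ := Ch_append.1 h
      simpa [tl] using h2.2.2.2

/-- Closed units. -/
def Valid (a : Wk) : Prop := a ≠ [] ∧ ∃ x, Ch x a x

/-- The column with a given index. -/
def ent (a : Wk) (t : ℤ) : Ent := a.getD (t % a.length).toNat ([], [])

lemma ent_per (a : Wk) (t k : ℤ) : ent a (t + k * a.length) = ent a t := by simp [ent]

lemma ent_nat (a : Wk) {t : ℕ} (h : t < a.length) : ent a t = a.getD t ([], []) := by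
  simp only [ent]
  congr 1
  rw [Int.emod_eq_of_lt (by omega) (by omega)]; simp

lemma exists_red {c : ℕ} (hc : 0 < c) (t : ℤ) : ∃ (s : ℕ) (k : ℤ), s < c ∧ t = s + k * c := by
  have h1 := Int.emod_nonneg t (show (c : ℤ) ≠ 0 by omega)
  have h2 := Int.emod_lt_of_pos t (show (0 : ℤ) < c by omega)
  have h3 := Int.ediv_mul_add_emod t c
  exact ⟨(t % c).toNat, t / c, by omega, by rw [Int.toNat_of_nonneg h1]; linarith⟩

lemma Valid.pos {a : Wk} (h : Valid a) : 0 < a.length := List.length_pos_iff.2 h.1

lemma Valid.ent_mem {a : Wk} (h : Valid a) (t : ℤ) : ent a t ∈ a := by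
  obtain ⟨s, k, h1, rfl⟩ := exists_red h.pos t
  rw [ent_per, ent_nat a h1, List.getD_eq_getElem _ _ h1]
  exact List.getElem_mem _

lemma exists_ent {a : Wk} {e : Ent} (he : e ∈ a) : ∃ t : ℕ, t < a.length ∧ ent a t = e := by
  obtain ⟨t, ht, rfl⟩ := List.getElem_of_mem he
  exact ⟨t, ht, by rw [ent_nat a ht, List.getD_eq_getElem _ _ ht]⟩

lemma Valid.mem {a : Wk} (h : Valid a) {e : Ent} (he : e ∈ a) : e.1 <+: e.2 ∧ e.2 ≠ [] := by
  obtain ⟨-, x, hx⟩ := h
  exact ⟨(hx.mem he).1, (hx.mem he).2.1⟩

lemma Valid.link {a : Wk} (h : Valid a) (t : ℤ) : (ent a (t + 1)).1 = (ent a t).2.tail := by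
  obtain ⟨s, k, h1, rfl⟩ := exists_red h.pos t
  obtain ⟨hne, x, hx⟩ := h
  rw [ent_per, ent_nat a h1, hx.getD s h1, show (s : ℤ) + k * a.length + 1 = (s + 1 : ℕ) +
    k * a.length by push_cast; ring, ent_per]
  split_ifs with h2
  · rw [ent_nat a h2]
  · have : ((s + 1 : ℕ) : ℤ) = (0 : ℕ) + 1 * a.length := by push_cast; omega
    rw [this, ent_per, ent_nat a (by omega), ← (hx.hd_tl hne).1]
    cases a with
    | nil => simp at hne
    | cons e r => rfl

/-- The cyclic word of a unit. -/
def word (a : Wk) : Str := a.map fun e => e.2.headD 0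

@[simp] lemma length_word (a : Wk) : (word a).length = a.length := by simp [word]

lemma cyc_word (a : Wk) (t : ℤ) : cyc (word a) t = (ent a t).2.headD 0 := by
  simp only [cyc, ent, word, List.length_map]
  exact List.getD_map (l := a) (d := ([], [])) (fun e : Ent => e.2.headD 0)

/-- The basic lift of a unit. -/
def lift0 (a : Wk) : Lift Wk := ⟨a, cyc (word a), fun t => t + (ent a t).2.length⟩

lemma lift0_h (a : Wk) (t : ℤ) : (lift0 a).h t = t + (ent a t).2.length := rfl
lemma lift0_w (a : Wk) : (lift0 a).w = cyc (word a) := rfl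

lemma Valid.h_pred {a : Wk} (h : Valid a) (t : ℤ) :
    (lift0 a).h (t - 1) = t + (ent a t).1.length := by
  have h1 := h.link (t - 1)
  have h2 := List.length_pos_iff.2 (h.mem (h.ent_mem (t - 1))).2
  rw [sub_add_cancel] at h1
  rw [lift0_h, h1, List.length_tail]
  omega

lemma Valid.top_str {a : Wk} (h : Valid a) (t : ℤ) :
    (ent a t).2 = str (cyc (word a)) t (t + (ent a t).2.length) := by
  refine eq_str (by omega) fun k hk => ?_
  induction k generalizing t with
  | zero =>
    rw [Nat.cast_zero, add_zero, cyc_word]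
    generalize (ent a t).2 = l at hk
    cases l with
    | nil => simp at hk
    | cons b l => rfl
  | succ k ih =>
    have h1 := h.link t
    have h2 := (h.mem (h.ent_mem (t + 1))).1
    have h3 : k < (ent a (t + 1)).1.length := by rw [h1, List.length_tail]; omega
    have h4 := ih (t + 1) (h3.trans_le h2.length_le)
    rw [← h2.getElem h3] at h4
    simp only [h1, List.getElem_tail] at h4
    rw [h4]; congr 1; push_cast; ring

lemma Valid.mono {a : Wk} (h : Valid a) : Monotone (lift0 a).h := by
  refine monotone_int_of_le_succ fun t => ?_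
  have h1 := h.h_pred (t + 1)
  have h2 := (h.mem (h.ent_mem (t + 1))).1.length_le
  rw [add_sub_cancel_right] at h1
  rw [h1, lift0_h]
  omega

/-- The least period. -/
def per (a : Wk) : ℕ :=
  ((mapRange a.length (· + 1)).filter fun p => win (word a) p a.length = word a).headD 1

lemma per_iff {a : Wk} (h : 0 < a.length) (p : ℕ) :
    win (word a) p a.length = word a ↔ Per (cyc (word a)) p := by
  have h0 := str_cyc (word a)
  rw [length_word] at h0
  rw [win_eq]
  constructor
  · intro hw
    have h1 : str (shw (cyc (word a)) (-p)) 0 a.length = str (cyc (word a)) 0 a.length := by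
      rw [str_sh', h0]
      refine Eq.trans ?_ hw
      congr 1 <;> ring
    have hp := per_cyc (word a)
    rw [length_word] at hp
    have := fw1 (p := a.length) (by omega) (fun t => by
      simp only [shw]; rw [show t + a.length - -(p : ℤ) = t - -p + a.length by ring, hp]) hp
      (agr_of_str h1) (by omega)
    intro t
    have := congrFun this t
    simpa [shw] using this
  · intro hp
    have := str_per hp 0 a.length
    rw [zero_add, add_comm] at this
    rw [this, h0]

lemma headD_filter_range {c : ℕ} {P : ℕ → Bool} {q : ℕ} (hq : q < c) (hP : P (q + 1)) :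
    ∃ p, ((mapRange c (· + 1)).filter P).headD 1 = p + 1 ∧ p < c ∧ P (p + 1) ∧ p ≤ q := by
  induction c generalizing q with
  | zero => omega
  | succ c ih =>
    by_cases hex : ∃ q' < c, P (q' + 1)
    · obtain ⟨q', h1, h2⟩ := hex
      obtain ⟨p0, e0, -, -, -⟩ := ih h1 h2
      have hne : (mapRange c (· + 1)).filter P ≠ [] := by
        intro hc
        have : q' + 1 ∈ (mapRange c (· + 1)).filter P :=
          List.mem_filter.2 ⟨mem_mapRange.2 ⟨q', h1, rfl⟩, h2⟩
        simp [hc] at this
      have e : ((mapRange (c + 1) (· + 1)).filter P).headD 1 =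
          ((mapRange c (· + 1)).filter P).headD 1 := by
        simp only [mapRange, List.range_succ, List.map_append, List.filter_append] at hne ⊢
        generalize List.filter P (List.map (· + 1) (List.range c)) = l at hne ⊢
        cases l with
        | nil => simp at hne
        | cons b l => rfl
      rw [e]
      rcases Nat.lt_succ_iff_lt_or_eq.1 hq with h3 | rfl
      · obtain ⟨p, e1, e2, e3, e4⟩ := ih h3 hP
        exact ⟨p, e1, by omega, e3, e4⟩
      · obtain ⟨p, e1, e2, e3, e4⟩ := ih h1 h2
        exact ⟨p, e1, by omega, e3, by omega⟩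
    · have hqc : q = c := by
        by_contra hc
        exact hex ⟨q, by omega, hP⟩
      subst hqc
      have : (mapRange q (· + 1)).filter P = [] := by
        rw [List.filter_eq_nil_iff]
        intro x hx
        obtain ⟨k, hk, rfl⟩ := mem_mapRange.1 hx
        exact fun h => hex ⟨k, hk, h⟩
      refine ⟨q, ?_, by omega, hP, le_rfl⟩
      simp only [mapRange, List.range_succ, List.map_append, List.filter_append] at this ⊢
      simp [this, hP]

lemma per_pos (a : Wk) : 0 < per a := by
  unfold per
  cases h : (mapRange a.length (· + 1)).filter fun p => win (word a) p a.length = word a with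
  | nil => simp
  | cons b l =>
    have : b ∈ (mapRange a.length (· + 1)).filter fun p => win (word a) p a.length = word a := by
      simp [h]
    obtain ⟨k, -, rfl⟩ := mem_mapRange.1 (List.mem_filter.1 this).1
    simp

lemma per_spec {a : Wk} (h : 0 < a.length) : per a ≤ a.length ∧ Per (cyc (word a)) (per a) ∧
    ∀ p : ℤ, 0 < p → Per (cyc (word a)) p → per a ≤ p := by
  have hc : Per (cyc (word a)) ((a.length - 1 + 1 : ℕ) : ℤ) := by
    have := per_cyc (word a)
    rwa [length_word, ← Nat.sub_add_cancel h] at this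
  obtain ⟨p, e1, e2, e3, -⟩ := headD_filter_range (c := a.length) (q := a.length - 1)
    (P := fun p => win (word a) p a.length = word a) (by omega) (by simpa using (per_iff h _).2 hc)
  have e : per a = p + 1 := e1
  refine ⟨by omega, e ▸ (per_iff h _).1 (by simpa using e3), fun q hq hP => ?_⟩
  by_cases hqc : (a.length : ℤ) < q
  · omega
  · obtain ⟨p', f1, -, -, f4⟩ := headD_filter_range (c := a.length) (q := q.toNat - 1)
      (P := fun p => win (word a) p a.length = word a) (by omega) (by
        have : ((q.toNat - 1 + 1 : ℕ) : ℤ) = q := by omega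
        simpa using (per_iff h _).2 (this ▸ hP))
    have : per a = p' + 1 := f1
    omega

lemma per_shw {Q : ℤ → ℕ} {p : ℤ} (d : ℤ) : Per (shw Q d) p ↔ Per Q p := by
  constructor
  · intro h t
    have := h (t + d)
    simp only [shw] at this
    rwa [show t + d + p - d = t + p by ring, add_sub_cancel_right] at this
  · intro h t
    simp only [shw]
    rw [show t + p - d = t - d + p by ring, h]

lemma sh_sh {ι : Type} (y : Lift ι) (d d' : ℤ) : (y.sh d).sh d' = y.sh (d + d') := by
  simp only [Lift.sh, Lift.mk.injEq, true_and]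
  constructor
  · funext t; simp only [shw]; congr 1; ring
  · funext t; rw [show t - d' - d = t - (d + d') by ring]; ring

/-- The static system of all valid units. -/
def ZZ : Stat Wk where
  L y := Valid y.id ∧ ∃ d, y = (lift0 y.id).sh d
  π a := per a
  sh_mem := fun y d ⟨h1, d', h2⟩ => ⟨h1, d' + d, by rw [← sh_sh, Lift.sh_id, ← h2]⟩
  mono := fun y ⟨h1, d, h2⟩ => by
    rw [h2]
    intro s t hst
    have := h1.mono (show s - d ≤ t - d by omega)
    simp only [Lift.sh_h]
    omega
  πpos := fun c => by exact_mod_cast per_pos c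
  per := fun y ⟨h1, d, h2⟩ => by
    rw [h2]
    exact (per_shw d).2 (per_spec h1.pos).2.1
  πmin := fun y y' ⟨h1, d, h2⟩ ⟨h1', d', h2'⟩ hw => by
    have p1 : Per y.w (per y.id) := by rw [h2]; exact (per_shw d).2 (per_spec h1.pos).2.1
    have p2 : Per y'.w (per y'.id) := by rw [h2']; exact (per_shw d').2 (per_spec h1'.pos).2.1
    have q1 := (per_spec h1.pos).2.2 (per y'.id) (by exact_mod_cast per_pos y'.id)
      ((per_shw d).1 (by rw [← hw, h2] at p2; exact p2))
    have q2 := (per_spec h1'.pos).2.2 (per y.id) (by exact_mod_cast per_pos y.id)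
      ((per_shw d').1 (by rw [hw, h2'] at p1; exact p1))
    omega

lemma ZZ_π (a : Wk) : ZZ.π a = per a := rfl

lemma L_lift {a : Wk} (h : Valid a) (d : ℤ) : ZZ.L ((lift0 a).sh d) := ⟨h, d, rfl⟩

end Crest.Agent.SCS
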