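import Crest.Agent.SCS.Nodes

/-! Spelling walks and splicing them. -/

set_option autoImplicit false
set_option linter.dupNamespace false

namespace Crest.Agent.SCS

open Crest.Agent.PT

/-- Spelled walks: appended letters and the node reached. -/
abbrev Gw := List (Str × Str)

/-- Validity of spelled walks. -/
def GW : Str → Gw → Str → Prop
  | a, [], b => a = b
  | a, s :: r, b => s.2 <:+ a ++ s.1 ∧ GW s.2 r b

@[simp] lemma GW_nil (a b : Str) : GW a [] b ↔ a = b := Iff.rfl
@[simp] lemma GW_cons (a b : Str) (s : Str × Str) (r : Gw) :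
    GW a (s :: r) b ↔ s.2 <:+ a ++ s.1 ∧ GW s.2 r b := Iff.rfl

lemma GW_append {a b : Str} {M N : Gw} : GW a (M ++ N) b ↔ ∃ m, GW a M m ∧ GW m N b := by
  induction M generalizing a with
  | nil => simp
  | cons e r ih => simp only [List.cons_append, GW_cons, ih]; aesop

/-- The spelled string. -/
def spell (M : Gw) : Str := (M.map (·.1)).flatten
/-- The visited nodes. -/
def gn (M : Gw) : List Str := M.map (·.2)

@[simp] lemma spell_append (M N : Gw) : spell (M ++ N) = spell M ++ spell N := by simp [spell]
@[simp] lemma gn_append (M N : Gw) : gn (M ++ N) = gn M ++ gn N := by simp [gn]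
@[simp] lemma spell_cons (s : Str × Str) (N : Gw) : spell (s :: N) = s.1 ++ spell N := rfl
@[simp] lemma gn_cons (s : Str × Str) (N : Gw) : gn (s :: N) = s.2 :: gn N := rfl
@[simp] lemma spell_nil : spell [] = [] := rfl
@[simp] lemma gn_nil : gn [] = [] := rfl

lemma GW.infix {a a0 b : Str} {M : Gw} (h : GW a M b) (ha : a <:+ a0) {n : Str} (hn : n ∈ gn M) :
    n <:+: a0 ++ spell M := by
  induction M generalizing a a0 with
  | nil => simp at hn
  | cons s r ih =>
    have h1 : s.2 <:+ a0 ++ s.1 := by
      obtain ⟨t, rfl⟩ := ha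
      exact h.1.trans (by rw [List.append_assoc]; exact List.suffix_append _ _)
    rw [spell_cons, ← List.append_assoc]
    rcases List.mem_cons.1 hn with rfl | hn
    · exact h1.isInfix.trans (List.prefix_append _ _).isInfix
    · exact ih h.2 h1 hn

/-- One step of `cut`. -/
def cutStep (n : Str) (st : Bool × Gw × Gw) (s : Str × Str) : Bool × Gw × Gw :=
  if st.1 then (true, st.2.1, st.2.2 ++ [s]) else (decide (s.2 = n), st.2.1 ++ [s], st.2.2)

/-- Cutting a walk after a visit of `n`. -/
def cut (n : Str) (M : Gw) : Gw × Gw := (M.foldl (cutStep n) (false, [], [])).2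

lemma cut_aux (n : Str) (M : Gw) : let st := M.foldl (cutStep n) (false, [], [])
    st.2.1 ++ st.2.2 = M ∧ (st.1 = false → st.2.2 = [] ∧ n ∉ gn M) ∧
      (st.1 = true → ∃ M' x, st.2.1 = M' ++ [(x, n)]) := by
  induction M using List.reverseRecOn with
  | nil => simp
  | append_singleton M s ih =>
    simp only [List.foldl_append, List.foldl_cons, List.foldl_nil] at ih ⊢
    generalize M.foldl (cutStep n) (false, [], []) = st at ih ⊢
    obtain ⟨b, M1, M2⟩ := st
    obtain ⟨h1, h2, h3⟩ := ih
    cases b
    · obtain ⟨rfl, h4⟩ := h2 rfl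
      simp only [List.append_nil] at h1
      subst h1
      simp only [cutStep, Bool.false_eq_true, if_false, List.append_nil, true_and,
        decide_eq_false_iff_not, decide_eq_true_eq]
      refine ⟨fun h => by simp [h4, Ne.symm h], fun h => ⟨M1, s.1, by rw [← h]⟩⟩
    · simp only [cutStep, if_true, ← List.append_assoc, h1, true_and]
      exact ⟨by simp, fun _ => h3 rfl⟩

lemma cut_append (n : Str) (M : Gw) : (cut n M).1 ++ (cut n M).2 = M := (cut_aux n M).1

lemma GW.cut {a b n : Str} {M : Gw} (h : GW a M b) (hn : n ∈ gn M) :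
    GW a (cut n M).1 n ∧ GW n (cut n M).2 b := by
  obtain ⟨h1, h2, h3⟩ := cut_aux n M
  obtain ⟨M', x, h4⟩ := h3 (by
    by_contra hc
    exact (h2 (by simpa using hc)).2 hn)
  change (SCS.cut n M).1 = _ at h4
  rw [← cut_append n M] at h
  obtain ⟨m, k1, k2⟩ := GW_append.1 h
  have : m = n := by
    rw [h4] at k1
    obtain ⟨m', -, k3⟩ := GW_append.1 k1
    exact k3.2.symm
  subst this
  exact ⟨k1, k2⟩

/-- Rotating a closed walk. -/
def rot (n : Str) (C : Gw) : Gw := (cut n C).2 ++ (cut n C).1

lemma rot_perm (n : Str) (C : Gw) : (rot n C).Perm C := by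
  conv_rhs => rw [← cut_append n C]
  exact List.perm_append_comm

lemma GW.rot {a n : Str} {C : Gw} (h : GW a C a) (hn : n ∈ gn C) : GW n (rot n C) n :=
  GW_append.2 ⟨a, (h.cut hn).2, (h.cut hn).1⟩

/-- Inserting a closed walk. -/
def splice (M : Gw) (n : Str) (C : Gw) : Gw := (cut n M).1 ++ (rot n C ++ (cut n M).2)

lemma splice_perm (M : Gw) (n : Str) (C : Gw) : (splice M n C).Perm (C ++ M) := by
  conv_rhs => rw [← cut_append n M]
  exact (List.perm_append_comm_assoc _ _ _).trans ((rot_perm n C).append_right _)

lemma GW.splice {a b c n : Str} {M C : Gw} (h : GW a M b) (hC : GW c C c) (hn : n ∈ gn M)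
    (hn' : n ∈ gn C) : GW a (splice M n C) b :=
  GW_append.2 ⟨n, (h.cut hn).1, GW_append.2 ⟨n, hC.rot hn', (h.cut hn).2⟩⟩

lemma spell_perm {M N : Gw} (h : M.Perm N) : (spell M).length = (spell N).length :=
  (h.map _).flatten.length_eq

lemma gn_perm {M N : Gw} (h : M.Perm N) {n : Str} : n ∈ gn M ↔ n ∈ gn N := (h.map _).mem_iff

/-- Going up inside a string. -/
def ups (k : ℕ) (D : Str) : Gw :=
  mapRange (D.length - k) fun t => ([D.getD (k + t) 0], D.take (k + t + 1))

/-- Going down inside a string. -/
def downs (D : Str) : Gw := mapRange D.length fun t => ([], D.drop (t + 1))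

lemma mapRange_succ {β : Type} (t : ℕ) (f : ℕ → β) : mapRange (t + 1) f = mapRange t f ++ [f t] := by
  simp [mapRange, List.range_succ]

lemma GW_ups {k : ℕ} {D : Str} (h : k ≤ D.length) : GW (D.take k) (ups k D) D := by
  have : ∀ m, k + m ≤ D.length → GW (D.take k)
      (mapRange m fun t => ([D.getD (k + t) 0], D.take (k + t + 1))) (D.take (k + m)) := by
    intro m
    induction m with
    | zero => intro _; rfl
    | succ m ih =>
      intro hm
      rw [mapRange_succ]
      refine GW_append.2 ⟨_, ih (by omega), ?_, rfl⟩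
      simp only
      rw [List.take_add_one, List.getD_eq_getElem _ _ (by omega), List.getElem?_eq_getElem (by omega)]
      exact List.suffix_refl _
  have h1 := this (D.length - k) (by omega)
  rwa [Nat.add_sub_cancel' h, List.take_length] at h1

lemma GW_downs (D : Str) : GW D (downs D) [] := by
  have : ∀ m, GW D (mapRange m fun t => (([] : Str), D.drop (t + 1))) (D.drop m) := by
    intro m
    induction m with
    | zero => rfl
    | succ m ih =>
      rw [mapRange_succ]
      refine GW_append.2 ⟨_, ih, ?_, rfl⟩
      simp only [List.append_nil]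
      rw [← List.tail_drop]
      exact List.tail_suffix _
  have h1 := this D.length
  rwa [List.drop_length] at h1

lemma spell_ups (k : ℕ) (D : Str) : (spell (ups k D)).length = D.length - k := by
  simp [spell, ups, mapRange, List.length_flatten, Function.comp_def]

lemma spell_downs (D : Str) : (spell (downs D)).length = 0 := by
  simp [spell, downs, mapRange, List.length_flatten, Function.comp_def]

lemma mem_ups {k : ℕ} {D n : Str} (h1 : n <+: D) (h2 : k < n.length) : n ∈ gn (ups k D) := by
  have := h1.length_le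
  refine List.mem_map.2 ⟨_, mem_mapRange.2 ⟨n.length - k - 1, by omega, rfl⟩, ?_⟩
  simp only
  rw [show k + (n.length - k - 1) + 1 = n.length by omega]
  exact (List.prefix_iff_eq_take.1 h1).symm

lemma mem_downs {D n : Str} (h1 : n <:+ D) (h2 : n.length < D.length) : n ∈ gn (downs D) := by
  refine List.mem_map.2 ⟨_, mem_mapRange.2 ⟨D.length - n.length - 1, by omega, rfl⟩, ?_⟩
  simp only
  rw [show D.length - n.length - 1 + 1 = D.length - n.length by omega]
  exact (List.suffix_iff_eq_drop.1 h1).symm

/-- The tour of a unit. -/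
def tour (a : Wk) : Gw := a.flatMap fun e => ups e.1.length e.2 ++ [([], e.2.tail)]

lemma Ch.tour {x z : Str} {a : Wk} (h : Ch x a z) : GW x (tour a) z := by
  induction a generalizing x with
  | nil => exact h
  | cons e r ih =>
    obtain ⟨h1, h2, -, h4⟩ := h
    have := GW_ups h2.length_le
    rw [← List.prefix_iff_eq_take.1 h2] at this
    subst h1
    simp only [SCS.tour, List.flatMap_cons]
    exact GW_append.2 ⟨_, GW_append.2 ⟨_, this, by simpa using List.tail_suffix _, rfl⟩, ih h4⟩

lemma spell_tour (a : Wk) :
    (spell (tour a)).length = (a.map fun e => e.2.length - e.1.length).sum := by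
  induction a with
  | nil => rfl
  | cons e r ih =>
    simp only [tour, List.flatMap_cons, spell_append, List.length_append, spell_ups] at ih ⊢
    simp [ih]

lemma Valid.tour {a : Wk} (h : Valid a) : (∃ x, GW x (tour a) x) ∧
    (spell (tour a)).length = a.length ∧ ∀ n ∈ nodes a, n ∈ gn (tour a) := by
  refine ⟨h.2.imp fun x hx => hx.tour, ?_, fun n hn => ?_⟩
  · obtain ⟨-, x, hx⟩ := h
    have := hx.sum
    rw [spell_tour]; omega
  · obtain ⟨e, he, h1, h2⟩ := mem_nodes.1 hn
    have key : ∀ e ∈ a, ∀ n ∈ gn (ups e.1.length e.2 ++ [([], e.2.tail)]), n ∈ gn (SCS.tour a) := by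
      intro e he n hn
      obtain ⟨s, hs, rfl⟩ := List.mem_map.1 hn
      exact List.mem_map_of_mem (List.mem_flatMap.2 ⟨e, he, hs⟩)
    rcases lt_or_eq_of_le h2 with h3 | h3
    · exact key e he n (by simp [mem_ups h1 h3])
    · obtain ⟨t, -, rfl⟩ := exists_ent he
      have h4 := h.link (t - 1)
      rw [sub_add_cancel] at h4
      have h5 : n = (ent a t).1 :=
        (List.prefix_of_prefix_length_le h1 (h.mem he).1 h3.ge).eq_of_length h3.symm
      exact key _ (h.ent_mem (t - 1)) n (by simp [h5, h4])

/-- A root path. -/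
def rootT (v : Str) : Gw := ups 0 v ++ downs v

/-- The walk made of the root paths. -/
def base (roots : List Str) : Gw := ([], []) :: roots.flatMap rootT

lemma base_spec (roots : List Str) : GW [] (base roots) [] ∧
    (spell (base roots)).length = (roots.map List.length).sum ∧
    ∀ v ∈ roots, ∀ n, n <+: v ∨ n <:+ v → n ∈ gn (base roots) := by
  refine ⟨⟨List.suffix_refl _, ?_⟩, ?_, fun v hv n hn => ?_⟩
  · induction roots with
    | nil => rfl
    | cons v r ih =>
      rw [List.flatMap_cons]
      exact GW_append.2 ⟨_, GW_append.2 ⟨_, by simpa using GW_ups (Nat.zero_le v.length),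
        GW_downs v⟩, ih⟩
  · induction roots with
    | nil => rfl
    | cons v r ih =>
      simp only [base, List.flatMap_cons, spell_cons, spell_append, List.length_append, rootT,
        spell_ups, spell_downs, List.nil_append, List.map_cons, List.sum_cons] at ih ⊢
      omega
  · by_cases h0 : n = []
    · simp [base, h0]
    have h1 := List.length_pos_iff.2 h0
    have : n ∈ gn (rootT v) := by
      rw [rootT, gn_append, List.mem_append]
      rcases hn with hn | hn
      · exact Or.inl (mem_ups hn h1)
      · rcases lt_or_eq_of_le hn.length_le with h2 | h2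
        · exact Or.inr (mem_downs hn h2)
        · exact Or.inl (mem_ups (hn.eq_of_length h2 ▸ List.prefix_refl _) h1)
    obtain ⟨s, hs, rfl⟩ := List.mem_map.1 this
    exact List.mem_cons_of_mem _ (List.mem_map_of_mem (List.mem_flatMap.2 ⟨v, hv, hs⟩))

end Crest.Agent.SCS
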